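import Crest.Agent.R213.Win

/-! Row 213: the window maps satisfy the hypotheses of the abstract orbit lemma. -/

set_option autoImplicit false
open Set Filter Topology

noncomputable section
namespace Crest.Agent.R213

lemma abs_sq1 {a b B1 B : ℝ} (hb : 0 ≤ b) (hB : 1 ≤ B) (h1 : B1 ≤ B) (h : a ≤ B1 * b) :
    √a ≤ B * √b := by
  rw [Real.sqrt_le_iff]
  refine ⟨by positivity, ?_⟩
  rw [mul_pow, Real.sq_sqrt hb]
  nlinarith [mul_nonneg (sub_nonneg.2 h1) hb, mul_nonneg (mul_nonneg (sub_nonneg.2 hB) hb)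
    (by linarith : 0 ≤ B)]

lemma abs_sq2 {a x y : ℝ} (hx : 0 ≤ x) (hy : 0 ≤ y) (h : a ≤ x ^ 2 + y ^ 2) : √a ≤ x + y := by
  rw [Real.sqrt_le_iff]
  exact ⟨by positivity, by nlinarith [mul_nonneg hx hy]⟩

lemma abs_sq3 {a x y z : ℝ} (hx : 0 ≤ x) (hy : 0 ≤ y) (hz : 0 ≤ z) (h : a ≤ x ^ 2 + y ^ 2 + z ^ 2) :
    √a ≤ x + y + z := by
  rw [Real.sqrt_le_iff]
  exact ⟨by positivity, by nlinarith [mul_nonneg hx hy, mul_nonneg hx hz, mul_nonneg hy hz]⟩

lemma abs_mul_le {a B1 B : ℝ} (ha : 0 ≤ a) (hB : 1 ≤ B) (h1 : B1 ≤ B) : B1 * a ≤ B ^ 2 * a :=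
  mul_le_mul_of_nonneg_right (by nlinarith) ha

lemma sol_zero (cf : ℝ → Cf) (s : Set ℝ) : Sol (fun t => rhs 0 (cf t)) (fun _ => 0) s := by
  intro t _
  have : rhs 0 (cf t) 0 = 0 := by rw [← lin_apply, map_zero]
  simp only [this]
  exact JD.const 0

theorem exists_orbit {cf : ℝ → Cf} {c0 K : ℝ} (h : CfOK cf c0 K) (hD : StD) :
    ∃ (τ : ℕ → ℝ) (G : ℕ → ℝ → SF) (b : ℕ → ℝ), StrictMono τ ∧ -1 ≤ τ 0 ∧
      Tendsto τ atTop (𝓝 0) ∧ (∀ k, Sol (fun t => rhs 1 (cf t)) (G k) (Icc (τ k) (τ (k + 1)))) ∧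
      (∀ k, G k (τ (k + 1)) = G (k + 1) (τ (k + 1))) ∧ Tendsto b atTop (𝓝 0) ∧
      ∀ k, ∀ t ∈ Icc (τ k) (τ (k + 1)), Adm 1 cf c0 t (G k t) ∧ II (lam t) (G k t) ≤ b k := by
  classical
  obtain ⟨ε1, hε1⟩ := exists_eps h
  obtain ⟨CA, hCA, hA⟩ := exists_A
  obtain ⟨CT, hCT, hT⟩ := Tr_bd
  obtain ⟨Ck, hCk, hker⟩ := lf_ker
  set ϱ : ℝ := (1 / (8 * CA)) ^ 2 with hϱdef
  have hρ0 : 0 < 1 / (8 * CA) := by positivity
  have hρ1 : 1 / (8 * CA) ≤ 1 / 8 := by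
    apply one_div_le_one_div_of_le <;> linarith
  have hϱ : ϱ ∈ Ioo (0 : ℝ) 1 := ⟨by positivity, by nlinarith⟩
  have hsq : √ϱ = 1 / (8 * CA) := Real.sqrt_sq hρ0.le
  obtain ⟨Bg, hBg, hgen⟩ := win_gen h ϱ hϱ
  obtain ⟨BL, hBL, hLip⟩ := win_Lip h ϱ hϱ
  obtain ⟨Bl, hBl, hlin⟩ := win_lin h ϱ hϱ
  obtain ⟨Bc, hBc, hcmp⟩ := win_cmp h hε1 ϱ hϱ
  obtain ⟨BT, hBT, hTr⟩ := win_Tr h ϱ hϱ
  obtain ⟨εf, lf0, hεf, hεf1, hlf0, hexf⟩ := win_exf h hε1 ϱ hϱ
  obtain ⟨M, hM⟩ := exists_nat_ge (max 1 (8 * Bl * Ck * CA))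
  have hM1 : (1 : ℝ) ≤ M := (le_max_left _ _).trans hM
  have hM1' : 1 ≤ M := by exact_mod_cast hM1
  have hM2 : 8 * Bl * Ck * CA ≤ M := (le_max_right _ _).trans hM
  obtain ⟨A, BA, hBA, hA⟩ := hA (1 / (8 * M)) M (by positivity)
    (by rw [div_le_one (by positivity)]; linarith) (by field_simp; rfl)
  obtain ⟨C1, hC1, hlf1⟩ := lf_bd M 1 one_pos
  obtain ⟨k1, hk1⟩ := exists_pow_lt_of_lt_one (lt_min (by positivity : 0 < 1 / (16 * (M : ℝ))) hlf0)
    hϱ.2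
  set lk : ℕ → ℝ := fun k => ϱ ^ (k + k1) with hlk
  set tk : ℕ → ℝ := fun k => -(lk k) ^ 2 with htk
  have lk0 : ∀ k, 0 < lk k := fun k => pow_pos hϱ.1 _
  have lkρ : ∀ k, lk k ≤ ϱ ^ k := fun k => pow_le_pow_of_le_one hϱ.1.le hϱ.2.le (by omega)
  have lk1 : ∀ k, lk k ≤ 1 := fun k => pow_le_one₀ hϱ.1.le hϱ.2.le
  have lkk : ∀ k, lk k ≤ ϱ ^ k1 := fun k => pow_le_pow_of_le_one hϱ.1.le hϱ.2.le (by omega)
  have lkM : ∀ k, lk k ≤ 1 / (16 * M) := fun k => (lkk k).trans (hk1.le.trans (min_le_left _ _))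
  have lkf : ∀ k, lk k ≤ lf0 := fun k => (lkk k).trans (hk1.le.trans (min_le_right _ _))
  have lkM8 : ∀ k, lk k * M ≤ 1 / 16 := fun k => by
    have := lkM k
    rw [le_div_iff₀ (by positivity)] at this
    linarith
  have lk2 : ∀ k, 2 * lk k ≤ 1 / (8 * M) := fun k => by
    have := lkM k
    have e : 1 / (8 * (M : ℝ)) = 2 * (1 / (16 * M)) := by field_simp; norm_num
    linarith
  have lks : ∀ k, lk (k + 1) = ϱ * lk k := fun k => by simp only [hlk]; ring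
  have lkr : ∀ k k', k ≤ k' → ϱ ^ (k' - k) * lk k = lk k' := fun k k' hk => by
    simp only [hlk]; rw [← pow_add]; congr 1; omega
  have lamt : ∀ k, lam (tk k) = lk k := fun k => by
    simp only [lam, htk, neg_neg]; exact Real.sqrt_sq (lk0 k).le
  have tkr : ∀ k k', k ≤ k' → (ϱ ^ (k' - k)) ^ 2 * tk k = tk k' := fun k k' hk => by
    simp only [htk]; rw [← lkr k k' hk]; ring
  have hlt : ∀ k, tk k < tk (k + 1) := fun k => by
    simp only [htk, lks]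
    have := lk0 k
    have h2 : ϱ ^ 2 < 1 := by nlinarith [hϱ.1, hϱ.2]
    nlinarith [mul_pos this this]
  have hw : ∀ k, Win ϱ (tk k) (tk (k + 1)) := fun k =>
    ⟨by simp only [htk]; nlinarith [lk0 k, lk1 k], by simp only [htk]; nlinarith [lk0 k],
      (hlt k).le, by simp only [htk, lks]; nlinarith⟩
  have hend : ∀ k, tk (k + 1) ∈ Icc (tk k) (tk (k + 1)) := fun k => ⟨(hlt k).le, le_rfl⟩
  have hmem : ∀ k, ∀ t ∈ Icc (tk k) (tk (k + 1)), t ∈ Ico (-1 : ℝ) 0 := fun k t ht =>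
    ((hw k).mem hϱ.1 ht).1
  choose S hS using fun k => win_exS h ϱ hϱ (hw k)
  choose GS hGS hGS1 hGS2 using hS
  have hF : ∀ k u, ∃ G : ℝ → SF, OO (lk k) u ≤ εf →
      Sol (fun t => rhs 1 (cf t)) G (Icc (tk k) (tk (k + 1))) ∧ G (tk k) = u ∧
        ∀ t ∈ Icc (tk k) (tk (k + 1)), OO (lam t) (G t) ≤ ε1 := fun k u => by
    by_cases hu : OO (lk k) u ≤ εf
    · obtain ⟨G, hG⟩ := hexf _ _ (hw k) (by rw [lamt]; exact lkf k) u (by rwa [lamt])
      exact ⟨G, fun _ => hG⟩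
    · exact ⟨fun _ => 0, fun h => absurd h hu⟩
  choose GF hGF using hF
  choose N hN using fun k => exists_N (lk0 k)
  choose O hO using fun k => exists_O (lk k)
  choose L hL using fun k => exists_L (lk0 k)
  have a0 : ∀ k (G : ℝ → SF), ∀ t ∈ Icc (tk k) (tk (k + 1)), Adm 0 cf c0 t (G t) :=
    fun k G t ht => adm_zero h (hmem k t ht) _
  have hOε : ∀ k u, O k u ≤ √εf → OO (lk k) u ≤ εf := fun k u hu => by
    rw [hO] at hu
    exact (Real.sqrt_le_sqrt_iff hεf.le).1 hu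
  have a1 : ∀ k u, OO (lk k) u ≤ εf → ∀ t ∈ Icc (tk k) (tk (k + 1)), Adm 1 cf c0 t (GF k u t) :=
    fun k u hu t ht => hε1.2.2 t (hmem k t ht) _ ((hGF k u hu).2.2 t ht)
  have hN2 : ∀ k u, N k u ^ 2 = II (lk k) u := fun k u => by
    rw [hN, Real.sq_sqrt (II_nonneg (lk0 k) u)]
  have hO2 : ∀ k u, O k u ^ 2 = OO (lk k) u := fun k u => by
    rw [hO, Real.sq_sqrt (OO_nonneg _ u)]
  have hL2 : ∀ k u, L k u ^ 2 = LL (lk k) u := fun k u => by
    rw [hL, Real.sq_sqrt (LL_nonneg (lk0 k) u)]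
  obtain ⟨B, hB, hB1, hB2, hB3, hB4, hB5, hB6, hB7⟩ : ∃ B : ℝ, 1 ≤ B ∧ Bg ≤ B ∧ BL ≤ B ∧ BT ≤ B ∧
      BA ≤ B ∧ CT ≤ B ∧ 1 + C1 ≤ B ∧ Bc * (Bg + 1) ≤ B := by
    have : 0 ≤ Bc * (Bg + 1) := by positivity
    exact ⟨1 + Bg + BL + BT + BA + CT + C1 + Bc * (Bg + 1), by linarith, by linarith, by linarith,
      by linarith, by linarith, by linarith, by linarith, by linarith⟩
  have hB0 : 0 ≤ B := by linarith
  have hρk : ∀ k : ℕ, 0 ≤ ϱ ^ k := fun k => pow_nonneg hϱ.1.le k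
  have habs : AbsHyp N O L S (fun k => lf (lk k) M) (fun k => A (lk k))
      (fun k k' => Tr (ϱ ^ (k' - k))) (fun k u => GF k u (tk (k + 1))) (1 / 2) ϱ B (√εf) := by
    refine ⟨by norm_num, by norm_num, hϱ.1.le, hϱ.2, hB, Real.sqrt_pos.2 hεf, ?_, ?_, ?_, ?_, ?_, ?_,
      ?_, ?_, ?_, ?_, ?_, ?_, ?_, ?_, ?_, ?_⟩
    · intro k u
      obtain ⟨h1, h2⟩ := (hA (lk k) (lk0 k) (lk2 k)).1 u
      set η := u - A (lk k) (lf (lk k) M u)
      have h3 := hlin _ _ (hw k) _ (hGS k η) _ (hend k)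
      rw [hGS1, hGS2, lamt, lamt, lks, mul_div_cancel_right₀ _ (lk0 k).ne', hsq, ← lks] at h3
      have h4 := hker (lk k) M (lk0 k) (lk1 k) hM1' (by linarith [lkM8 k]) η h1
      have hI := II_nonneg (lk0 k) η
      have hIu := II_nonneg (lk0 k) u
      have h5 : Bl * (Ck / (M : ℝ) ^ 2) ≤ 1 / (8 * CA) := by
        rw [← mul_div_assoc, div_le_div_iff₀ (by positivity) (by positivity)]
        nlinarith
      have h6 : II (lk (k + 1)) (S k η) ≤ 2 * (1 / (8 * CA)) * II (lk k) η := by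
        have := mul_le_mul_of_nonneg_left h4 hBl
        have := mul_le_mul_of_nonneg_right h5 hI
        nlinarith
      have h7 : II (lk (k + 1)) (S k η) ≤ (1 / 2) ^ 2 * II (lk k) u := by
        have := mul_le_mul_of_nonneg_left h2 (by positivity : 0 ≤ 2 * (1 / (8 * CA)))
        have e : 2 * (1 / (8 * CA)) * (CA * II (lk k) u) = (1 / 2) ^ 2 * II (lk k) u := by
          field_simp; ring
        linarith
      rw [hN, Real.sqrt_le_iff, mul_pow, hN2]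
      exact ⟨by have := apply_nonneg (N k) u; positivity, h7⟩
    · intro k u
      have h3 := (hgen 0 (Or.inl rfl) _ _ (hw k) _ (hGS k u) (a0 k _) _ (hend k)).1
      rw [hGS1, hGS2, lamt, lamt, zero_mul, add_zero] at h3
      rw [hN, hN]
      exact abs_sq1 (II_nonneg (lk0 k) u) hB hB1 h3
    · intro k u
      have h3 := (hgen 0 (Or.inl rfl) _ _ (hw k) _ (hGS k u) (a0 k _) _ (hend k)).2
      rw [hGS1, hGS2, lamt, lamt, zero_mul, add_zero] at h3
      rw [hO (k + 1)]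
      refine abs_sq2 (apply_nonneg _ _) (mul_nonneg hB0 (apply_nonneg _ _)) ?_
      rw [mul_pow, hO2, hN2]
      linarith [abs_mul_le (II_nonneg (lk0 k) u) hB hB1]
    · intro k u
      have h3 := hlf1 (lk k) (lk0 k) (lk1 k) (by linarith [lkM8 k]) u
      have h4 := mul_le_mul_of_nonneg_left (LL_le_II (lk0 k) u) hC1
      rw [hN, ← Real.sqrt_sq (norm_nonneg (lf (lk k) M u))]
      exact abs_sq1 (II_nonneg (lk0 k) u) hB hB6 (by linarith)
    · intro k α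
      have h3 := (hA (lk k) (lk0 k) (lk2 k)).2.1 α
      have h4 := II_le_OO (lk0 k) (A (lk k) α)
      rw [hN, ← Real.sqrt_sq (norm_nonneg α)]
      exact abs_sq1 (sq_nonneg _) hB hB4 (h4.trans h3)
    · intro k α
      have h3 := (hA (lk k) (lk0 k) (lk2 k)).2.1 α
      rw [hO, ← Real.sqrt_sq (norm_nonneg α)]
      exact abs_sq1 (sq_nonneg _) hB hB4 h3
    · intro k u
      rw [hL, hN]
      exact Real.sqrt_le_sqrt (LL_le_II (lk0 k) u)
    · intro δ hδ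
      obtain ⟨C, hC, hb⟩ := lf_bd M (δ ^ 2) (by positivity)
      refine ⟨√C, fun k u => ?_⟩
      have h3 := hb (lk k) (lk0 k) (lk1 k) (by linarith [lkM8 k]) u
      rw [← Real.sqrt_sq (norm_nonneg (lf (lk k) M u))]
      refine abs_sq2 (mul_nonneg hδ.le (apply_nonneg _ _))
        (mul_nonneg (Real.sqrt_nonneg _) (apply_nonneg _ _)) ?_
      rw [mul_pow, mul_pow, hN2, hL2, Real.sq_sqrt hC]
      exact h3
    · intro k k' hk u
      have := lf_Tr (M := M) (lk0 k) (pow_pos hϱ.1 (k' - k)) (by linarith [lkM8 k])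
        (by rw [lkr k k' hk]; linarith [lkM8 k']) u
      rwa [lkr k k' hk] at this
    · intro k k' hk α
      have := (hA (lk k) (lk0 k) (lk2 k)).2.2 _ (pow_pos hϱ.1 (k' - k))
        (pow_le_one₀ hϱ.1.le hϱ.2.le) α
      rwa [lkr k k' hk] at this
    · intro k k' hk u
      have := (hT (lk k) _ (lk0 k) (lk1 k) (pow_pos hϱ.1 (k' - k))
        (by rw [lkr k k' hk]; exact lk1 k') u).1
      rw [lkr k k' hk] at this
      rw [hN, hN]
      exact abs_sq1 (II_nonneg (lk0 k') u) hB hB5 this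
    · intro k k' hk u u'
      have e1 := tkr k k' hk
      have e2 : (ϱ ^ (k' - k)) ^ 2 * tk (k + 1) = tk (k' + 1) := by
        have := tkr (k + 1) (k' + 1) (by omega)
        rwa [Nat.add_sub_add_right] at this
      have h3 := hTr _ _ (hw k) _ (pow_pos hϱ.1 (k' - k)) (pow_le_one₀ hϱ.1.le hϱ.2.le) _ (GS k' u')
        (hGS k u) (by rw [e1, e2]; exact hGS k' u')
      rw [e1, e2, hGS1, hGS1, hGS2, hGS2, lamt, lamt, lkr k k' hk] at h3
      simp only [Nat.add_sub_add_right]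
      rw [hL (k + 1)]
      refine abs_sq2 (mul_nonneg hB0 (apply_nonneg _ _))
        (mul_nonneg (mul_nonneg hB0 (hρk k)) (apply_nonneg _ _)) ?_
      rw [mul_pow, mul_pow, mul_pow, hL2, hN2]
      have h4 : lk k ^ 4 ≤ (ϱ ^ k) ^ 2 := by
        have := lk0 k
        have h5 : lk k ^ 4 ≤ lk k ^ 2 := pow_le_pow_of_le_one this.le (lk1 k) (by norm_num)
        exact h5.trans (pow_le_pow_left₀ this.le (lkρ k) 2)
      have hI := II_nonneg (lk0 k') u'
      have h6 := mul_le_mul_of_nonneg_right h4 hI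
      have h7 := abs_mul_le (add_nonneg (LL_nonneg (lk0 k) (u - Tr (ϱ ^ (k' - k)) u'))
        (mul_nonneg (pow_pos (lk0 k) 4).le hI)) hB hB3
      have h8 := mul_le_mul_of_nonneg_left h6 (sq_nonneg B)
      nlinarith
    · intro k u
      have h3 := hLip 0 (Or.inl rfl) _ _ (hw k) _ _ (hGS k u) (a0 k _) (sol_zero cf _) (a0 k _) _
        (hend k)
      simp only [sub_zero] at h3
      rw [hGS1, hGS2, lamt, lamt] at h3
      rw [hL, hL]
      exact abs_sq1 (LL_nonneg (lk0 k) u) hB hB2 h3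
    · intro k u hu hu'
      have hu0 := hOε k u hu
      obtain ⟨g1, g2, g3⟩ := hGF k u hu0
      have h2 := fun t ht => (hgen 1 (Or.inr rfl) _ _ (hw k) _ g1 (a1 k u hu0) t ht).2
      have h3 := hcmp _ _ (hw k) _ _ _ g1 (hGS k u) (by rw [g2, hGS1])
        (fun t ht => ⟨g3 t ht, h2 t ht⟩) _ (hend k)
      rw [g2, hGS2, lamt, lamt, one_mul] at h3
      rw [hN (k + 1)]
      have n0 := apply_nonneg (N k) u
      have o0 := apply_nonneg (O k) u
      refine abs_sq2 (by positivity) (mul_nonneg hB0 (hρk k)) (h3.trans ?_)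
      rw [← hN2, ← hO2]
      have n1 : N k u ≤ 1 := hu'.trans (Real.sqrt_le_one.2 hεf1)
      have l0 := lk0 k
      have l1 := lk1 k
      have l2 : lk k ^ 2 ≤ (ϱ ^ k) ^ 2 := pow_le_pow_left₀ l0.le (lkρ k) 2
      have l3 : lk k ^ 3 ≤ lk k ^ 2 := pow_le_pow_of_le_one l0.le l1 (by norm_num)
      set n := N k u
      set o := O k u
      set p := (ϱ ^ k) ^ 2
      have p0 : 0 ≤ p := sq_nonneg _
      have n2 : n ^ 2 ≤ 1 := by nlinarith
      have i1 : (o ^ 2 + Bg * (n ^ 2 + lk k ^ 2)) * n ^ 2 + lk k ^ 3 ≤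
          (Bg + 1) * (((o + n) * n) ^ 2 + p) := by
        have j1 : lk k ^ 2 * n ^ 2 ≤ p := by nlinarith [sq_nonneg (lk k)]
        have j2 : (o ^ 2 + n ^ 2) * n ^ 2 ≤ ((o + n) * n) ^ 2 := by
          rw [mul_pow]
          exact mul_le_mul_of_nonneg_right (by nlinarith [mul_nonneg o0 n0]) (sq_nonneg _)
        have j3 : 0 ≤ o ^ 2 * n ^ 2 := by positivity
        have j4 : 0 ≤ n ^ 2 * n ^ 2 := by positivity
        have j5 := mul_le_mul_of_nonneg_left j1 (by linarith : 0 ≤ Bg)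
        have j6 := mul_le_mul_of_nonneg_left j2 (by linarith : 0 ≤ Bg + 1)
        have j7 := mul_nonneg (by linarith : 0 ≤ Bg) j3
        nlinarith
      have i2 := mul_le_mul_of_nonneg_left i1 hBc
      have i3 := abs_mul_le (a := ((o + n) * n) ^ 2 + p) (by positivity) hB hB7
      have e : (B * (o + n) * n) ^ 2 + (B * ϱ ^ k) ^ 2 = B ^ 2 * (((o + n) * n) ^ 2 + p) := by
        simp only [p]; ring
      rw [e]
      linarith
    · intro k u hu hu'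
      have hu0 := hOε k u hu
      obtain ⟨g1, g2, g3⟩ := hGF k u hu0
      have h3 := (hgen 1 (Or.inr rfl) _ _ (hw k) _ g1 (a1 k u hu0) _ (hend k)).2
      rw [g2, lamt, lamt, one_mul] at h3
      rw [hO (k + 1)]
      refine abs_sq3 (apply_nonneg _ _) (mul_nonneg hB0 (apply_nonneg _ _))
        (mul_nonneg hB0 (hρk k)) (h3.trans ?_)
      rw [mul_pow, mul_pow, hO2, hN2]
      have l2 : lk k ^ 2 ≤ (ϱ ^ k) ^ 2 := pow_le_pow_left₀ (lk0 k).le (lkρ k) 2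
      have h7 := abs_mul_le (add_nonneg (II_nonneg (lk0 k) u) (sq_nonneg (lk k))) hB hB1
      have h8 := mul_le_mul_of_nonneg_left l2 (sq_nonneg B)
      nlinarith
    · intro k u u' hu _ hu' _
      have hu0 := hOε k u hu
      have hu1 := hOε k u' hu'
      obtain ⟨g1, g2, -⟩ := hGF k u hu0
      obtain ⟨g1', g2', -⟩ := hGF k u' hu1
      have h3 := hLip 1 (Or.inr rfl) _ _ (hw k) _ _ g1 (a1 k u hu0) g1' (a1 k u' hu1) _ (hend k)
      rw [g2, g2', lamt, lamt] at h3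
      rw [hL, hL]
      exact abs_sq1 (LL_nonneg (lk0 k) _) hB hB2 h3
  obtain ⟨k0, u, hu, hlim⟩ := hD SF _ N O L S _ _ _ _ _ _ _ _ habs
  have hu0 : ∀ j, OO (lk (j + k0)) (u (j + k0)) ≤ εf := fun j => hOε _ _ (hu _ (by omega)).1
  have lk_lim : Tendsto lk atTop (𝓝 0) :=
    (tendsto_pow_atTop_nhds_zero_of_lt_one hϱ.1.le hϱ.2).comp (tendsto_add_atTop_nat k1)
  have e : ∀ j, j + 1 + k0 = j + k0 + 1 := fun j => by omega
  refine ⟨fun j => tk (j + k0), fun j => GF (j + k0) (u (j + k0)),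
    fun j => Bg * (N (j + k0) (u (j + k0)) ^ 2 + lk (j + k0) ^ 3), ?_, ?_, ?_, ?_, ?_, ?_, ?_⟩
  · refine strictMono_nat_of_lt_succ fun j => ?_
    simp only [e]; exact hlt _
  · exact (hw _).lo
  · have := ((lk_lim.pow 2).neg).comp (tendsto_add_atTop_nat k0)
    simpa [Function.comp_def] using this
  · intro j
    simp only [e]; exact (hGF _ _ (hu0 j)).1
  · intro j
    have h1 := (hGF _ _ (hu0 (j + 1))).2.1
    have h2 := (hu (j + k0) (by omega)).2.2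
    simp only [e] at h1 ⊢
    rw [h1, h2]
  · have := (((hlim.pow 2).add (lk_lim.pow 3)).const_mul Bg).comp (tendsto_add_atTop_nat k0)
    simpa [Function.comp_def] using this
  · intro j t ht
    simp only [e] at ht
    obtain ⟨g1, g2, -⟩ := hGF _ _ (hu0 j)
    refine ⟨a1 _ _ (hu0 j) t ht, ?_⟩
    have h3 := (hgen 1 (Or.inr rfl) _ _ (hw _) _ g1 (a1 _ _ (hu0 j)) t ht).1
    rwa [g2, lamt, one_mul, ← hN2] at h3

end Crest.Agent.R213
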