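import Crest.Agent.R213.Ops
import Crest.Prelude.Def_ProjKahler

/-! Row 213: the interfaces of the blocks.  `StP` (one-dimensional blow-up solution) follows from
`StE` (shrinker), `StD` (abstract orbit lemma) and the energy method; `StG` turns it into S0331. -/

set_option autoImplicit false
open Set Filter Topology

noncomputable section
namespace Crest.Agent.R213

/-- A self-similar shrinker, given by its jets `g i = g^{(i)}` on `[0,∞)`.  With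
`Σ = y² g'' + 22 y g' + 110 g` the equation is `g + y g' + 2 (1 - y g)² Σ'' = 0`. -/
structure IsShrinker (g : ℕ → ℝ → ℝ) (c0 : ℝ) : Prop where
  deriv : ∀ i y, 0 ≤ y → HasDerivWithinAt (g i) (g (i + 1) y) (Ici 0) y
  ode : ∀ y, 0 ≤ y → g 0 y + y * g 1 y +
    2 * (1 - y * g 0 y) ^ 2 * (y ^ 2 * g 4 y + 26 * y * g 3 y + 156 * g 2 y) = 0
  c0_pos : 0 < c0
  lower : ∀ y, 0 ≤ y → c0 ≤ 1 - y * g 0 y
  symb : ∀ i, ∃ C, ∀ y, 0 ≤ y → (1 + y) ^ (i + 1) * |g i y| ≤ C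
  pos : 0 < g 0 0

/-- Block E -/
def StE : Prop := ∃ g c0, IsShrinker g c0

/-- a blowing-up solution of the reduced flow on `[0,T)` -/
def IsBlowup (T : ℝ) (Γ : ℝ → SF) (a0 : ℝ) : Prop :=
  0 < T ∧ Sol flow Γ (Ico 0 T) ∧ (∀ t ∈ Ico 0 T, ∀ x, 0 < ev x (1 - q * Γ t)) ∧ 0 < a0 ∧
    Tendsto (fun t => ev 0 (Γ t) * √(T - t)) (𝓝[Iio T] T) (𝓝 a0)

/-- Block P (one-dimensional PDE) -/
def StP : Prop := ∃ T Γ a0, IsBlowup T Γ a0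

open Crest.GeometryTopology.ProjKahler in
/-- the statement of S0331 -/
def Final : Prop :=
  ∃ T : ℝ, 0 < T ∧ ∃ h : ℝ → ProjExtension 10, IsCalabiFlowFS h T ∧
      IsUnitarilyInvariant (h 0).h ∧
      ∃ (p : V 10) (a : ℝ), 0 < a ∧
        Filter.Tendsto (fun t => scalarCurv (fun u => fsPot u + (h t).h u) p * Real.sqrt (T - t))
          (nhdsWithin T (Set.Iio T)) (nhds a)

/-- Block G -/
def StG : Prop := StP → Final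

/-- Hypotheses of the abstract orbit lemma.  Index `k` is the scale; `S k`, `f k` map scale `k` to
scale `k+1`, `Tr k k'` (`k ≤ k'`) maps scale `k'` to scale `k`. -/
structure AbsHyp {E : Type} [AddCommGroup E] [Module ℝ E] {d : ℕ}
    (N O L : ℕ → Seminorm ℝ E) (S : ℕ → E →ₗ[ℝ] E) (l : ℕ → E →ₗ[ℝ] (Fin d → ℝ))
    (A : ℕ → (Fin d → ℝ) →ₗ[ℝ] E) (Tr : ℕ → ℕ → E →ₗ[ℝ] E) (f : ℕ → E → E)
    (θ ϱ B ε : ℝ) : Prop where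
  θ_nonneg : 0 ≤ θ
  θ_lt : θ < 1
  ϱ_nonneg : 0 ≤ ϱ
  ϱ_lt : ϱ < 1
  B_pos : 1 ≤ B
  ε_pos : 0 < ε
  contr : ∀ k u, N (k + 1) (S k (u - A k (l k u))) ≤ θ * N k u
  S_N : ∀ k u, N (k + 1) (S k u) ≤ B * N k u
  S_O : ∀ k u, O (k + 1) (S k u) ≤ O k u + B * N k u
  l_N : ∀ k u, ‖l k u‖ ≤ B * N k u
  A_N : ∀ k α, N k (A k α) ≤ B * ‖α‖
  A_O : ∀ k α, O k (A k α) ≤ B * ‖α‖
  L_N : ∀ k u, L k u ≤ N k u
  l_L : ∀ δ, 0 < δ → ∃ C, ∀ k u, ‖l k u‖ ≤ δ * N k u + C * L k u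
  l_Tr : ∀ k k', k ≤ k' → ∀ u, l k (Tr k k' u) = l k' u
  Tr_A : ∀ k k', k ≤ k' → ∀ α, Tr k k' (A k' α) = A k α
  Tr_N : ∀ k k', k ≤ k' → ∀ u, N k (Tr k k' u) ≤ B * N k' u
  Tr_S : ∀ k k', k ≤ k' → ∀ u u', L (k + 1) (S k u - Tr (k + 1) (k' + 1) (S k' u')) ≤
    B * L k (u - Tr k k' u') + B * ϱ ^ k * N k' u'
  S_L : ∀ k u, L (k + 1) (S k u) ≤ B * L k u
  f_N : ∀ k u, O k u ≤ ε → N k u ≤ ε →
    N (k + 1) (f k u - S k u) ≤ B * (O k u + N k u) * N k u + B * ϱ ^ k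
  f_O : ∀ k u, O k u ≤ ε → N k u ≤ ε → O (k + 1) (f k u) ≤ O k u + B * N k u + B * ϱ ^ k
  f_L : ∀ k u u', O k u ≤ ε → N k u ≤ ε → O k u' ≤ ε → N k u' ≤ ε →
    L (k + 1) (f k u - f k u') ≤ B * L k (u - u')

/-- Block D: a small true orbit of the nonlinear maps tending to zero. -/
def StD : Prop :=
  ∀ (E : Type) [AddCommGroup E] [Module ℝ E] (d : ℕ) (N O L : ℕ → Seminorm ℝ E)
    (S : ℕ → E →ₗ[ℝ] E) (l : ℕ → E →ₗ[ℝ] (Fin d → ℝ)) (A : ℕ → (Fin d → ℝ) →ₗ[ℝ] E)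
    (Tr : ℕ → ℕ → E →ₗ[ℝ] E) (f : ℕ → E → E) (θ ϱ B ε : ℝ),
    AbsHyp N O L S l A Tr f θ ϱ B ε →
    ∃ (k0 : ℕ) (u : ℕ → E), (∀ k, k0 ≤ k → O k (u k) ≤ ε ∧ N k (u k) ≤ ε ∧ u (k + 1) = f k (u k)) ∧
      Tendsto (fun k => N k (u k)) atTop (𝓝 0)

end Crest.Agent.R213
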