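import Crest.Agent.R213.Tr
import Crest.Agent.R213.Iface

/-! Row 213: the approximate solution built from the shrinker, blow-up time `t = 0`. -/

set_option autoImplicit false
open Set Filter Topology
open scoped ContDiff

noncomputable section
namespace Crest.Agent.R213

/-- the scale `λ(t) = √(-t)` -/
def lam (t : ℝ) : ℝ := √(-t)

lemma lam_pos {t : ℝ} (ht : t < 0) : 0 < lam t := Real.sqrt_pos.2 (neg_pos.2 ht)
lemma lam_sq {t : ℝ} (ht : t ≤ 0) : lam t ^ 2 = -t := Real.sq_sqrt (neg_nonneg.2 ht)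
lemma lam_le_one {t : ℝ} (ht : -1 ≤ t) : lam t ≤ 1 := by
  rw [lam, Real.sqrt_le_left zero_le_one]
  linarith
lemma lam_anti {s t : ℝ} (h : s ≤ t) : lam t ≤ lam s := by
  exact Real.sqrt_le_sqrt (neg_le_neg h)
lemma lam_mul {r : ℝ} (hr : 0 ≤ r) (t : ℝ) : lam (r ^ 2 * t) = r * lam t := by
  rw [lam, lam, ← mul_neg, Real.sqrt_mul (sq_nonneg r), Real.sqrt_sq hr]
lemma hasDerivAt_lam {t : ℝ} (ht : t < 0) : HasDerivAt lam (-(1 / (2 * lam t))) t := by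
  have h := (hasDerivAt_neg t).sqrt (neg_pos.2 ht).ne'
  rw [neg_div] at h
  exact h

/-- what the energy method needs from the coefficients -/
structure CfOK (cf : ℝ → Cf) (c0 K : ℝ) : Prop where
  c0_pos : 0 < c0
  one_le : 1 ≤ K
  lower : ∀ t ∈ Ico (-1 : ℝ) 0, ∀ x, c0 ≤ ev x (cf t).a
  bd : ∀ t ∈ Ico (-1 : ℝ) 0, (cf t).Bd (lam t) 40 K
  jc : CfJC cf (Ico (-1) 0)
  agree : ∀ t ∈ Ico (-1 : ℝ) 0, ∀ r ∈ Ioc (0 : ℝ) 1, ∀ G : SF,
    Agree (1 / 8) (r ^ 2 • Tr r (rhs 0 (cf (r ^ 2 * t)) G)) (rhs 0 (cf t) (Tr r G))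

structure AppOK (cf : ℝ → Cf) (Γa : ℝ → SF) (c0 K g0 : ℝ) : Prop where
  ok : CfOK cf c0 K
  der : ∀ t ∈ Ico (-1 : ℝ) 0, ∃ U, JD Γa U (Ico (-1) 0) t ∧
    ∀ G, U + rhs 1 (cf t) G = flow t (Γa t + G)
  a_eq : ∀ t ∈ Ico (-1 : ℝ) 0, (cf t).a = 1 - q * Γa t
  val0 : ∀ t ∈ Ico (-1 : ℝ) 0, ev 0 (Γa t) = g0 / lam t - 1
  g0_pos : 0 < g0

section
variable {g : ℕ → ℝ → ℝ} {c0 : ℝ}

lemma IsShrinker.jets (h : IsShrinker g c0) {l : ℝ} (h0 : 0 < l) (i : ℕ) :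
    ∀ x ∈ I01, HasDerivWithinAt (fun x => g i (x / l) / l ^ (i + 1))
      (g (i + 1) (x / l) / l ^ (i + 1 + 1)) I01 x := by
  intro x hx
  have h1 := (h.deriv i (x / l) (div_nonneg hx.1 h0.le)).comp x
    ((hasDerivAt_id x).div_const l).hasDerivWithinAt
    (show MapsTo (fun y : ℝ => id y / l) I01 (Ici 0) from fun y hy => div_nonneg hy.1 h0.le)
  have h2 := h1.div_const (l ^ (i + 1))
  have e : g (i + 1) (x / l) / l ^ (i + 1 + 1) = g (i + 1) (x / l) * (1 / l) / l ^ (i + 1) := by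
    rw [pow_succ l (i + 1)]
    field_simp
  rw [e]
  exact h2

open Classical in
/-- the self-similar solution `Γ° = g(x/l)/l` -/
def Gs (h : IsShrinker g c0) (l : ℝ) : SF :=
  if h0 : 0 < l then ofJets (fun i x => g i (x / l) / l ^ (i + 1)) (h.jets h0) else 0

lemma ev_Dn_Gs (h : IsShrinker g c0) {l : ℝ} (h0 : 0 < l) (i : ℕ) (x : I01) :
    ev x (Dn i (Gs h l)) = g i (x / l) / l ^ (i + 1) := by
  simp only [Gs, h0, dif_pos]
  exact ev_Dn_ofJets (fun i x => g i (x / l) / l ^ (i + 1)) (h.jets h0) i x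

/-- `(𝒜° f)''` with `𝒜° f = x² f'' + 22 x f' + 110 f` -/
def Bo (f : SF) : SF := X ^ 2 * Dn 4 f + (26 : ℝ) • (X * Dn 3 f) + (156 : ℝ) • Dn 2 f

lemma apa_Aop (G : SF) : Aop 0 G = X ^ 2 * D (D ((1 - X) ^ 2 * G)) +
    (22 : ℝ) • (X * D ((1 - X) ^ 2 * G)) + (110 : ℝ) • ((1 - X) ^ 2 * G) := by
  simp only [Aop_apply, dl_apply, q, pp, pow_two, D_mul, map_add, map_sub, Derivation.map_smul, D_X,
    Derivation.map_one_eq_zero, map_zero]
  refine SF.ext' fun x => ?_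
  simp only [map_add, map_mul, map_sub, ev_smul, map_one, map_zero, ev_X]
  push_cast
  ring

lemma apa_Bo (f : SF) :
    Dn 2 (X ^ 2 * D (D f) + (22 : ℝ) • (X * D f) + (110 : ℝ) • f) = Bo f := by
  simp only [Bo, Dn_succ, Dn_zero, pow_two, D_mul, map_add, Derivation.map_smul, D_X,
    Derivation.map_one_eq_zero]
  refine SF.ext' fun x => ?_
  simp only [map_add, map_mul, ev_smul, map_one, map_zero, ev_X]
  ring

/-- `𝒜_0 G = 𝒜° ((1-X)² G)`: expand with `D_mul`, `D_X`, `ring` (or cancel `X^9` in `mu_Aop`) -/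
lemma Bop_eq_Bo (G : SF) : Bop G = Bo ((1 - X) ^ 2 * G) := by
  rw [Bop_apply, apa_Aop, apa_Bo]

/-- time derivative of `Γ°` -/
def Gt (h : IsShrinker g c0) (l : ℝ) : SF := -((1 - X * Gs h l) ^ 2 * Bo (Gs h l))
/-- `Γ_app` -/
def Ga (h : IsShrinker g c0) (l : ℝ) : SF := chid * (Gs h l - 1)
def cfa (h : IsShrinker g c0) (l : ℝ) : Cf where
  a := 1 - q * Ga h l
  e1 := (2 : ℝ) • (q * (1 - q * Ga h l) * Bop (Ga h l))
  e2 := -(q ^ 2 * Bop (Ga h l))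
  e0 := -(chid * Gt h l + (1 - q * Ga h l) ^ 2 * Bop (Ga h l))

/-- the profile equation: `(Γ° + X Γ°')/(2 l²) = Gt` -/
lemma Gs_ode (h : IsShrinker g c0) {l : ℝ} (h0 : 0 < l) :
    (1 / (2 * l ^ 2)) • (Gs h l + X * D (Gs h l)) = Gt h l := by
  refine SF.ext' fun x => ?_
  have e0 := ev_Dn_Gs h h0 0 x
  have e1 := ev_Dn_Gs h h0 1 x
  rw [Dn_zero] at e0
  rw [Dn_one] at e1
  have ho := h.ode (x / l) (div_nonneg x.2.1 h0.le)
  simp only [Gt, Bo, map_add, map_mul, map_sub, map_neg, map_pow, ev_smul, map_one, ev_X, e0, e1,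
    ev_Dn_Gs h h0]
  generalize g 0 (x / l) = a0 at ho ⊢
  generalize g 1 (x / l) = a1 at ho ⊢
  generalize g 2 (x / l) = a2 at ho ⊢
  generalize g 3 (x / l) = a3 at ho ⊢
  generalize g 4 (x / l) = a4 at ho ⊢
  obtain ⟨y, hy⟩ : ∃ y, (x : ℝ) = l * y := ⟨x / l, by field_simp⟩
  rw [hy, mul_div_cancel_left₀ _ h0.ne'] at ho
  rw [hy]
  have hl := h0.ne'
  field_simp
  linear_combination l ^ 15 * ho

lemma apb_Dn_X (i : ℕ) (f : SF) :
    Dn i (f + X * D f) = ((i : ℝ) + 1) • Dn i f + X * Dn (i + 1) f := by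
  induction i with
  | zero => simp [Dn_one]
  | succ i ih =>
    rw [Dn_succ, ih, map_add, D_mul, D_X, Derivation.map_smul, ← Dn_succ, ← Dn_succ, one_mul,
      Nat.cast_succ, add_smul ((i : ℝ) + 1), one_smul, add_assoc (_ • _)]

lemma apb_ev (h : IsShrinker g c0) {l : ℝ} (h0 : 0 < l) (i : ℕ) (x : I01) :
    ev x (Dn i (-(1 / l) • (Gs h l + X * D (Gs h l)))) = -(1 / l) *
      (((i : ℝ) + 1) * (g i (x / l) / l ^ (i + 1)) + x * (g (i + 1) (x / l) / l ^ (i + 1 + 1))) := by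
  rw [map_smul, ev_smul, apb_Dn_X, map_add, map_mul, ev_smul, ev_X, ev_Dn_Gs h h0, ev_Dn_Gs h h0]

lemma apb_cont (h : IsShrinker g c0) (i : ℕ) :
    ContinuousOn (fun p : ℝ × I01 => g i (p.2 / p.1)) (Ioi 0 ×ˢ univ) :=
  ContinuousOn.comp (g := g i) (t := Ici 0) (fun y hy => (h.deriv i y hy).continuousWithinAt)
    ((by fun_prop : ContinuousOn (fun p : ℝ × I01 => (p.2 : ℝ)) _).div continuousOn_fst
      fun p hp => ne_of_gt hp.1) fun p hp => div_nonneg p.2.2.1 (le_of_lt hp.1)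

/-- `∂_l Γ° = -(Γ° + X Γ°')/l`.  `hasDerivAt_CC` on `U = Ioi 0`: `Dn i (Γ° + X Γ°') =
(i+1) Dn i Γ° + X Dn (i+1) Γ°`; at `x = 0` the jet is `g i 0 / l^(i+1)`, for `x > 0` use
`HasDerivWithinAt.hasDerivAt (Ici_mem_nhds _)`; continuity by `continuousOn_CC`. -/
lemma JD_Gs (h : IsShrinker g c0) {l : ℝ} (h0 : 0 < l) :
    JD (Gs h) (-(1 / l) • (Gs h l + X * D (Gs h l))) univ l := by
  intro i
  refine (hasDerivAt_CC (Φ' := fun l => ((Dn i (-(1 / l) • (Gs h l + X * D (Gs h l))) : SF) : CC))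
    isOpen_Ioi (fun τ hτ x => ?_) (continuousOn_CC ?_) h0).hasDerivWithinAt
  · have hτ' : τ ≠ 0 := ne_of_gt hτ
    have h2 : HasDerivAt (fun σ : ℝ => (x : ℝ) / σ) (-x / τ ^ 2) τ := by
      simpa using (hasDerivAt_const τ (x : ℝ)).fun_div (hasDerivAt_id' τ) hτ'
    have h1 := ((h.deriv i _ (div_nonneg x.2.1 (le_of_lt hτ))).comp τ
      (h2.hasDerivWithinAt (s := Ioi 0)) fun σ hσ => div_nonneg x.2.1 (le_of_lt hσ)).hasDerivAt
      (Ioi_mem_nhds hτ)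
    refine ((h1.fun_div (hasDerivAt_pow (i + 1) τ) (pow_ne_zero _ hτ')).congr_deriv
      ?_).congr_of_eventuallyEq ((eventually_gt_nhds hτ).mono fun σ hσ => ev_Dn_Gs h hσ i x)
    rw [← ev_def, apb_ev h hτ, Function.comp_apply, Nat.add_sub_cancel]
    push_cast
    field_simp
    ring
  · have hp : ∀ p ∈ Ioi (0 : ℝ) ×ˢ (univ : Set I01), p.1 ≠ 0 := fun p hp => ne_of_gt hp.1
    refine ContinuousOn.congr ?_ fun p hp => apb_ev h hp.1 i p.2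
    exact (continuousOn_const.div continuousOn_fst hp).neg.mul
      ((continuousOn_const.mul ((apb_cont h i).div (continuousOn_fst.pow _)
        fun p h' => pow_ne_zero _ (hp p h'))).add
      ((by fun_prop : ContinuousOn (fun p : ℝ × I01 => (p.2 : ℝ)) _).mul
        ((apb_cont h (i + 1)).div (continuousOn_fst.pow _) fun p h' => pow_ne_zero _ (hp p h'))))

lemma JD_Ga (h : IsShrinker g c0) {t : ℝ} (ht : t < 0) :
    JD (fun τ => Ga h (lam τ)) (chid * Gt h (lam t)) univ t := by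
  have h0 := lam_pos ht
  have h1 := (((JD_Gs h h0).comp (hasDerivAt_lam ht).hasDerivWithinAt (mapsTo_univ _ univ)).sub
    (JD.const 1)).const_mul chid
  rw [sub_zero, smul_smul, show -(1 / (2 * lam t)) * -(1 / lam t) = 1 / (2 * lam t ^ 2) by
    field_simp, Gs_ode h h0] at h1
  exact h1

lemma cfa_jc (h : IsShrinker g c0) : CfJC (fun t => cfa h (lam t)) (Ico (-1) 0) := by
  have hs : JC (fun t => Gs h (lam t)) (Ico (-1) 0) := fun i t ht =>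
    ((JD_Gs h (lam_pos ht.2)).comp (hasDerivAt_lam ht.2).hasDerivWithinAt (mapsTo_univ _ _)
      i).continuousWithinAt
  have ha : JC (fun t => Ga h (lam t)) (Ico (-1) 0) := (JC.const chid).mul (hs.sub (JC.const 1))
  have h1 := (JC.const 1).sub ((JC.const q).mul ha)
  have ht : JC (fun t => Gt h (lam t)) (Ico (-1) 0) :=
    ((((JC.const 1).sub ((JC.const X).mul hs)).pow 2).mul ((((JC.const (X ^ 2)).mul (hs.Dn 4)).add
      (((JC.const X).mul (hs.Dn 3)).smul 26)).add ((hs.Dn 2).smul 156))).neg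
  exact ⟨h1, (((JC.const q).mul h1).mul ha.Bop).smul 2, ((JC.const (q ^ 2)).mul ha.Bop).neg,
    (((JC.const chid).mul ht).add ((h1.pow 2).mul ha.Bop)).neg⟩

lemma cfa_flow (h : IsShrinker g c0) (l t : ℝ) (G : SF) :
    chid * Gt h l + rhs 1 (cfa h l) G = flow t (Ga h l + G) := by
  simp only [rhs, cfa, flow, one_smul, map_add, two_smul]
  ring

/-- `a = (1 - χ) + χ (1 - x Γ°)/(1-x)` -/
lemma cfa_lower (h : IsShrinker g c0) {l : ℝ} (h0 : 0 < l) (x : I01) :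
    min 1 c0 ≤ ev x (cfa h l).a := by
  have e0 := ev_Dn_Gs h h0 0 x
  rw [Dn_zero] at e0
  have hl := h.lower (x / l) (div_nonneg x.2.1 h0.le)
  obtain ⟨hc0, hc1⟩ := ev_cut_mem (1 / 4) x
  have hp := h.c0_pos
  simp only [cfa, Ga, map_sub, map_mul, map_one, ev_q, ev_chid, e0, chi]
  generalize ev x (cut (1 / 4)) = κ at hc0 hc1 ⊢
  rcases x.2.2.eq_or_lt with h1 | h1
  · rw [h1, sub_self, mul_zero, zero_mul, sub_zero]
    exact min_le_left _ _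
  · have hx : 0 < 1 - (x : ℝ) := sub_pos.2 h1
    have e : 1 - x * (1 - x) * (κ / (1 - x) ^ 2 * (g 0 (x / l) / l ^ (0 + 1) - 1)) =
        (1 - κ) + κ * ((1 - x / l * g 0 (x / l)) / (1 - x)) := by
      field_simp
      ring
    have h2 : c0 ≤ (1 - x / l * g 0 (x / l)) / (1 - x) := by
      rw [le_div_iff₀ hx]
      nlinarith [x.2.1]
    rw [e]
    nlinarith [min_le_left 1 c0, min_le_right 1 c0, mul_le_mul_of_nonneg_left h2 hc0]

/-- symbol classes: `T_m (F l) ≤ C ℓ^e` -/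
def ApS (m : ℕ) (e : ℤ) (F : ℝ → SF) : Prop :=
  ∃ C, 0 ≤ C ∧ ∀ l, 0 < l → l ≤ 1 → ∀ x : I01, Tv l m (F l) x ≤ C * ((x : ℝ) + l) ^ e

namespace ApS
variable {m : ℕ} {e e' : ℤ} {F G : ℝ → SF}

lemma out {k : ℕ} (h : ApS m (-(k : ℤ)) F) : ∃ C, 0 ≤ C ∧ ∀ l, 0 < l → l ≤ 1 → ∀ x : I01,
    ((x : ℝ) + l) ^ k * Tv l m (F l) x ≤ C := by
  obtain ⟨C, hC, h⟩ := h
  refine ⟨C, hC, fun l h0 h1 x => ?_⟩
  have hp := pow_pos (ell_pos h0 x) k
  refine (mul_le_mul_of_nonneg_left (h l h0 h1 x) hp.le).trans (le_of_eq ?_)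
  rw [zpow_neg, zpow_natCast]
  field_simp

lemma mul (hF : ApS m e F) (hG : ApS m e' G) : ApS m (e + e') fun l => F l * G l := by
  obtain ⟨C, hC, h⟩ := Tv_mul m
  obtain ⟨A, hA, hF⟩ := hF
  obtain ⟨B, hB, hG⟩ := hG
  refine ⟨C * (A * B), by positivity, fun l h0 h1 x => (h l h0 h1 _ _ x).trans ?_⟩
  have hp := ell_pos h0 x
  rw [zpow_add₀ hp.ne', mul_assoc]
  refine mul_le_mul_of_nonneg_left ?_ hC
  calc _ ≤ A * ((x : ℝ) + l) ^ e * (B * ((x : ℝ) + l) ^ e') :=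
      mul_le_mul (hF l h0 h1 x) (hG l h0 h1 x) (Tv_nonneg h0 _ _ _) (by positivity)
    _ = _ := by ring

lemma add (hF : ApS m e F) (hG : ApS m e G) : ApS m e fun l => F l + G l := by
  obtain ⟨A, hA, hF⟩ := hF
  obtain ⟨B, hB, hG⟩ := hG
  refine ⟨2 * A + 2 * B, by positivity, fun l h0 h1 x => (Tv_add h0 m _ _ x).trans ?_⟩
  linarith [hF l h0 h1 x, hG l h0 h1 x]

lemma neg (hF : ApS m e F) : ApS m e fun l => -F l := by
  simpa only [ApS, Tv_neg] using hF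

lemma sub (hF : ApS m e F) (hG : ApS m e G) : ApS m e fun l => F l - G l := by
  simpa only [sub_eq_add_neg] using hF.add hG.neg

lemma smul (c : ℝ) (hF : ApS m e F) : ApS m e fun l => c • F l := by
  obtain ⟨A, hA, hF⟩ := hF
  refine ⟨c ^ 2 * A, by positivity, fun l h0 h1 x => ?_⟩
  rw [Tv_smul, mul_assoc]
  exact mul_le_mul_of_nonneg_left (hF l h0 h1 x) (sq_nonneg c)

lemma cast (hF : ApS m e F) (h : e = e') : ApS m e' F := h ▸ hF

lemma sq (hF : ApS m e F) : ApS m (e + e) fun l => F l ^ 2 := by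
  simpa only [pow_two] using hF.mul hF

lemma mono (hF : ApS m e F) (k : ℕ) : ApS m (e - k) F := by
  obtain ⟨A, hA, hF⟩ := hF
  refine ⟨A * 2 ^ k, by positivity, fun l h0 h1 x => (hF l h0 h1 x).trans ?_⟩
  have hp := ell_pos h0 x
  have h2 : ((x : ℝ) + l) ^ e = ((x : ℝ) + l) ^ k * ((x : ℝ) + l) ^ (e - k) := by
    rw [← zpow_natCast, ← zpow_add₀ hp.ne']
    congr 1
    ring
  rw [h2, mul_assoc]
  exact mul_le_mul_of_nonneg_left (mul_le_mul_of_nonneg_right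
    (pow_le_pow_left₀ hp.le (ell_le h1 x) k) (by positivity)) hA

lemma fixed (m : ℕ) (f : SF) : ApS m 0 fun _ => f := by
  simpa only [ApS, zpow_zero, mul_one] using Tv_fixed m f

lemma of_q (m : ℕ) : ApS m 2 fun _ => q := Tv_q m
lemma of_X (m : ℕ) : ApS m 2 fun _ => X := Tv_X m

lemma bop (hF : ApS (m + 4) e F) : ApS m (e - 4) fun l => Bop (F l) := by
  obtain ⟨C, hC, h⟩ := Tv_Bop m
  obtain ⟨A, hA, hF⟩ := hF
  refine ⟨C * A, by positivity, fun l h0 h1 x => ?_⟩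
  have hp := ell_pos h0 x
  have h2 := (h l h0 h1 (F l) x).trans (mul_le_mul_of_nonneg_left (hF l h0 h1 x) hC)
  rw [zpow_sub₀ hp.ne', ← mul_div_assoc, le_div_iff₀ (by positivity), mul_comm, mul_assoc]
  exact h2

lemma gs (h : IsShrinker g c0) (m k : ℕ) : ApS m (-((2 * k + 2 : ℕ) : ℤ)) fun l => Dn k (Gs h l) := by
  choose C hC using h.symb
  refine tcb_gen m _ (fun l x => ((x : ℝ) + l) ^ (-((2 * k + 2 : ℕ) : ℤ))) (fun i => C (i + k) ^ 2)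
    (fun i => sq_nonneg _) fun l h0 _ x i => ?_
  have hp := ell_pos h0 x
  have h1 := hC (i + k) (x / l) (div_nonneg x.2.1 h0.le)
  have h2 : |((x : ℝ) + l) ^ (i + k + 1) * (g (i + k) (x / l) / l ^ (i + k + 1))| ≤ C (i + k) := by
    refine le_trans (le_of_eq ?_) h1
    rw [abs_mul, abs_div, abs_of_pos (pow_pos hp _), abs_of_pos (pow_pos h0 _),
      show 1 + (x : ℝ) / l = (x + l) / l by field_simp; ring, div_pow]
    ring
  have h3 := pow_le_pow_left₀ (abs_nonneg _) h2 2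
  rw [sq_abs] at h3
  rw [Dn_Dn, ev_Dn_Gs h h0, zpow_neg, zpow_natCast, ← div_eq_mul_inv, le_div_iff₀ (by positivity)]
  refine le_trans (le_of_eq ?_) h3
  ring

lemma ga (h : IsShrinker g c0) (m : ℕ) : ApS m (-2) (Ga h) :=
  ((fixed m chid).mul ((gs h m 0).sub (((fixed m 1).mono 2).cast (by norm_num)))).cast (by norm_num)

lemma gt (h : IsShrinker g c0) (m : ℕ) : ApS m (-6) (Gt h) := by
  have h1 : ApS m 0 fun l => 1 - X * Gs h l :=
    (fixed m 1).sub (((of_X m).mul (gs h m 0)).cast (by norm_num))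
  have h2 : ApS m (-6) fun l => Bo (Gs h l) :=
    ((((of_X m).sq.mul (gs h m 4)).cast (by norm_num)).add
      ((((of_X m).mul (gs h m 3)).cast (by norm_num)).smul 26)).add
      (((gs h m 2).cast (by norm_num)).smul 156)
  exact ((h1.sq.mul h2).cast (by norm_num)).neg

end ApS

/-- `ℓ^{i+1} |Γ°^{(i)}| ≤ C_i` (`symb`), `Tv_le_s` -/
lemma Tv_Gs (h : IsShrinker g c0) (m : ℕ) : ∃ C, 0 ≤ C ∧ ∀ l, 0 < l → l ≤ 1 → ∀ x : I01,
    ((x : ℝ) + l) ^ 2 * Tv l m (Gs h l) x ≤ C :=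
  (ApS.gs h m 0).out
lemma Tv_Ga (h : IsShrinker g c0) (m : ℕ) : ∃ C, 0 ≤ C ∧ ∀ l, 0 < l → l ≤ 1 → ∀ x : I01,
    ((x : ℝ) + l) ^ 2 * Tv l m (Ga h l) x ≤ C :=
  ApS.out (k := 2) (ApS.ga h m)
/-- `ℓ^{2k} (Dn k f)`-type bounds: `Dn i (Dn k Γ°) = Γ°^{(i+k)}`, `Tv_le_s`, `Tv_X`, `Tv_mul` -/
lemma Tv_Gt (h : IsShrinker g c0) (m : ℕ) : ∃ C, 0 ≤ C ∧ ∀ l, 0 < l → l ≤ 1 → ∀ x : I01,
    ((x : ℝ) + l) ^ 6 * Tv l m (Gt h l) x ≤ C :=
  ApS.out (k := 6) (ApS.gt h m)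

/-- on `[0,1/4]`: `(1-X)² Γ_app = Γ° - 1`, `(1-x) a = 1 - x Γ°`, `𝓑Γ_app = Bo Γ°` (`Bo 1 = 0`) -/
lemma e0_agree (h : IsShrinker g c0) (l : ℝ) : Agree (1 / 4) (cfa h l).e0 0 := by
  intro x hx
  have hc : ev x chi = 1 := ev_cut_one (by norm_num) hx
  have h1 : Agree (1 / 4) ((1 - X) ^ 2 * Ga h l) (Gs h l - 1) := by
    intro y hy
    rw [Ga, ← mul_assoc, mul_comm _ chid, chid_mul, map_mul,
      show ev y chi = 1 from ev_cut_one (by norm_num) hy, one_mul]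
  have h2 : ∀ i, ev x (Dn (i + 1) ((1 - X) ^ 2 * Ga h l)) = ev x (Dn (i + 1) (Gs h l)) := by
    intro i
    rw [h1.Dn (by norm_num) (i + 1) x hx, map_sub, Dn_succ' i 1, Derivation.map_one_eq_zero,
      map_zero, sub_zero]
  have h3 : ev x (Bop (Ga h l)) = ev x (Bo (Gs h l)) := by
    simp only [Bop_eq_Bo, Bo, map_add, map_mul, ev_smul, h2]
  have hx1 : 1 - (x : ℝ) ≠ 0 := by linarith
  have h4 : ev x (Ga h l) = (ev x (Gs h l) - 1) / (1 - x) ^ 2 := by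
    rw [Ga, map_mul, ev_chid, hc, map_sub, map_one]
    ring
  simp only [cfa, Gt, map_add, map_mul, map_sub, map_neg, map_pow, map_one, map_zero, ev_X, ev_q,
    ev_chid, hc, h3, h4]
  field_simp
  ring

/-- `Tv_Ga`, `Tv_Gt`, `Tv_Bop`, `Tv_q`, `Tv_mul`; for `e0`: zero jets on `[0,1/4]` (`e0_agree`,
`Agree.Dn`), and `ℓ ≥ 1/4` elsewhere -/
lemma cfa_bd (h : IsShrinker g c0) (m : ℕ) : ∃ K, 1 ≤ K ∧ ∀ l, 0 < l → l ≤ 1 → (cfa h l).Bd l m K := by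
  have ha : ApS m 0 fun l => 1 - q * Ga h l :=
    (ApS.fixed m 1).sub (((ApS.of_q m).mul (ApS.ga h m)).cast (by norm_num))
  have hB : ApS m (-6) fun l => Bop (Ga h l) := (ApS.ga h (m + 4)).bop.cast (by norm_num)
  have h1 : ApS m (-(4 : ℕ)) fun l => (cfa h l).e1 :=
    ((((ApS.of_q m).mul ha).mul hB).cast (by norm_num)).smul 2
  have h2 : ApS m (-(2 : ℕ)) fun l => (cfa h l).e2 :=
    (((ApS.of_q m).sq.mul hB).cast (by norm_num)).neg
  have h3 : ApS m (-(6 : ℕ)) fun l => (cfa h l).e0 :=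
    ((((ApS.fixed m chid).mul (ApS.gt h m)).cast (by norm_num)).add
      ((ha.sq.mul hB).cast (by norm_num))).neg
  obtain ⟨A, hA, ka⟩ := ApS.out (k := 0) ha
  obtain ⟨B, hB, k1⟩ := h1.out
  obtain ⟨C, hC, k2⟩ := h2.out
  obtain ⟨E, hE, k3⟩ := h3.out
  refine ⟨1 + A + B + C + 4 ^ 6 * E, by linarith [mul_nonneg (by norm_num : (0 : ℝ) ≤ 4 ^ 6) hE],
    fun l h0 h1 x => ⟨?_, by linarith [k1 l h0 h1 x], by linarith [k2 l h0 h1 x], ?_⟩⟩
  · have := ka l h0 h1 x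
    rw [pow_zero, one_mul] at this
    change Tv l m (1 - q * Ga h l) x ≤ _
    linarith
  · rcases le_total (x : ℝ) (1 / 4) with hx | hx
    · rw [Tv_congr l m fun i => (e0_agree h l).Dn (by norm_num) i x hx, ← zero_smul ℝ (0 : SF), Tv_smul]
      linarith
    · have h4 : (1 / 4 : ℝ) ^ 6 ≤ ((x : ℝ) + l) ^ 6 := pow_le_pow_left₀ (by norm_num) (by linarith) 6
      have h5 := (mul_le_mul_of_nonneg_right h4 (Tv_nonneg h0 m (cfa h l).e0 x)).trans (k3 l h0 h1 x)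
      linarith

lemma d_ev_Bo (f : SF) (x : I01) : ev x (Bo f) =
    (x : ℝ) ^ 2 * ev x (Dn 4 f) + 26 * (x * ev x (Dn 3 f)) + 156 * ev x (Dn 2 f) := by
  simp only [Bo, map_add, map_mul, map_pow, ev_smul, ev_X]

lemma d_Bo_scale {f f' : SF} {x y : I01} {r : ℝ} (hy : (y : ℝ) = r * x)
    (h : ∀ i, ev x (Dn i f) = r ^ (i + 1) * ev y (Dn i f')) : ev x (Bo f) = r ^ 3 * ev y (Bo f') := by
  rw [d_ev_Bo, d_ev_Bo, h, h, h, hy]; ring

lemma d_chi (f : SF) : Agree (1 / 4) (chi * f) f := fun x hx => by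
  rw [map_mul, chi, ev_cut_one (by norm_num) hx, one_mul]

lemma d_rhs (h : IsShrinker g c0) (l : ℝ) (G : SF) {x : I01} (hx : (x : ℝ) ≤ 1 / 4) :
    (1 - (x : ℝ)) ^ 2 * ev x (rhs 0 (cfa h l) G) =
      -((1 - x * ev x (Gs h l)) ^ 2 * ev x (Bo ((1 - X) ^ 2 * G))) +
        2 * x * (1 - x * ev x (Gs h l)) * ev x (Bo (Gs h l)) * ev x ((1 - X) ^ 2 * G) := by
  have h1 : (1 - (x : ℝ)) ≠ 0 := by linarith
  have e1 : ev x (Bop (Ga h l)) = ev x (Bo (Gs h l)) := by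
    have e : ∀ i, ev x (Dn (i + 1) ((1 - X) ^ 2 * Ga h l)) = ev x (Dn (i + 1) (Gs h l)) := fun i => by
      rw [Ga, ← mul_assoc, mul_comm _ chid, chid_mul, (d_chi _).Dn (by norm_num) _ x hx, Dn_succ',
        Dn_succ', map_sub, Derivation.map_one_eq_zero, sub_zero]
    rw [Bop_eq_Bo, d_ev_Bo, d_ev_Bo, e 3, e 2, e 1]
  have e2 : ev x (Ga h l) = (ev x (Gs h l) - 1) / (1 - x) ^ 2 := by
    rw [Ga, map_mul, ev_chid, chi, ev_cut_one (by norm_num) hx, map_sub, map_one]; ring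
  simp only [rhs, cfa, zero_smul, sub_zero, add_zero, map_add, map_neg, map_mul, map_pow, map_sub, map_one,
    ev_smul, ev_q, ev_X, e1, e2]
  rw [← Bop_eq_Bo]
  field_simp
  ring

lemma d_Tr {r : ℝ} (hr : 0 < r) (G : SF) {x y : I01} (hy : (y : ℝ) = r * x) (hx : (x : ℝ) ≤ 1 / 8)
    (hy4 : (y : ℝ) ≤ 1 / 4) (i : ℕ) :
    ev x (Dn i ((1 - X) ^ 2 * Tr r G)) = r ^ (i + 1) * ev y (Dn i ((1 - X) ^ 2 * G)) := by
  have e : Agree (1 / 8) ((1 - X) ^ 2 * Tr r G) (r • Sc r ((1 - X) ^ 2 * G)) := fun z hz => by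
    rw [Tr_apply, mul_smul_comm, ← mul_assoc, mul_comm _ kapd, kapd_mul, ev_smul, ev_smul, map_mul,
      ev_cut_one (by norm_num) hz, one_mul]
  rw [e.Dn (by norm_num) i x hx, map_smul, ev_smul, ev_Dn_Sc hr.le, ← hy, ext_coe, ← ev_def,
    (d_chi _).Dn (by norm_num) i y hy4]
  ring

/-- Exact self-similarity near `0`.  For `x ≤ 1/8`, `y = r x`, `ψ = (1-X)² G`, `H = Tr r G`:
`(1-X)² H` agrees with `r • Sc r ψ` on `[0,1/8]`, whose jets at `x` are `r^{i+1} ψ^{(i)}(y)`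
(`ev_Dn_Sc`, `Agree (1/4) (chi * ψ) ψ`), so `𝓑H (x) = r³ (Bo ψ)(y)` (`Bop_eq_Bo`); and on `[0,1/4]`,
`(1-x)² (rhs 0 (cfa l) G)(x) = -(1 - xΓ°)² (Bo ψ)(x) + 2 x (1 - xΓ°) (Bo Γ°)(x) ψ(x)` with
`x Γ°_l(x) = y Γ°_{rl}(y)`, `(Bo Γ°_l)(x) = r³ (Bo Γ°_{rl})(y)` (`ev_Dn_Gs`). -/
lemma cfa_agree (h : IsShrinker g c0) {l r : ℝ} (h0 : 0 < l) (hr : 0 < r) (hr1 : r ≤ 1) (G : SF) :
    Agree (1 / 8) (r ^ 2 • Tr r (rhs 0 (cfa h (r * l)) G)) (rhs 0 (cfa h l) (Tr r G)) := by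
  intro x hx
  have hx0 := x.2.1
  have hrx : r * x ≤ x := mul_le_of_le_one_left hx0 hr1
  obtain ⟨y, hy⟩ : ∃ y : I01, (y : ℝ) = r * x := ⟨⟨r * x, by positivity, hrx.trans x.2.2⟩, rfl⟩
  have hy4 : (y : ℝ) ≤ 1 / 4 := by linarith
  have h1 : (1 - (x : ℝ)) ^ 2 ≠ 0 := pow_ne_zero _ (by linarith)
  have eG : ∀ i, ev x (Dn i (Gs h l)) = r ^ (i + 1) * ev y (Dn i (Gs h (r * l))) := fun i => by
    rw [ev_Dn_Gs h h0, ev_Dn_Gs h (mul_pos hr h0), hy, mul_div_mul_left _ _ hr.ne', mul_pow]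
    field_simp
  have e0 := eG 0
  have e1 := d_Tr hr (rhs 0 (cfa h (r * l)) G) hy hx hy4 0
  have e2 := d_Tr hr G hy hx hy4 0
  simp only [Dn_zero] at e0 e1 e2
  simp only [map_mul, map_pow, map_sub, map_one, ev_X] at e1
  refine mul_left_cancel₀ h1 ?_
  rw [ev_smul, mul_left_comm, e1, d_rhs h _ _ hy4, d_rhs h l _ (by linarith), d_Bo_scale hy eG,
    d_Bo_scale hy (d_Tr hr G hy hx hy4), e0, e2, hy]
  ring

end

theorem exists_app (hE : StE) : ∃ cf Γa c0 K g0, AppOK cf Γa c0 K g0 := by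
  obtain ⟨g, c0, h⟩ := hE
  obtain ⟨K, hK, hb⟩ := cfa_bd h 40
  refine ⟨fun t => cfa h (lam t), fun t => Ga h (lam t), min 1 c0, K, g 0 0,
    ⟨lt_min one_pos h.c0_pos, hK, fun t ht x => cfa_lower h (lam_pos ht.2) x,
      fun t ht => hb _ (lam_pos ht.2) (lam_le_one ht.1), cfa_jc h, fun t ht r hr G => ?_⟩,
    fun t ht => ⟨_, (JD_Ga h ht.2).mono (subset_univ _), cfa_flow h _ t⟩, fun t _ => rfl,
    fun t ht => ?_, h.pos⟩
  · simp only [lam_mul hr.1.le]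
    exact cfa_agree h (lam_pos ht.2) hr.1 hr.2 G
  · have e0 := ev_Dn_Gs h (lam_pos ht.2) 0 0
    rw [Dn_zero] at e0
    have hc : ev 0 chi = 1 := ev_cut_one (by norm_num) (by norm_num)
    simp only [Ga, map_mul, map_sub, map_one, ev_chid, hc, e0]
    simp

end Crest.Agent.R213
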