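import Crest.Agent.R213.En0

/-! Row 213: the perturbation equation `G_t = rhs σ c G` (`σ = 0` linear, `σ = 1` nonlinear) and its
energy inequalities. -/

set_option autoImplicit false
open Set Filter Topology

noncomputable section
namespace Crest.Agent.R213

/-- coefficients at a fixed time -/
structure Cf where
  a : SF
  e1 : SF
  e2 : SF
  e0 : SF

def rhs (σ : ℝ) (c : Cf) (G : SF) : SF :=
  -((c.a - σ • (q * G)) ^ 2 * Bop G) + c.e1 * G + σ • (c.e2 * G ^ 2 + c.e0)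

/-- scale-invariant bounds of the coefficients -/
def Cf.Bd (c : Cf) (l : ℝ) (m : ℕ) (K : ℝ) : Prop := ∀ x : I01,
  Tv l m c.a x ≤ K ∧ ((x : ℝ) + l) ^ 4 * Tv l m c.e1 x ≤ K ∧ ((x : ℝ) + l) ^ 2 * Tv l m c.e2 x ≤ K ∧
    Tv l m c.e0 x ≤ K

/-- continuity in time of all jets of the coefficients -/
def CfJC (cf : ℝ → Cf) (s : Set ℝ) : Prop :=
  JC (fun t => (cf t).a) s ∧ JC (fun t => (cf t).e1) s ∧ JC (fun t => (cf t).e2) s ∧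
    JC (fun t => (cf t).e0) s

lemma Cf.Bd.mono {c : Cf} {l : ℝ} {m m' : ℕ} {K : ℝ} (h : c.Bd l m K) (h0 : 0 < l) (hm : m' ≤ m) :
    c.Bd l m' K := by
  intro x
  obtain ⟨h1, h2, h3, h4⟩ := h x
  have hp := (ell_pos h0 x).le
  exact ⟨(Tv_mono h0 hm _ x).trans h1,
    (mul_le_mul_of_nonneg_left (Tv_mono h0 hm _ x) (pow_nonneg hp _)).trans h2,
    (mul_le_mul_of_nonneg_left (Tv_mono h0 hm _ x) (pow_nonneg hp _)).trans h3,
    (Tv_mono h0 hm _ x).trans h4⟩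

lemma rhs_zero (c : Cf) (G : SF) : rhs 0 c G = -(c.a ^ 2 * Bop G) + c.e1 * G := by
  simp [rhs]

/-- the linear equation as a linear map -/
def lin (c : Cf) : SF →ₗ[ℝ] SF :=
  -(LinearMap.mulLeft ℝ (c.a ^ 2) ∘ₗ Bop) + LinearMap.mulLeft ℝ c.e1
lemma lin_apply (c : Cf) (G : SF) : lin c G = rhs 0 c G := by
  simp [rhs, lin]

lemma JC.rhs {cf : ℝ → Cf} {G : ℝ → SF} {s : Set ℝ} (σ : ℝ) (hc : CfJC cf s) (hG : JC G s) :
    JC (fun t => rhs σ (cf t) (G t)) s := by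
  obtain ⟨h1, h2, h3, h4⟩ := hc
  exact (((((h1.sub (((JC.const q).mul hG).smul σ)).pow 2).mul hG.Bop).neg).add (h2.mul hG)).add
    (((h3.mul (hG.pow 2)).add h4).smul σ)

lemma ena_u (j : ℕ) : ∃ C, 0 ≤ C ∧ ∀ l, 0 < l → l ≤ 1 → ∀ σ : ℝ, (σ = 0 ∨ σ = 1) →
    ∀ (a G : SF) (x : I01), Tv l j (a - σ • (q * G)) x ≤
      2 * Tv l j a x + C * (σ * (((x : ℝ) + l) ^ 2 * Tv l j G x)) := by
  obtain ⟨C1, hC1, h1⟩ := Tv_mul j
  obtain ⟨C2, hC2, h2⟩ := Tv_q j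
  refine ⟨2 * (C1 * C2), by positivity, fun l h0 hl σ hσ a G x => ?_⟩
  have e1 := Tv_sub h0 j a (σ • (q * G)) x
  rw [Tv_smul] at e1
  have hG := Tv_nonneg h0 j G x
  have e2 : Tv l j (q * G) x ≤ C1 * C2 * (((x : ℝ) + l) ^ 2 * Tv l j G x) := by
    refine (h1 l h0 hl q G x).trans ?_
    have := mul_le_mul_of_nonneg_left (mul_le_mul_of_nonneg_right (h2 l h0 hl x) hG) hC1
    linarith
  rcases hσ with rfl | rfl
  · linarith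
  · linarith

/-- tame bound for `β = (a - σ q G)²`: `Tv_mul`, `Tv_mul_tame`, `Tv_q` -/
lemma Tv_beta (n m : ℕ) (h : n ≤ 2 * m + 1) (K : ℝ) : ∃ C, 0 ≤ C ∧ ∀ l, 0 < l → l ≤ 1 →
    ∀ σ : ℝ, (σ = 0 ∨ σ = 1) → ∀ (a G : SF) (x : I01), Tv l n a x ≤ K →
    σ * (((x : ℝ) + l) ^ 2 * Tv l m G x) ≤ K →
    Tv l n ((a - σ • (q * G)) ^ 2) x ≤ C * (1 + σ * (((x : ℝ) + l) ^ 2 * Tv l n G x)) := by
  obtain ⟨Ct, hCt, ht⟩ := Tv_mul_tame n (min m n) (by omega)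
  obtain ⟨C1, hC1, h1⟩ := ena_u (min m n)
  obtain ⟨C2, hC2, h2⟩ := ena_u n
  refine ⟨2 * Ct * ((2 + C1) * |K| * (2 * |K| + C2)), by positivity,
    fun l h0 hl σ hσ a G x ha hG => ?_⟩
  have hK : 0 ≤ K := (Tv_nonneg h0 n a x).trans ha
  have hσ0 : 0 ≤ σ := by rcases hσ with rfl | rfl <;> norm_num
  have hp : 0 ≤ ((x : ℝ) + l) ^ 2 := sq_nonneg _
  rw [abs_of_nonneg hK, sq]
  have e1 : Tv l (min m n) (a - σ • (q * G)) x ≤ (2 + C1) * K := by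
    have a1 := (Tv_mono h0 (min_le_right m n) a x).trans ha
    have a2 := (mul_le_mul_of_nonneg_left (mul_le_mul_of_nonneg_left
      (Tv_mono h0 (min_le_left m n) G x) hp) hσ0).trans hG
    have a3 := mul_le_mul_of_nonneg_left a2 hC1
    have a4 := h1 l h0 hl σ hσ a G x
    linarith
  have hY : 0 ≤ σ * (((x : ℝ) + l) ^ 2 * Tv l n G x) :=
    mul_nonneg hσ0 (mul_nonneg hp (Tv_nonneg h0 n G x))
  have e2 : Tv l n (a - σ • (q * G)) x ≤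
      (2 * K + C2) * (1 + σ * (((x : ℝ) + l) ^ 2 * Tv l n G x)) := by
    have a4 := h2 l h0 hl σ hσ a G x
    have a5 := mul_nonneg hK hY
    linarith
  have e3 := mul_le_mul e1 e2 (Tv_nonneg h0 n _ x) (mul_nonneg (by linarith) hK)
  have e4 := mul_le_mul_of_nonneg_left e3 hCt
  have e5 := ht l h0 hl (a - σ • (q * G)) (a - σ • (q * G)) x
  linarith

/-- commutator and size of `β` -/
lemma enb_comm (n m : ℕ) (h1 : n ≤ 2 * m + 1) (h2 : m + 1 ≤ n) (K : ℝ) (hK : 0 ≤ K) :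
    ∃ K', 0 ≤ K' ∧ ∀ l, 0 < l → l ≤ 1 → ∀ σ : ℝ, (σ = 0 ∨ σ = 1) → ∀ (a G : SF) (x : I01),
    Tv l n a x ≤ K → σ * (((x : ℝ) + l) ^ 2 * Tv l (m + 4) G x) ≤ K →
    ev x ((a - σ • (q * G)) ^ 2) ≤ K' ∧
    ((x : ℝ) + l) ^ 4 * (((x : ℝ) + l) * (x * (1 - x))) ^ n *
      ev x (Dn n ((a - σ • (q * G)) ^ 2 * Bop G) - (a - σ • (q * G)) ^ 2 * Dn n (Bop G)) ^ 2 ≤
        K' * Tv l (n + 3) G x := by
  obtain ⟨n, rfl⟩ : ∃ n', n = n' + 1 := ⟨n - 1, by omega⟩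
  obtain ⟨C1, p1, k1⟩ := Tv_beta m m (by omega) K
  obtain ⟨C2, p2, k2⟩ := Tv_beta (n + 1) m h1 K
  obtain ⟨C3, p3, k3⟩ := Tv_comm n m (by omega)
  obtain ⟨C4, p4, k4⟩ := Tv_Bop n
  obtain ⟨C5, p5, k5⟩ := Tv_Bop m
  refine ⟨1 + C1 * (1 + K) + C3 * (C1 * (1 + K) * C4 + C2 * (C5 * (1 + K))), by positivity,
    fun l h0 hl σ hσ a G x ha hG => ?_⟩
  have hσ0 : 0 ≤ σ := by rcases hσ with h | h <;> simp [h]
  have hL : 0 ≤ (x : ℝ) + l := add_nonneg x.2.1 h0.le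
  have hGm : σ * (((x : ℝ) + l) ^ 2 * Tv l m G x) ≤ K := by
    refine le_trans ?_ hG
    gcongr
    exact Tv_mono h0 (by omega) G x
  have b1 := k1 l h0 hl σ hσ a G x ((Tv_mono h0 (by omega) a x).trans ha) hGm
  have b2 := k2 l h0 hl σ hσ a G x ha hGm
  set β := (a - σ • (q * G)) ^ 2
  have b1' : Tv l m β x ≤ C1 * (1 + K) := b1.trans (by gcongr)
  have hX : 0 ≤ C3 * (C1 * (1 + K) * C4 + C2 * (C5 * (1 + K))) := by positivity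
  refine ⟨?_, ?_⟩
  · have := sq_le_Tv h0 m β x
    nlinarith [sq_nonneg (ev x β - 1), sq_nonneg (ev x β)]
  have b3 := k3 l h0 hl β (Bop G) x
  have b4 := k4 l h0 hl G x
  have b5 := k5 l h0 hl G x
  have t0 : 0 ≤ Tv l (n + 1 + 3) G x := Tv_nonneg h0 _ _ _
  have t1 : Tv l (m + 4) G x ≤ Tv l (n + 1 + 3) G x := Tv_mono h0 (by omega) G x
  have t2 : Tv l (n + 1) G x ≤ Tv l (n + 1 + 3) G x := Tv_mono h0 (by omega) G x
  have e1 : Tv l m β x * (((x : ℝ) + l) ^ 4 * Tv l n (Bop G) x) ≤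
      C1 * (1 + K) * (C4 * Tv l (n + 1 + 3) G x) :=
    mul_le_mul b1' b4 (mul_nonneg (by positivity) (Tv_nonneg h0 _ _ _)) (by positivity)
  have e2 : Tv l (n + 1) β x * (((x : ℝ) + l) ^ 4 * Tv l m (Bop G) x) ≤
      C2 * (C5 * (1 + K)) * Tv l (n + 1 + 3) G x := by
    have t3 := Tv_nonneg h0 (n + 1) G x
    have t4 := Tv_nonneg h0 (m + 4) G x
    calc _ ≤ C2 * (1 + σ * (((x : ℝ) + l) ^ 2 * Tv l (n + 1) G x)) * (C5 * Tv l (m + 4) G x) :=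
          mul_le_mul b2 b5 (mul_nonneg (by positivity) (Tv_nonneg h0 _ _ _)) (by positivity)
      _ = C2 * (C5 * (Tv l (m + 4) G x +
            σ * (((x : ℝ) + l) ^ 2 * Tv l (m + 4) G x) * Tv l (n + 1) G x)) := by ring
      _ ≤ C2 * (C5 * (Tv l (n + 1 + 3) G x + K * Tv l (n + 1 + 3) G x)) := by gcongr
      _ = _ := by ring
  calc _ = ((x : ℝ) + l) ^ 4 * ((((x : ℝ) + l) * (x * (1 - x))) ^ (n + 1) *
        ev x (Dn (n + 1) (β * Bop G) - β * Dn (n + 1) (Bop G)) ^ 2) := by ring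
    _ ≤ ((x : ℝ) + l) ^ 4 * (C3 * (Tv l m β x * Tv l n (Bop G) x +
        Tv l (n + 1) β x * Tv l m (Bop G) x)) := by gcongr
    _ = C3 * (Tv l m β x * (((x : ℝ) + l) ^ 4 * Tv l n (Bop G) x) +
        Tv l (n + 1) β x * (((x : ℝ) + l) ^ 4 * Tv l m (Bop G) x)) := by ring
    _ ≤ C3 * (C1 * (1 + K) * (C4 * Tv l (n + 1 + 3) G x) +
        C2 * (C5 * (1 + K)) * Tv l (n + 1 + 3) G x) := by gcongr
    _ = C3 * (C1 * (1 + K) * C4 + C2 * (C5 * (1 + K))) * Tv l (n + 1 + 3) G x := by ring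
    _ ≤ _ := by
        gcongr
        have : 0 ≤ C1 * (1 + K) := by positivity
        linarith

/-- the zero-order terms -/
lemma enb_src (n m : ℕ) (h1 : n ≤ 2 * m + 1) (K : ℝ) (hK : 0 ≤ K) :
    ∃ C, 0 ≤ C ∧ ∀ l, 0 < l → l ≤ 1 → ∀ σ : ℝ, (σ = 0 ∨ σ = 1) → ∀ (e1 e2 G : SF) (x : I01),
    ((x : ℝ) + l) ^ 4 * Tv l n e1 x ≤ K → ((x : ℝ) + l) ^ 2 * Tv l n e2 x ≤ K →
    σ * (((x : ℝ) + l) ^ 2 * Tv l m G x) ≤ K →
    ((x : ℝ) + l) ^ 4 * Tv l n (e1 * G + σ • (e2 * G ^ 2)) x ≤ C * Tv l n G x := by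
  obtain ⟨C1, p1, k1⟩ := Tv_mul n
  obtain ⟨C2, p2, k2⟩ := Tv_mul_tame n m h1
  refine ⟨2 * (C1 * K) + 2 * (C1 * (K * (C2 * (2 * K)))), by positivity,
    fun l h0 hl σ hσ e1 e2 G x a1 a2 hG => ?_⟩
  have hσ0 : 0 ≤ σ := by rcases hσ with h | h <;> simp [h]
  have hσ2 : σ ^ 2 = σ := by rcases hσ with h | h <;> simp [h]
  have hL : 0 ≤ (x : ℝ) + l := add_nonneg x.2.1 h0.le
  have t0 := Tv_nonneg h0 n G x
  have t1 := Tv_nonneg h0 n e2 x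
  have t2 := Tv_nonneg h0 m G x
  have b0 := Tv_add h0 n (e1 * G) (σ • (e2 * G ^ 2)) x
  rw [Tv_smul, hσ2] at b0
  have b1 := k1 l h0 hl e1 G x
  have b2 := k1 l h0 hl e2 (G ^ 2) x
  have b3 := k2 l h0 hl G G x
  rw [← sq] at b3
  have b4 : Tv l n (e2 * G ^ 2) x ≤
      C1 * (Tv l n e2 x * (C2 * (Tv l m G x * Tv l n G x + Tv l n G x * Tv l m G x))) :=
    b2.trans (by gcongr)
  calc _ ≤ ((x : ℝ) + l) ^ 4 * (2 * (C1 * (Tv l n e1 x * Tv l n G x)) + 2 * (σ * (C1 * (Tv l n e2 x *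
        (C2 * (Tv l m G x * Tv l n G x + Tv l n G x * Tv l m G x)))))) := by
        refine mul_le_mul_of_nonneg_left (b0.trans ?_) (by positivity)
        gcongr
    _ = (2 * (C1 * (((x : ℝ) + l) ^ 4 * Tv l n e1 x)) + 2 * (C1 * (((x : ℝ) + l) ^ 2 * Tv l n e2 x *
        (C2 * (2 * (σ * (((x : ℝ) + l) ^ 2 * Tv l m G x))))))) * Tv l n G x := by ring
    _ ≤ _ := by gcongr

/-- `top_energy` with `β = (a - σ q G)²` and source `e1 G + σ (e2 G² + e0) + s`.  Commutator: `Tv_comm`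
(`n = n'+1`), `Tv_beta` at levels `(m,m)` and `(n,m)`, `Tv_Bop`.  Sources:
`ℓ⁴ T_n(e1 G) ≤ C T_n(G)`, `σ ℓ⁴ T_n(e2 G²) ≤ C T_n(G)` (tame), `tp_le_nT`, `nT_le_of_pt`,
then `nT_mono`, `nT_interp (n+3)`. -/
lemma en_top (n m : ℕ) (h1 : n ≤ 2 * m + 1) (h2 : m + 1 ≤ n) (b c0 K : ℝ) (hc : 0 < c0) :
    ∃ c C, 0 < c ∧ 0 ≤ C ∧ ∀ l, 0 < l → l ≤ 1 → ∀ σ : ℝ, (σ = 0 ∨ σ = 1) → ∀ (cf : Cf) (G s : SF),
    cf.Bd l n K → (∀ x, c0 ≤ ev x (cf.a - σ • (q * G))) →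
    (∀ x : I01, σ * (((x : ℝ) + l) ^ 2 * Tv l (m + 4) G x) ≤ K) →
    2 * pair l (n + 2) b (rhs σ cf G + s) G ≤ -c * tp l (n + 4) (b + 2) G +
      C * (tp l 0 (b + 2) G + σ * nT l n (b - 2) cf.e0 + nT l n (b - 2) s) := by
  by_cases hK : 0 ≤ K
  swap
  · exact ⟨1, 0, one_pos, le_rfl, fun l h0 _ _ _ cf _ _ hb =>
      absurd ((Tv_nonneg h0 _ _ _).trans (hb 0).1) hK⟩
  obtain ⟨K', -, k1⟩ := enb_comm n m h1 h2 K hK
  obtain ⟨c, C, hc', hC, k2⟩ := top_energy n b (c0 ^ 2) K' (by positivity)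
  obtain ⟨P, hP, k3⟩ := enb_src n m h1 K hK
  obtain ⟨E, hE, k4⟩ := nT_interp (n + 3) (b + 2) (c / (4 * (C * P) + 1)) (by positivity)
  refine ⟨c / 2, C * (1 + 2 * (P * E) + 4), by positivity, by positivity,
    fun l h0 hl σ hσ cf G s hb ha hG => ?_⟩
  have hσ0 : 0 ≤ σ := by rcases hσ with h | h <;> simp [h]
  have hσ2 : σ ^ 2 = σ := by rcases hσ with h | h <;> simp [h]
  have e : rhs σ cf G + s = -((cf.a - σ • (q * G)) ^ 2 * Bop G) +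
      ((cf.e1 * G + σ • (cf.e2 * G ^ 2)) + (σ • cf.e0 + s)) := by
    rw [rhs, smul_add]; abel
  have b1 := k2 l h0 hl _ G ((cf.e1 * G + σ • (cf.e2 * G ^ 2)) + (σ • cf.e0 + s))
    (fun x => by rw [map_pow]; exact pow_le_pow_left₀ hc.le (ha x) 2)
    (fun x => (k1 l h0 hl σ hσ cf.a G x (hb x).1 (hG x)).1)
    (fun x => (k1 l h0 hl σ hσ cf.a G x (hb x).1 (hG x)).2)
  have b2 : nT l n (b - 2) (cf.e1 * G + σ • (cf.e2 * G ^ 2)) ≤ P * nT l n (b - 2 + (4 : ℕ)) G :=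
    nT_le_of_pt h0 fun x => k3 l h0 hl σ hσ _ _ G x (hb x).2.1 (hb x).2.2.1 (by
      refine le_trans ?_ (hG x)
      gcongr
      exact Tv_mono h0 (by omega) G x)
  rw [show b - 2 + (4 : ℕ) = b + 2 by push_cast; ring] at b2
  have b3 := (nT_mono h0 (show n ≤ n + 3 by omega) (b + 2) G).trans (k4 l h0 hl G)
  have b4 := (tp_le_nT h0 le_rfl (b - 2) _).trans
    (nT_add h0 n (b - 2) (cf.e1 * G + σ • (cf.e2 * G ^ 2)) (σ • cf.e0 + s))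
  have b5 := nT_add h0 n (b - 2) (σ • cf.e0) s
  rw [nT_smul, hσ2] at b5
  have t0 := tp_nonneg l 0 (b + 2) G
  have t1 := tp_nonneg l (n + 4) (b + 2) G
  have t2 := mul_nonneg hσ0 (nT_nonneg h0 n (b - 2) cf.e0)
  have t3 := nT_nonneg h0 n (b - 2) s
  have hδ : 2 * (C * P) * (c / (4 * (C * P) + 1)) ≤ c / 2 := by
    rw [← mul_div_assoc, div_le_iff₀ (by positivity)]
    nlinarith
  rw [e]
  refine b1.trans ?_
  rw [show n + 3 + 1 = n + 4 from rfl] at b3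
  generalize tp l n (b - 2) _ = S at b4 ⊢
  generalize c / (4 * (C * P) + 1) = δ at b3 hδ
  generalize tp l 0 (b + 2) G = u0 at *
  generalize tp l (n + 4) (b + 2) G = u1 at *
  generalize σ * nT l n (b - 2) cf.e0 = u2 at *
  generalize nT l n (b - 2) s = u3 at *
  have b6 : S ≤ 2 * (P * (δ * u1 + E * u0)) + 4 * u2 + 4 * u3 := by
    have := mul_le_mul_of_nonneg_left b3 hP
    linarith
  have b7 := mul_le_mul_of_nonneg_left b6 hC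
  have b8 := mul_le_mul_of_nonneg_right hδ t1
  have b9 : 0 ≤ C * (4 * u0 + (1 + 2 * (P * E)) * (u2 + u3)) := by positivity
  nlinarith

lemma enc_pt {σ L Q A E1 E2 g1 g2 B K M : ℝ} (hσ : σ = 0 ∨ σ = 1) (hQ0 : 0 ≤ Q) (hQ : Q ≤ L)
    (hM : 0 ≤ M) (hA : A ^ 2 ≤ K) (h1 : L ^ 4 * E1 ^ 2 ≤ K) (h2 : L ^ 2 * E2 ^ 2 ≤ K)
    (hg1 : σ * (L ^ 2 * g1 ^ 2) ≤ K) (hg2 : σ * (L ^ 2 * g2 ^ 2) ≤ K)
    (hB : σ * (L ^ 2 * (L ^ 4 * B ^ 2)) ≤ M) :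
    L ^ 4 * (E1 + σ * (E2 * (g1 + g2)) + σ * (Q * (2 * A - σ * (Q * g1) - σ * (Q * g2)) * B)) ^ 2 ≤
      3 * K + 12 * K ^ 2 + 54 * (K * M) := by
  have hK : 0 ≤ K := (sq_nonneg A).trans hA
  rcases hσ with rfl | rfl
  · simp only [zero_mul, add_zero]
    nlinarith [mul_nonneg hK hM, sq_nonneg K]
  simp only [one_mul] at *
  have hQ2 : Q ^ 2 ≤ L ^ 2 := pow_le_pow_left₀ hQ0 hQ 2
  have a1 : (Q * g1) ^ 2 ≤ K := by nlinarith [sq_nonneg g1]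
  have a2 : (Q * g2) ^ 2 ≤ K := by nlinarith [sq_nonneg g2]
  have a3 : (2 * A - Q * g1 - Q * g2) ^ 2 ≤ 18 * K := by
    nlinarith [sq_nonneg (2 * A + Q * g1), sq_nonneg (2 * A + Q * g2), sq_nonneg (Q * g1 - Q * g2)]
  have a4 : Q ^ 2 * (L ^ 4 * B ^ 2) ≤ M :=
    (mul_le_mul_of_nonneg_right hQ2 (by positivity)).trans hB
  have a5 : (L ^ 2 * (Q * (2 * A - Q * g1 - Q * g2) * B)) ^ 2 ≤ 18 * K * M := by
    calc _ = (2 * A - Q * g1 - Q * g2) ^ 2 * (Q ^ 2 * (L ^ 4 * B ^ 2)) := by ring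
      _ ≤ _ := mul_le_mul a3 a4 (by positivity) (by positivity)
  have a6 : L ^ 2 * (g1 + g2) ^ 2 ≤ 4 * K := by
    nlinarith [mul_nonneg (sq_nonneg L) (sq_nonneg (g1 - g2))]
  have a7 : (L ^ 2 * (E2 * (g1 + g2))) ^ 2 ≤ K * (4 * K) := by
    calc _ = L ^ 2 * E2 ^ 2 * (L ^ 2 * (g1 + g2) ^ 2) := by ring
      _ ≤ _ := mul_le_mul h2 a6 (by positivity) hK
  have a8 : (L ^ 2 * E1) ^ 2 ≤ K := by nlinarith
  generalize Q * (2 * A - Q * g1 - Q * g2) * B = w at *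
  generalize E2 * (g1 + g2) = v at *
  calc _ = (L ^ 2 * E1 + L ^ 2 * v + L ^ 2 * w) ^ 2 := by ring
    _ ≤ _ := by
      nlinarith [sq_nonneg (L ^ 2 * E1 - L ^ 2 * v), sq_nonneg (L ^ 2 * E1 - L ^ 2 * w),
        sq_nonneg (L ^ 2 * v - L ^ 2 * w)]

lemma enc_sq {l σ K : ℝ} (h0 : 0 < l) (hσ : 0 ≤ σ) {k m : ℕ} {f : SF} {x : I01}
    (h : σ * (((x : ℝ) + l) ^ k * Tv l m f x) ≤ K) : σ * (((x : ℝ) + l) ^ k * ev x f ^ 2) ≤ K :=
  (mul_le_mul_of_nonneg_left (mul_le_mul_of_nonneg_left (sq_le_Tv h0 m f x)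
    (pow_nonneg (ell_pos h0 x).le k)) hσ).trans h

/-- `low_energy` with `β = (a - σ q G₁)²` -/
lemma enc_low (b c0 K K' : ℝ) (hc : 0 < c0) :
    ∃ C, 0 ≤ C ∧ ∀ l, 0 < l → l ≤ 1 → ∀ σ : ℝ, (σ = 0 ∨ σ = 1) → ∀ (a G₁ e G s : SF),
    (∀ x, Tv l 4 a x ≤ K) → (∀ x, c0 ≤ ev x (a - σ • (q * G₁))) →
    (∀ x : I01, σ * (((x : ℝ) + l) ^ 2 * Tv l 4 G₁ x) ≤ K) →
    (∀ x : I01, ((x : ℝ) + l) ^ 4 * ev x e ^ 2 ≤ K') →
    2 * pair l 0 b (-((a - σ • (q * G₁)) ^ 2 * Bop G) + e * G + s) G ≤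
      C * tp l 0 (b + 2) G + tp l 0 (b - 2) s := by
  obtain ⟨Cβ, hCβ, hβ⟩ := Tv_beta 4 4 (by norm_num) K
  obtain ⟨C, hC, h⟩ := low_energy b (c0 ^ 2) (max (Cβ * (1 + K)) K') (by positivity)
  refine ⟨C, hC, fun l h0 h1 σ hσ a G₁ e G s ha hc0 hG he => h l h0 h1 _ e G s (fun x => ?_)
    (fun x => ?_) fun x => (he x).trans (le_max_right _ _)⟩
  · rw [map_pow]
    exact pow_le_pow_left₀ hc.le (hc0 x) 2
  · refine (hβ l h0 h1 σ hσ a G₁ x (ha x) (hG x)).trans (le_trans ?_ (le_max_left _ _))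
    exact mul_le_mul_of_nonneg_left (by linarith [hG x]) hCβ

/-- `low_energy` with `e = e1 + σ e2 G` -/
lemma en_low (b c0 K : ℝ) (hc : 0 < c0) :
    ∃ C, 0 ≤ C ∧ ∀ l, 0 < l → l ≤ 1 → ∀ σ : ℝ, (σ = 0 ∨ σ = 1) → ∀ (cf : Cf) (G s : SF),
    cf.Bd l 4 K → (∀ x, c0 ≤ ev x (cf.a - σ • (q * G))) →
    (∀ x : I01, σ * (((x : ℝ) + l) ^ 2 * Tv l 4 G x) ≤ K) →
    2 * pair l 0 b (rhs σ cf G + s) G ≤
      C * (tp l 0 (b + 2) G + σ * tp l 0 (b - 2) cf.e0 + tp l 0 (b - 2) s) := by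
  obtain ⟨C, hC, h⟩ := enc_low b c0 K (3 * K + 12 * K ^ 2 + 54 * (K * 0)) hc
  refine ⟨C + 2, by positivity, fun l h0 h1 σ hσ cf G s hB hc0 hG => ?_⟩
  have hσ0 : 0 ≤ σ := by rcases hσ with rfl | rfl <;> norm_num
  have hσ2 : σ ^ 2 = σ := by rcases hσ with rfl | rfl <;> norm_num
  have e : rhs σ cf G + s = -((cf.a - σ • (q * G)) ^ 2 * Bop G) + (cf.e1 + σ • (cf.e2 * G)) * G +
      (σ • cf.e0 + s) := by
    simp only [rhs, Algebra.smul_def]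
    ring
  have h2 := h l h0 h1 σ hσ cf.a G (cf.e1 + σ • (cf.e2 * G)) G (σ • cf.e0 + s) (fun x => (hB x).1)
    hc0 hG fun x => by
      have hK : 0 ≤ K := (Tv_nonneg h0 _ _ x).trans (hB x).1
      have := enc_pt (Q := 0) (A := 0) (g2 := 0) (B := 0) (M := 0) hσ le_rfl (ell_pos h0 x).le le_rfl
        (by simpa using hK) (by simpa using enc_sq h0 zero_le_one ((one_mul _).trans_le (hB x).2.1))
        (by simpa using enc_sq h0 zero_le_one ((one_mul _).trans_le (hB x).2.2.1))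
        (enc_sq h0 hσ0 (hG x)) (by simpa using hK) (by simp)
      rw [map_add, ev_smul, map_mul]
      simpa using this
  have h3 := tp_add l 0 (b - 2) (σ • cf.e0) s
  rw [tp_smul, hσ2] at h3
  rw [e]
  nlinarith [tp_nonneg l 0 (b + 2) G, mul_nonneg hσ0 (tp_nonneg l 0 (b - 2) cf.e0),
    tp_nonneg l 0 (b - 2) s, mul_nonneg hC (mul_nonneg hσ0 (tp_nonneg l 0 (b - 2) cf.e0)),
    mul_nonneg hC (tp_nonneg l 0 (b - 2) s)]

/-- difference of two solutions: `rhs G₁ - rhs G₂ = -β₁ 𝓑ζ + e ζ`, `ζ = G₁ - G₂`,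
`e = e1 + σ e2 (G₁ + G₂) + σ q (2a - σ q G₁ - σ q G₂) 𝓑G₂`; `low_energy`, `Tv_Bop 0`. -/
lemma en_diff (b c0 K : ℝ) (hc : 0 < c0) :
    ∃ C, 0 ≤ C ∧ ∀ l, 0 < l → l ≤ 1 → ∀ σ : ℝ, (σ = 0 ∨ σ = 1) → ∀ (cf : Cf) (G₁ G₂ : SF),
    cf.Bd l 4 K → (∀ x, c0 ≤ ev x (cf.a - σ • (q * G₁))) →
    (∀ x : I01, σ * (((x : ℝ) + l) ^ 2 * Tv l 4 G₁ x) ≤ K) →
    (∀ x : I01, σ * (((x : ℝ) + l) ^ 2 * Tv l 4 G₂ x) ≤ K) →
    2 * pair l 0 b (rhs σ cf G₁ - rhs σ cf G₂) (G₁ - G₂) ≤ C * tp l 0 (b + 2) (G₁ - G₂) := by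
  obtain ⟨CB, hCB, hBop⟩ := Tv_Bop 0
  obtain ⟨C, hC, h⟩ := enc_low b c0 K (3 * K + 12 * K ^ 2 + 54 * (K * (CB * K))) hc
  refine ⟨C, hC, fun l h0 h1 σ hσ cf G₁ G₂ hB hc0 hG₁ hG₂ => ?_⟩
  have hσ0 : 0 ≤ σ := by rcases hσ with rfl | rfl <;> norm_num
  have e : rhs σ cf G₁ - rhs σ cf G₂ = -((cf.a - σ • (q * G₁)) ^ 2 * Bop (G₁ - G₂)) +
      (cf.e1 + σ • (cf.e2 * (G₁ + G₂)) +
        σ • (q * ((2 : ℝ) • cf.a - σ • (q * G₁) - σ • (q * G₂)) * Bop G₂)) * (G₁ - G₂) + 0 := by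
    simp only [rhs, map_sub, Algebra.smul_def, map_ofNat]
    ring
  have h2 := h l h0 h1 σ hσ cf.a G₁ (cf.e1 + σ • (cf.e2 * (G₁ + G₂)) +
        σ • (q * ((2 : ℝ) • cf.a - σ • (q * G₁) - σ • (q * G₂)) * Bop G₂)) (G₁ - G₂) 0
    (fun x => (hB x).1) hc0 hG₁ fun x => by
      have hK : 0 ≤ K := (Tv_nonneg h0 _ _ x).trans (hB x).1
      have hb := hBop l h0 h1 G₂ x
      rw [Tv_zero] at hb
      have hb2 : σ * (((x : ℝ) + l) ^ 2 * (((x : ℝ) + l) ^ 4 * ev x (Bop G₂) ^ 2)) ≤ CB * K :=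
        calc _ ≤ σ * (((x : ℝ) + l) ^ 2 * (CB * Tv l (0 + 4) G₂ x)) :=
            mul_le_mul_of_nonneg_left (mul_le_mul_of_nonneg_left hb (sq_nonneg _)) hσ0
          _ = CB * (σ * (((x : ℝ) + l) ^ 2 * Tv l 4 G₂ x)) := by ring
          _ ≤ _ := mul_le_mul_of_nonneg_left (hG₂ x) hCB
      have := enc_pt hσ (q_nonneg x) (q_le_ell h0 x) (mul_nonneg hCB hK)
        ((sq_le_Tv h0 _ _ x).trans (hB x).1)
        (by simpa using enc_sq h0 zero_le_one ((one_mul _).trans_le (hB x).2.1))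
        (by simpa using enc_sq h0 zero_le_one ((one_mul _).trans_le (hB x).2.2.1))
        (enc_sq h0 hσ0 (hG₁ x)) (enc_sq h0 hσ0 (hG₂ x)) hb2
      simpa only [map_add, map_sub, map_mul, ev_smul, ev_q] using this
  have h3 : tp l 0 (b - 2) 0 = 0 := by simp [tp]
  rw [e]
  linarith

/-- `en_top 38 19` + `en_low` + `nT_equiv 42`; `nT_le_of_bd` for `e0` -/
lemma en_Q (b c0 K : ℝ) (hb : b ≤ 3) (hc : 0 < c0) :
    ∃ c C, 0 < c ∧ 0 ≤ C ∧ ∀ l, 0 < l → l ≤ 1 → ∀ σ : ℝ, (σ = 0 ∨ σ = 1) → ∀ (cf : Cf) (G s : SF),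
    cf.Bd l 40 K → (∀ x, c0 ≤ ev x (cf.a - σ • (q * G))) →
    (∀ x : I01, σ * (((x : ℝ) + l) ^ 2 * Tv l 25 G x) ≤ K) →
    2 * pair l 0 b (rhs σ cf G + s) G + 2 * pair l 40 b (rhs σ cf G + s) G ≤
      -c * nT l 42 (b + 2) G + C * (tp l 0 (b + 2) G + σ + nT l 38 (b - 2) s) := by
  obtain ⟨c, C1, hc1, hC1, h1⟩ := en_top 38 19 (by norm_num) (by norm_num) b c0 K hc
  obtain ⟨C2, hC2, h2⟩ := en_low b c0 K hc
  obtain ⟨C3, hC3, h3⟩ := nT_equiv 42 (b + 2)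
  obtain ⟨B, hB⟩ : ∃ B : ℝ, B = |K| * 2 ^ (1 - (b - 2)) := ⟨_, rfl⟩
  have hB0 : 0 ≤ B := by rw [hB]; positivity
  refine ⟨c / (C3 + 1), (C1 + C2) * (1 + B) + c, by positivity, by positivity,
    fun l h0 hl σ hσ cf G s hbd ha hG => ?_⟩
  have hσ0 : 0 ≤ σ := by rcases hσ with rfl | rfl <;> norm_num
  have hm : ∀ j, j ≤ 25 → ∀ x : I01, σ * (((x : ℝ) + l) ^ 2 * Tv l j G x) ≤ K := fun j hj x =>
    (mul_le_mul_of_nonneg_left (mul_le_mul_of_nonneg_left (Tv_mono h0 hj G x) (sq_nonneg _))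
      hσ0).trans (hG x)
  have e1 := h1 l h0 hl σ hσ cf G s (hbd.mono h0 (by norm_num)) ha (hm _ (by norm_num))
  have e2 := h2 l h0 hl σ hσ cf G s (hbd.mono h0 (by norm_num)) ha (hm _ (by norm_num))
  have e3 := h3 l h0 hl G
  have b1 : nT l 38 (b - 2) cf.e0 ≤ B := by
    rw [hB]
    exact nT_le_of_bd h0 hl (by linarith) fun x =>
      ((hbd.mono h0 (by norm_num : 38 ≤ 40)) x).2.2.2.trans (le_abs_self K)
  have b2 : tp l 0 (b - 2) cf.e0 ≤ B := (tp_le_nT h0 (Nat.zero_le 38) _ _).trans b1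
  have b3 : tp l 0 (b - 2) s ≤ nT l 38 (b - 2) s := tp_le_nT h0 (Nat.zero_le 38) _ _
  have p0 := tp_nonneg l 0 (b + 2) G
  have p1 := tp_nonneg l 42 (b + 2) G
  have p2 := nT_nonneg h0 38 (b - 2) s
  norm_num only at e1
  generalize pair l 0 b (rhs σ cf G + s) G = P0 at *
  generalize pair l 40 b (rhs σ cf G + s) G = P1 at *
  generalize tp l 0 (b + 2) G = T0 at *
  generalize tp l 42 (b + 2) G = T1 at *
  generalize nT l 42 (b + 2) G = N at *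
  generalize nT l 38 (b - 2) s = S at *
  generalize tp l 0 (b - 2) s = S0 at *
  generalize nT l 38 (b - 2) cf.e0 = E at *
  generalize tp l 0 (b - 2) cf.e0 = E0 at *
  have f1 : c / (C3 + 1) * N ≤ c * (T1 + T0) := by
    rw [div_mul_eq_mul_div, div_le_iff₀ (by positivity), mul_assoc]
    refine mul_le_mul_of_nonneg_left ?_ hc1.le
    linarith
  have hX : 0 ≤ T0 + σ + S := by linarith
  have g : ∀ E' S' : ℝ, E' ≤ B → S' ≤ S → T0 + σ * E' + S' ≤ (1 + B) * (T0 + σ + S) := by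
    intro E' S' hE hS
    have a1 := mul_le_mul_of_nonneg_left hE hσ0
    have a2 := mul_nonneg hB0 p0
    have a3 := mul_nonneg hB0 p2
    linarith
  have f2 := mul_le_mul_of_nonneg_left (g E S b1 le_rfl) hC1
  have f3 := mul_le_mul_of_nonneg_left (g E0 S0 b2 b3) hC2
  have f4 : c * T0 ≤ c * (T0 + σ + S) := mul_le_mul_of_nonneg_left (by linarith) hc1.le
  linarith

lemma end_pt (K : ℝ) : ∃ C, 0 ≤ C ∧ ∀ l, 0 < l → l ≤ 1 → ∀ (a e2 G : SF) (M : ℝ) (x : I01),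
    Tv l 38 a x ≤ K → ((x : ℝ) + l) ^ 2 * Tv l 38 e2 x ≤ K → M ≤ 1 →
    ((x : ℝ) + l) ^ 2 * Tv l 25 G x ≤ M →
    ((x : ℝ) + l) ^ 4 * Tv l 38 (q * G * ((2 : ℝ) • a - q * G) * Bop G + e2 * (G * G)) x ≤
      C * M * Tv l 42 G x := by
  obtain ⟨m19, hm19, H19⟩ := Tv_mul 19
  obtain ⟨m38, hm38, H38⟩ := Tv_mul 38
  obtain ⟨q19, hq19, Q19⟩ := Tv_q 19
  obtain ⟨q38, hq38, Q38⟩ := Tv_q 38
  obtain ⟨t, ht, Ht⟩ := Tv_mul_tame 38 19 (by norm_num)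
  obtain ⟨b19, hb19, B19⟩ := Tv_Bop 19
  obtain ⟨b38, hb38, B38⟩ := Tv_Bop 38
  set K' := |K| with hK'
  have hK0 : 0 ≤ K' := abs_nonneg K
  set c1 := m19 * q19 with hc1
  set c2 := m38 * q38 with hc2
  set V := 8 * K' + 2 * c1 with hV
  refine ⟨2 * (t * (m19 * (c1 * V) * b38 + t * (c1 * (8 * K') + (c1 * (2 * c2) + c2 * V)) * b19)) +
    2 * (m38 * K' * (2 * t)), by positivity, fun l h0 h1 a e2 G M x ha he hM hG => ?_⟩
  have hL := ell_pos h0 x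
  have nn := fun m f => Tv_nonneg h0 m f x
  have hc10 : 0 ≤ c1 := by positivity
  have hc20 : 0 ≤ c2 := by positivity
  have hV0 : 0 ≤ V := by positivity
  have hM0 : 0 ≤ M := (mul_nonneg (sq_nonneg _) (nn _ _)).trans hG
  have ha38 : Tv l 38 a x ≤ K' := ha.trans (le_abs_self K)
  have ha19 : Tv l 19 a x ≤ K' := (Tv_mono h0 (by norm_num) a x).trans ha38
  have he' : ((x : ℝ) + l) ^ 2 * Tv l 38 e2 x ≤ K' := he.trans (le_abs_self K)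
  have g19 : ((x : ℝ) + l) ^ 2 * Tv l 19 G x ≤ M :=
    (mul_le_mul_of_nonneg_left (Tv_mono h0 (by norm_num) G x) (sq_nonneg _)).trans hG
  have g23 : ((x : ℝ) + l) ^ 2 * Tv l 23 G x ≤ M :=
    (mul_le_mul_of_nonneg_left (Tv_mono h0 (by norm_num) G x) (sq_nonneg _)).trans hG
  have g2342 : Tv l 23 G x ≤ Tv l 42 G x := Tv_mono h0 (by norm_num) G x
  have g3842 : Tv l 38 G x ≤ Tv l 42 G x := Tv_mono h0 (by norm_num) G x
  have u19 : Tv l 19 (q * G) x ≤ c1 * M :=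
    calc _ ≤ m19 * (Tv l 19 q x * Tv l 19 G x) := H19 l h0 h1 _ _ x
      _ ≤ m19 * (q19 * ((x : ℝ) + l) ^ 2 * Tv l 19 G x) :=
        mul_le_mul_of_nonneg_left (mul_le_mul_of_nonneg_right (Q19 l h0 h1 x) (nn _ _)) hm19
      _ = c1 * (((x : ℝ) + l) ^ 2 * Tv l 19 G x) := by rw [hc1]; ring
      _ ≤ _ := mul_le_mul_of_nonneg_left g19 hc10
  have u38 : Tv l 38 (q * G) x ≤ c2 * (((x : ℝ) + l) ^ 2 * Tv l 38 G x) :=
    calc _ ≤ m38 * (Tv l 38 q x * Tv l 38 G x) := H38 l h0 h1 _ _ x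
      _ ≤ m38 * (q38 * ((x : ℝ) + l) ^ 2 * Tv l 38 G x) :=
        mul_le_mul_of_nonneg_left (mul_le_mul_of_nonneg_right (Q38 l h0 h1 x) (nn _ _)) hm38
      _ = _ := by rw [hc2]; ring
  have u19' : Tv l 19 (q * G) x ≤ c1 := u19.trans (mul_le_of_le_one_right hc10 hM)
  have v19 : Tv l 19 ((2 : ℝ) • a - q * G) x ≤ V := by
    have := Tv_sub h0 19 ((2 : ℝ) • a) (q * G) x
    rw [Tv_smul] at this
    rw [hV]; linarith
  have v38 : Tv l 38 ((2 : ℝ) • a - q * G) x ≤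
      8 * K' + 2 * c2 * (((x : ℝ) + l) ^ 2 * Tv l 38 G x) := by
    have := Tv_sub h0 38 ((2 : ℝ) • a) (q * G) x
    rw [Tv_smul] at this
    linarith
  have hg38 : 0 ≤ ((x : ℝ) + l) ^ 2 * Tv l 38 G x := mul_nonneg (sq_nonneg _) (nn _ _)
  have w19 : Tv l 19 (q * G * ((2 : ℝ) • a - q * G)) x ≤ m19 * (c1 * V) * M :=
    calc _ ≤ m19 * (Tv l 19 (q * G) x * Tv l 19 ((2 : ℝ) • a - q * G) x) := H19 l h0 h1 _ _ x
      _ ≤ m19 * (c1 * M * V) :=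
        mul_le_mul_of_nonneg_left (mul_le_mul u19 v19 (nn _ _) (by positivity)) hm19
      _ = _ := by ring
  have w38 : Tv l 38 (q * G * ((2 : ℝ) • a - q * G)) x ≤
      t * (c1 * (8 * K') * M + (c1 * (2 * c2) + c2 * V) * (((x : ℝ) + l) ^ 2 * Tv l 38 G x)) := by
    refine (Ht l h0 h1 _ _ x).trans (mul_le_mul_of_nonneg_left ?_ ht)
    have e1 := mul_le_mul u19 v38 (nn _ _) (by positivity)
    have e2 := mul_le_mul u38 v19 (nn _ _) (mul_nonneg hc20 hg38)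
    have e3 : c1 * M * (2 * c2 * (((x : ℝ) + l) ^ 2 * Tv l 38 G x)) ≤
        c1 * (2 * c2 * (((x : ℝ) + l) ^ 2 * Tv l 38 G x)) :=
      mul_le_mul_of_nonneg_right (mul_le_of_le_one_right hc10 hM)
        (mul_nonneg (by positivity) hg38)
    linarith
  have p1 : ((x : ℝ) + l) ^ 4 * Tv l 38 (q * G * ((2 : ℝ) • a - q * G) * Bop G) x ≤
      t * (m19 * (c1 * V) * b38 + t * (c1 * (8 * K') + (c1 * (2 * c2) + c2 * V)) * b19) * M *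
        Tv l 42 G x := by
    have e0 := mul_le_mul_of_nonneg_left (Ht l h0 h1 (q * G * ((2 : ℝ) • a - q * G)) (Bop G) x)
      (pow_nonneg hL.le 4)
    have e1 := mul_le_mul w19 (B38 l h0 h1 G x) (mul_nonneg (pow_nonneg hL.le 4) (nn _ _))
      (by positivity)
    have e2 := mul_le_mul w38 (B19 l h0 h1 G x) (mul_nonneg (pow_nonneg hL.le 4) (nn _ _))
      (mul_nonneg ht (add_nonneg (by positivity) (mul_nonneg (by positivity) hg38)))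
    have e3 : M * Tv l 23 G x ≤ M * Tv l 42 G x := mul_le_mul_of_nonneg_left g2342 hM0
    have e4 : ((x : ℝ) + l) ^ 2 * Tv l 38 G x * Tv l 23 G x ≤ M * Tv l 42 G x :=
      calc _ = ((x : ℝ) + l) ^ 2 * Tv l 23 G x * Tv l 38 G x := by ring
        _ ≤ _ := mul_le_mul g23 g3842 (nn _ _) hM0
    have e5 : t * (c1 * (8 * K') * M + (c1 * (2 * c2) + c2 * V) *
        (((x : ℝ) + l) ^ 2 * Tv l 38 G x)) * (b19 * Tv l (19 + 4) G x) ≤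
        t * (c1 * (8 * K') + (c1 * (2 * c2) + c2 * V)) * b19 * (M * Tv l 42 G x) :=
      calc _ = t * b19 * (c1 * (8 * K') * (M * Tv l 23 G x) + (c1 * (2 * c2) + c2 * V) *
            (((x : ℝ) + l) ^ 2 * Tv l 38 G x * Tv l 23 G x)) := by ring
        _ ≤ t * b19 * (c1 * (8 * K') * (M * Tv l 42 G x) + (c1 * (2 * c2) + c2 * V) *
            (M * Tv l 42 G x)) :=
          mul_le_mul_of_nonneg_left (add_le_add (mul_le_mul_of_nonneg_left e3 (by positivity))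
            (mul_le_mul_of_nonneg_left e4 (by positivity))) (by positivity)
        _ = _ := by ring
    refine e0.trans ?_
    calc _ = t * (Tv l 19 (q * G * ((2 : ℝ) • a - q * G)) x *
          (((x : ℝ) + l) ^ 4 * Tv l 38 (Bop G) x) + Tv l 38 (q * G * ((2 : ℝ) • a - q * G)) x *
          (((x : ℝ) + l) ^ 4 * Tv l 19 (Bop G) x)) := by ring
      _ ≤ t * (m19 * (c1 * V) * M * (b38 * Tv l (38 + 4) G x) +
          t * (c1 * (8 * K') + (c1 * (2 * c2) + c2 * V)) * b19 * (M * Tv l 42 G x)) :=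
        mul_le_mul_of_nonneg_left (add_le_add e1 (e2.trans e5)) ht
      _ = _ := by ring
  have p2 : ((x : ℝ) + l) ^ 4 * Tv l 38 (e2 * (G * G)) x ≤ m38 * K' * (2 * t) * M * Tv l 42 G x := by
    have e0 := mul_le_mul_of_nonneg_left (H38 l h0 h1 e2 (G * G) x) (pow_nonneg hL.le 4)
    have e1 : ((x : ℝ) + l) ^ 2 * Tv l 38 (G * G) x ≤ 2 * t * (M * Tv l 42 G x) :=
      calc _ ≤ ((x : ℝ) + l) ^ 2 * (t * (Tv l 19 G x * Tv l 38 G x + Tv l 38 G x * Tv l 19 G x)) :=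
          mul_le_mul_of_nonneg_left (Ht l h0 h1 G G x) (sq_nonneg _)
        _ = 2 * t * (((x : ℝ) + l) ^ 2 * Tv l 19 G x * Tv l 38 G x) := by ring
        _ ≤ _ := mul_le_mul_of_nonneg_left (mul_le_mul g19 g3842 (nn _ _) hM0) (by positivity)
    refine e0.trans ?_
    calc _ = m38 * (((x : ℝ) + l) ^ 2 * Tv l 38 e2 x * (((x : ℝ) + l) ^ 2 * Tv l 38 (G * G) x)) := by
          ring
      _ ≤ m38 * (K' * (2 * t * (M * Tv l 42 G x))) :=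
        mul_le_mul_of_nonneg_left (mul_le_mul he' e1 (mul_nonneg (sq_nonneg _) (nn _ _)) hK0) hm38
      _ = _ := by ring
  have e := mul_le_mul_of_nonneg_left
    (Tv_add h0 38 (q * G * ((2 : ℝ) • a - q * G) * Bop G) (e2 * (G * G)) x) (pow_nonneg hL.le 4)
  refine e.trans ?_
  linarith

/-- the nonlinear part `rhs 1 - rhs 0 - e0 = q G (2a - q G) 𝓑G + e2 G²`: pointwise
`ℓ⁴ T_38(·) ≤ C M T_42(G)` (`Tv_mul_tame 38 19`, `Tv_Bop`, `Tv_q`), then `nT_le_of_pt`. -/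
lemma src_cmp (b K : ℝ) : ∃ C, 0 ≤ C ∧ ∀ l, 0 < l → l ≤ 1 → ∀ (cf : Cf) (G : SF) (M : ℝ),
    cf.Bd l 40 K → M ≤ 1 → (∀ x : I01, ((x : ℝ) + l) ^ 2 * Tv l 25 G x ≤ M) →
    nT l 38 (b - 2) (rhs 1 cf G - rhs 0 cf G - cf.e0) ≤ C * M * nT l 42 (b + 2) G := by
  obtain ⟨C, hC, h⟩ := end_pt K
  refine ⟨C, hC, fun l h0 h1 cf G M hB hM hG => ?_⟩
  have e : rhs 1 cf G - rhs 0 cf G - cf.e0 =
      q * G * ((2 : ℝ) • cf.a - q * G) * Bop G + cf.e2 * (G * G) := by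
    simp only [rhs, Algebra.smul_def, map_ofNat, map_one, map_zero]
    ring
  have h2 := nT_le_of_pt (k := 4) (b := b - 2) h0 fun x => h l h0 h1 cf.a cf.e2 G M x
    ((Tv_mono h0 (by norm_num) _ x).trans (hB x).1)
    ((mul_le_mul_of_nonneg_left (Tv_mono h0 (by norm_num) _ x) (sq_nonneg _)).trans (hB x).2.2.1)
    hM (hG x)
  have e2 : b - 2 + ((4 : ℕ) : ℝ) = b + 2 := by push_cast; ring
  rw [e2] at h2
  rw [e]
  exact h2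

/-- `ℓ⁴ (lin G)² ≤ C T_4(G)` -/
lemma lin_pt (K : ℝ) : ∃ C, 0 ≤ C ∧ ∀ l, 0 < l → l ≤ 1 → ∀ (cf : Cf) (G : SF) (x : I01),
    cf.Bd l 4 K → ((x : ℝ) + l) ^ 4 * ev x (rhs 0 cf G) ^ 2 ≤ C * Tv l 4 G x := by
  obtain ⟨C1, hC1, h1⟩ := Tv_Bop 0
  refine ⟨2 * K ^ 2 * C1 + 2 * |K|, by positivity, fun l h0 hl cf G x hbd => ?_⟩
  obtain ⟨a1, a2, -, -⟩ := hbd x
  have hp : 0 ≤ ((x : ℝ) + l) ^ 4 := by positivity
  have b1 : ev x cf.a ^ 2 ≤ K := (sq_le_Tv h0 4 _ x).trans a1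
  have b2 : ((x : ℝ) + l) ^ 4 * ev x cf.e1 ^ 2 ≤ K :=
    (mul_le_mul_of_nonneg_left (sq_le_Tv h0 4 _ x) hp).trans a2
  have hK : 0 ≤ K := (sq_nonneg _).trans b1
  have b3 := h1 l h0 hl G x
  rw [Tv_zero, zero_add] at b3
  have b4 := sq_le_Tv h0 4 G x
  rw [rhs_zero, map_add, map_neg, map_mul, map_mul, map_pow, abs_of_nonneg hK]
  generalize ev x cf.a = A at *
  generalize ev x cf.e1 = E at *
  generalize ev x (Bop G) = V at *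
  generalize ev x G = g at *
  generalize Tv l 4 G x = T at *
  generalize ((x : ℝ) + l) ^ 4 = w at *
  have c1 : (A ^ 2) ^ 2 ≤ K ^ 2 := pow_le_pow_left₀ (sq_nonneg _) b1 2
  have c2 : (A ^ 2) ^ 2 * (w * V ^ 2) ≤ K ^ 2 * (C1 * T) :=
    mul_le_mul c1 b3 (mul_nonneg hp (sq_nonneg _)) (sq_nonneg _)
  have c3 : w * E ^ 2 * g ^ 2 ≤ K * T := mul_le_mul b2 b4 (sq_nonneg _) hK
  have c4 := mul_nonneg hp (sq_nonneg (A ^ 2 * V + E * g))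
  linarith

end Crest.Agent.R213
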