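import Crest.Agent.R213.Nm

/-! Row 213: energy inequalities for `-β 𝓑 G` at the top level `j = n + 2` and at level `0`.
Throughout `w = lp l (n + 2 - 10 - b)` is the weight of `pair l (n+2) b`, `H = Dn (n+2) G`. -/

set_option autoImplicit false
open Set Filter Topology

noncomputable section
namespace Crest.Agent.R213

lemma D_q : D q = 1 - (2 : ℝ) • X := by
  rw [q, D_mul, map_sub, D_X, Derivation.map_one_eq_zero, two_smul]
  ring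
lemma D_mu (i : ℕ) : D (mu (i + 1)) = pp i * mu i := by
  rw [mu, D_mul, Derivation.leibniz_pow, Derivation.leibniz_pow, map_sub, D_X,
    Derivation.map_one_eq_zero, show 9 + (i + 1) - 1 = 9 + i by omega, Nat.add_sub_cancel]
  refine SF.ext' fun x => ?_
  simp only [map_add, map_mul, map_pow, map_sub, map_one, map_zero, smul_eq_mul, nsmul_eq_mul,
    map_natCast, ev_X, ev_pp, ev_mu]
  push_cast
  ring
lemma D_pp (i : ℕ) : D (pp i) = -(((11 + 2 * i : ℕ) : ℝ) • 1) := by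
  rw [pp, map_sub, Derivation.map_smul, Derivation.map_smul, map_sub, D_X,
    Derivation.map_one_eq_zero]
  refine SF.ext' fun x => ?_
  simp only [map_sub, map_neg, map_one, map_zero, ev_smul]
  push_cast
  ring
lemma mu_dl (i : ℕ) (f : SF) : mu i * dl i f = D (mu (i + 1) * f) := by
  rw [D_mul, D_mu, dl_apply, mu_succ]
  ring
lemma mu_Aop (j : ℕ) (f : SF) : mu j * Aop j f = D (D (mu (j + 2) * f)) := by
  rw [Aop_apply, mu_dl, mu_dl]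
lemma en0a_pp_succ (i : ℕ) : pp (i + 1) = pp i + D q := by
  rw [D_q]
  refine SF.ext' fun x => ?_
  simp only [map_add, map_sub, map_one, ev_smul, ev_X, ev_pp]
  push_cast
  ring
lemma D_dl (i : ℕ) (f : SF) : D (dl i f) = dl (i + 1) (D f) - ((11 + 2 * i : ℕ) : ℝ) • f := by
  rw [dl_apply, dl_apply, map_add, D_mul, D_mul, D_pp, en0a_pp_succ, ← smul_one_mul _ f]
  ring
lemma Dn_dl (i j : ℕ) : ∃ c : ℝ, ∀ f : SF,
    Dn (j + 1) (dl i f) = dl (i + j + 1) (Dn (j + 1) f) - c • Dn j f := by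
  induction j with
  | zero => exact ⟨_, fun f => by rw [zero_add, Dn_one, Dn_one, Dn_zero, add_zero, D_dl]⟩
  | succ j ih =>
    obtain ⟨c, hc⟩ := ih
    refine ⟨((11 + 2 * (i + j + 1) : ℕ) : ℝ) + c, fun f => ?_⟩
    rw [Dn_succ (j + 1), hc, map_sub, Derivation.map_smul, D_dl, ← Dn_succ, ← Dn_succ, add_smul,
      sub_sub]
    rfl
lemma Dn_Bop (n : ℕ) : ∃ c₁ c₂ : ℝ, ∀ G : SF,
    Dn n (Bop G) = Aop (n + 2) (Dn (n + 2) G) - c₁ • dl (n + 2) (Dn (n + 1) G) + c₂ • Dn n G := by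
  obtain ⟨a, ha⟩ := Dn_dl 0 (n + 1)
  obtain ⟨b, hb⟩ := Dn_dl 1 (n + 1)
  obtain ⟨c, hc⟩ := Dn_dl 1 n
  refine ⟨b + a, a * c, fun G => ?_⟩
  rw [show 0 + (n + 1) + 1 = n + 2 by omega] at ha
  rw [show 1 + (n + 1) + 1 = n + 2 + 1 by omega] at hb
  rw [show 1 + n + 1 = n + 2 by omega] at hc
  rw [Bop_apply, Dn_Dn, Aop_apply, Aop_apply, zero_add, ha, hb, hc, map_sub, map_smul]
  module
lemma en0a_dl_mul (i : ℕ) (v f : SF) : dl i (v * f) = v * dl i f + D v * (q * f) := by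
  rw [dl_apply, dl_apply, D_mul]
  ring
lemma en0a_dl_q (i : ℕ) (f : SF) : dl i (q * f) = q * dl (i + 1) f := by
  rw [dl_apply, dl_apply, D_mul, en0a_pp_succ]
  ring
lemma Aop_mul (j : ℕ) (v f : SF) :
    Aop j (v * f) = v * Aop j f + (2 : ℝ) • (D v * (q * dl (j + 1) f)) + D (D v) * (q ^ 2 * f) := by
  rw [Aop_apply, Aop_apply, en0a_dl_mul, map_add, en0a_dl_mul j v, en0a_dl_mul j (D v), en0a_dl_q,
    two_smul]
  ring
lemma abs_pp_le (i : ℕ) (x : I01) : |ev x (pp i)| ≤ 10 + i := by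
  have h0 := x.2.1
  have h1 := x.2.2
  have hi : (0 : ℝ) ≤ i := Nat.cast_nonneg i
  rw [ev_pp, abs_le]
  constructor <;> nlinarith
/-- integration by parts `∫ μ_i (δ_i f) g = - ∫ μ_{i+1} f g'` -/
lemma ig_mu_dl (i : ℕ) (f g : SF) : ig (mu i * dl i f * g) = -ig (mu (i + 1) * f * D g) := by
  have h : ig (D (mu (i + 1) * f * g)) = 0 :=
    ig_D_eq_zero (by simp [map_mul]) (by simp [map_mul])
  rw [D_mul, map_add, ← mu_dl] at h
  linarith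
/-- two integrations by parts -/
lemma ig_DD (j : ℕ) (R f : SF) : ig (D (D R) * (mu (j + 2) * f)) = ig (R * (mu j * Aop j f)) := by
  rw [mul_comm R, Aop_apply, ig_mu_dl, ig_mu_dl, neg_neg, mul_comm]
lemma pair_ibp (l : ℝ) (n : ℕ) (b : ℝ) (U G : SF) :
    pair l (n + 2) b U G =
      ig (Dn n U * (mu (n + 2) * Aop (n + 2) (lp l ((n + 2 : ℕ) - 10 - b) * Dn (n + 2) G))) := by
  rw [← ig_DD, pair_apply, ← Dn_succ, ← Dn_succ]
  congr 1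
  ring

/-- `∫ (δ h)² w μ_i = ∫ μ_{i+2} w h'² - ∫ h² μ_{i+1} (p' w + p w')` (integrate `D (p μ_{i+1} w h²)`),
`p' ≤ 0`, and `p h = δ h - q h'`, so `p μ_{i+1} w' h² ≤ ½ μ_i w (δh)² + ½ μ_{i+2} w h'² + μ_{i+2} (w'²/w) h²`. -/
lemma dl_elliptic {l : ℝ} (h0 : 0 < l) (i : ℕ) (e : ℝ) (h : SF) :
    ig (mu (i + 2) * lp l e * D h ^ 2) ≤
      3 * ig (mu i * lp l e * dl i h ^ 2) + 2 * e ^ 2 * ig (mu (i + 2) * lp l (e - 2) * h ^ 2) := by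
  have hz := ig_D_eq_zero (f := mu (i + 1) * pp i * lp l e * h * h) (by simp) (by simp)
  have h2 : ig (mu (i + 2) * lp l e * D h ^ 2) = ig (mu (i + 2) * lp l e * D h ^ 2 +
      (2 : ℝ) • D (mu (i + 1) * pp i * lp l e * h * h)) := by
    rw [map_add, map_smul, hz, smul_zero, add_zero]
  rw [h2, ← one_mul (ig (_ + _))]
  refine nmb_ig2 fun x => ?_
  have e1 : ev x (lp l e) = ((x : ℝ) + l) ^ 2 * ev x (lp l (e - 2)) := by
    rw [ev_lp h0, ev_lp h0]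
    exact nmb_pow h0 x 2 (by push_cast; ring)
  have e2 : ev x (lp l (e - 1)) = ((x : ℝ) + l) * ev x (lp l (e - 2)) := by
    rw [ev_lp h0, ev_lp h0, nmb_pow h0 x (e := e - 1) (e' := e - 2) 1 (by push_cast; ring), pow_one]
  have hB : 0 ≤ ev x (mu i) * ev x (lp l (e - 2)) :=
    mul_nonneg (ev_mu_nonneg i x) (ev_lp_pos h0 _ x).le
  have hq := ev_q_nonneg x
  have t1 := mul_nonneg hB (sq_nonneg (((x : ℝ) + l) * (ev x q * ev x (D h) + ev x (pp i) * ev x h) -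
    e * ev x q * ev x h))
  have t2 := mul_nonneg hB (sq_nonneg (e * ev x q * ev x h + ((x : ℝ) + l) * ev x q * ev x (D h)))
  have t3 := mul_nonneg (mul_nonneg (Nat.cast_nonneg (α := ℝ) (11 + 2 * i)) (mul_nonneg hq hB))
    (sq_nonneg (((x : ℝ) + l) * ev x h))
  rw [D_mul, D_mul, D_mul, D_mul, D_mu, D_pp, D_lp h0, dl_apply, mu_succ (i + 1), mu_succ i]
  simp only [map_add, map_mul, map_neg, map_pow, map_one, ev_smul, e1, e2]
  linarith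

lemma en0b_a {l : ℝ} (h0 : 0 < l) (j : ℕ) (e : ℝ) (f : SF) :
    ig (mu (j + 1) * lp l (e - 2) * f ^ 2) ≤ ig (f * f * (mu j * lp l (e - 1))) := by
  refine ig_mono fun x => ?_
  have e2 : ev x (lp l (e - 1)) = ((x : ℝ) + l) * ev x (lp l (e - 2)) := by
    rw [ev_lp h0, ev_lp h0, nmb_pow h0 x (e := e - 1) (e' := e - 2) 1 (by push_cast; ring), pow_one]
  have hB : 0 ≤ ev x (mu j) * ev x (lp l (e - 2)) :=
    mul_nonneg (ev_mu_nonneg j x) (ev_lp_pos h0 _ x).le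
  have t := mul_le_mul_of_nonneg_right (q_le_ell h0 x) (mul_nonneg hB (sq_nonneg (ev x f)))
  rw [mu_succ]
  simp only [map_mul, map_pow, ev_q, e2]
  linarith

lemma en0b_b {l : ℝ} (h0 : 0 < l) (j : ℕ) (e c : ℝ) (f g : SF) :
    ig (mu j * lp l e * (f + c • g) ^ 2) ≤
      2 * ig (mu j * lp l e * f ^ 2) + 2 * c ^ 2 * ig (g * g * (mu j * lp l e)) := by
  rw [← one_mul (ig (mu j * lp l e * (f + c • g) ^ 2))]
  refine nmb_ig2 fun x => ?_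
  have hB : 0 ≤ ev x (mu j) * ev x (lp l e) :=
    mul_nonneg (ev_mu_nonneg j x) (ev_lp_pos h0 _ x).le
  have t := mul_nonneg hB (sq_nonneg (ev x f - c * ev x g))
  simp only [map_mul, map_pow, map_add, ev_smul]
  linarith

lemma en0b_c {l : ℝ} (h0 : 0 < l) (i j : ℕ) (e : ℝ) (f : SF) :
    ig (mu j * lp l e * dl i f ^ 2) ≤
      2 * ig (mu (j + 2) * lp l e * D f ^ 2) + 2 * (10 + i) ^ 2 * ig (f * f * (mu j * lp l e)) := by
  rw [← one_mul (ig (mu j * lp l e * dl i f ^ 2))]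
  refine nmb_ig2 fun x => ?_
  have hB : 0 ≤ ev x (mu j) * ev x (lp l e) :=
    mul_nonneg (ev_mu_nonneg j x) (ev_lp_pos h0 _ x).le
  have t := mul_nonneg hB (sq_nonneg (ev x q * ev x (D f) - ev x (pp i) * ev x f))
  have hp : ev x (pp i) ^ 2 ≤ (10 + i) ^ 2 := by
    rw [← sq_abs]
    exact pow_le_pow_left₀ (abs_nonneg _) (abs_pp_le i x) 2
  have t2 := mul_le_mul_of_nonneg_right hp (mul_nonneg hB (sq_nonneg (ev x f)))
  rw [dl_apply, mu_succ (j + 1), mu_succ j]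
  simp only [map_mul, map_pow, map_add]
  linarith

/-- `dl_elliptic` twice: for `D H` at level `n+4`... precisely `∫ μ_{j+4} w H''² ≲ ∫ μ_{j+2} w (δ_{j+2} H')²`
+ lower, `δ_{j+2} H' = D (δ_{j+1} H) + c H` (`D_dl`), `∫ μ_{j+2} w (D δ_{j+1} H)² ≲ ∫ μ_j w (𝒜_j H)²` +
lower (`j = n+2`); the lower terms are `≤ C (tp (n+3) (b+2) + tp (n+2) (b+2))`. -/
lemma coerc (n : ℕ) (b : ℝ) : ∃ C, 0 ≤ C ∧ ∀ l, 0 < l → l ≤ 1 → ∀ G : SF,
    tp l (n + 4) (b + 2) G ≤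
      C * (ig (mu (n + 2) * lp l ((n + 2 : ℕ) - 10 - b) * Aop (n + 2) (Dn (n + 2) G) ^ 2) +
        nT l (n + 3) (b + 2) G) := by
  obtain ⟨e, he⟩ : ∃ e : ℝ, e = (n + 2 : ℕ) - 10 - b := ⟨_, rfl⟩
  obtain ⟨c, hc⟩ : ∃ c : ℝ, c = ((11 + 2 * (n + 2 + 1) : ℕ) : ℝ) := ⟨_, rfl⟩
  obtain ⟨P, hP⟩ : ∃ P : ℝ, P = 10 + ((n + 2 + 1 : ℕ) : ℝ) := ⟨_, rfl⟩
  refine ⟨18 + 26 * e ^ 2 + 24 * e ^ 2 * P ^ 2 + 24 * c ^ 2, by positivity, fun l h0 h1 G => ?_⟩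
  rw [← he]
  obtain ⟨H, hH⟩ : ∃ H, H = Dn (n + 2) G := ⟨_, rfl⟩
  have d3 : Dn (n + 3) G = D H := by rw [hH, ← Dn_succ]
  have d4 : Dn (n + 4) G = D (D H) := by rw [hH, ← Dn_succ, ← Dn_succ]
  have T4 : tp l (n + 4) (b + 2) G = ig (mu (n + 2 + 2 + 2) * lp l e * D (D H) ^ 2) := by
    rw [tp, pair_apply, d4, show ((n + 4 : ℕ) : ℝ) - 10 - (b + 2) = e by rw [he]; push_cast; ring]
    congr 1
    ring
  have T3 : ig (D H * D H * (mu (n + 2 + 2 + 1) * lp l (e - 1))) ≤ nT l (n + 3) (b + 2) G := by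
    have := tp_le_nT h0 (le_refl (n + 3)) (b + 2) G
    rwa [tp, pair_apply, d3,
      show ((n + 3 : ℕ) : ℝ) - 10 - (b + 2) = e - 1 by rw [he]; push_cast; ring] at this
  have T2 : ig (H * H * (mu (n + 2 + 2) * lp l (e - 2))) ≤ nT l (n + 3) (b + 2) G := by
    have := tp_le_nT h0 (show n + 2 ≤ n + 3 by omega) (b + 2) G
    rwa [tp, pair_apply, ← hH,
      show ((n + 2 : ℕ) : ℝ) - 10 - (b + 2) = e - 2 by rw [he]; ring] at this
  have T2' : ig (H * H * (mu (n + 2 + 2) * lp l e)) ≤ 4 * nT l (n + 3) (b + 2) G := by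
    have a1 := tp_le_nT h0 (show n + 2 ≤ n + 3 by omega) (b + 2) G
    have a2 := tp_le_succ h0 h1 (n + 2) b G
    have a3 := tp_le_succ h0 h1 (n + 2) (b + 1) G
    rw [show b + 1 + 1 = b + 2 by ring] at a3
    rw [tp, pair_apply, ← hH, ← he] at a2
    linarith
  have A := (en0b_a h0 (n + 2 + 2 + 1) e (D H)).trans T3
  have E1 := dl_elliptic h0 (n + 2 + 2) e (D H)
  have E2 := dl_elliptic h0 (n + 2) e (dl (n + 2 + 1) H)
  have hd : dl (n + 2 + 2) (D H) = D (dl (n + 2 + 1) H) + c • H := by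
    rw [D_dl, hc, sub_add_cancel]
  have B := en0b_b h0 (n + 2 + 2) e c (D (dl (n + 2 + 1) H)) H
  have C := en0b_c h0 (n + 2 + 1) (n + 2 + 2) (e - 2) H
  rw [← hP] at C
  rw [← hd] at B
  rw [← Aop_apply] at E2
  rw [T4, ← hH]
  have hN := nT_nonneg h0 (n + 3) (b + 2) G
  have hM : 0 ≤ ig (mu (n + 2) * lp l e * Aop (n + 2) H ^ 2) := ig_nonneg fun x => by
    rw [map_mul, map_mul, map_pow]
    exact mul_nonneg (mul_nonneg (ev_mu_nonneg _ x) (ev_lp_pos h0 _ x).le) (sq_nonneg _)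
  have m1 := mul_le_mul_of_nonneg_left A (sq_nonneg e)
  have m2 := mul_le_mul_of_nonneg_left C (sq_nonneg e)
  have m3 := mul_le_mul_of_nonneg_left T2 (mul_nonneg (sq_nonneg e) (sq_nonneg P))
  have m4 := mul_le_mul_of_nonneg_left T2' (sq_nonneg c)
  have m5 := mul_nonneg (sq_nonneg e) hM
  have m6 := mul_nonneg (mul_nonneg (sq_nonneg e) (sq_nonneg P)) hM
  have m7 := mul_nonneg (sq_nonneg c) hM
  linarith

lemma e0c_abs_ig {f g : SF} (h : ∀ x, |ev x f| ≤ ev x g) : |ig f| ≤ ig g := by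
  rw [abs_le]
  refine ⟨?_, ig_mono fun x => (abs_le.1 (h x)).2⟩
  rw [← map_neg]
  exact ig_mono fun x => by rw [map_neg]; exact (abs_le.1 (h x)).1

lemma e0c_om {l : ℝ} (h0 : 0 < l) (h1 : l ≤ 1) {a b i m k : ℕ} (hi : i ≤ m) (hb : 2 * i - m ≤ b)
    (hk : a + b = 2 * i + k) (f : SF) (x : I01) :
    ((x : ℝ) + l) ^ a * ((x : ℝ) * (1 - x)) ^ b * ev x (Dn i f) ^ 2 ≤ 2 ^ k * Tv l m f x := by
  have h2 := om_le h0 h1 x (a := a) (b := b) (a' := min (2 * i) m) (b' := 2 * i - m) (k := k) hb (by omega)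
  calc _ ≤ 2 ^ k * (((x : ℝ) + l) ^ min (2 * i) m * ((x : ℝ) * (1 - x)) ^ (2 * i - m)) *
        ev x (Dn i f) ^ 2 := mul_le_mul_of_nonneg_right h2 (sq_nonneg _)
    _ = 2 ^ k * (om l i m x * ev x (Dn i f) ^ 2) := by rw [om]; ring
    _ ≤ _ := mul_le_mul_of_nonneg_left (om_le_Tv h0 hi f x) (by positivity)

lemma e0c_young (R Z : ℝ) {δ : ℝ} (hδ : 0 < δ) : |R * Z| ≤ δ * Z ^ 2 + 1 / δ * R ^ 2 := by
  obtain ⟨u, rfl⟩ : ∃ u, R = δ * u := ⟨R / δ, by field_simp⟩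
  have e : 1 / δ * (δ * u) ^ 2 = δ * u ^ 2 := by field_simp
  rw [e, mul_assoc, abs_mul, abs_of_pos hδ, ← mul_add]
  refine mul_le_mul_of_nonneg_left ?_ hδ.le
  rw [abs_le]
  constructor <;> nlinarith [sq_nonneg (u + Z), sq_nonneg (u - Z), sq_nonneg u, sq_nonneg Z]

lemma e0c_sq3 {K a₁ a₀ : ℝ} (h1 : |a₁| ≤ K) (h0 : |a₀| ≤ K) (u v w : ℝ) :
    (u + a₁ * v + a₀ * w) ^ 2 ≤ 3 * (1 + K ^ 2) * (u ^ 2 + v ^ 2 + w ^ 2) := by
  have h1' : a₁ ^ 2 ≤ K ^ 2 := sq_le_sq' (abs_le.1 h1).1 (abs_le.1 h1).2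
  have h0' : a₀ ^ 2 ≤ K ^ 2 := sq_le_sq' (abs_le.1 h0).1 (abs_le.1 h0).2
  have e1 : (a₁ * v) ^ 2 ≤ K ^ 2 * v ^ 2 := by
    rw [mul_pow]; exact mul_le_mul_of_nonneg_right h1' (sq_nonneg _)
  have e0 : (a₀ * w) ^ 2 ≤ K ^ 2 * w ^ 2 := by
    rw [mul_pow]; exact mul_le_mul_of_nonneg_right h0' (sq_nonneg _)
  have e2 : 0 ≤ K ^ 2 * u ^ 2 := by positivity
  nlinarith [sq_nonneg (u - a₁ * v), sq_nonneg (u - a₀ * w), sq_nonneg (a₁ * v - a₀ * w), sq_nonneg v,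
    sq_nonneg w]

/-- `𝒜_j (ℓ^e H) = ℓ^e (q² H'' + a₁ q H' + a₀ H)` with bounded `a₁, a₀` -/
lemma e0c_Aop_pt (j : ℕ) (e : ℝ) : ∃ K, ∀ l, 0 < l → ∀ (H : SF) (x : I01), ∃ a₁ a₀ : ℝ, |a₁| ≤ K ∧ |a₀| ≤ K ∧
    ev x (Aop j (lp l e * H)) = ((x : ℝ) + l) ^ e *
      (((x : ℝ) * (1 - x)) ^ 2 * ev x (D (D H)) + a₁ * (((x : ℝ) * (1 - x)) * ev x (D H)) + a₀ * ev x H) := by
  refine ⟨(1 + (11 + j) + (11 + j) + 2 * |e|) +
    ((13 + 2 * j) + (11 + j) * (11 + j) + 2 * |e| * (11 + j) + |e| * |e - 1|), fun l h0 H x => ?_⟩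
  have hL := ell_pos h0 x
  have hQ := q_nonneg x
  have hQL := q_le_ell h0 x
  have hQ1 : (x : ℝ) * (1 - x) ≤ 1 := by have := x.2.1; have := x.2.2; nlinarith
  have hκ := h_D_q x
  have hp0 : |ev x (pp j)| ≤ 11 + j := (abs_pp_le j x).trans (by linarith)
  have hp1 : |ev x (pp (j + 1))| ≤ 11 + j := (abs_pp_le (j + 1) x).trans (by push_cast; linarith)
  have hp' : ev x (D (pp (j + 1))) = -(13 + 2 * j) := by
    rw [D_pp, map_neg, ev_smul, map_one]; push_cast; ring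
  have hj : (0 : ℝ) ≤ j := Nat.cast_nonneg j
  set L := (x : ℝ) + l with hLdef
  set Q := (x : ℝ) * (1 - x) with hQdef
  have hs0 : 0 ≤ Q / L := div_nonneg hQ hL.le
  have hs1 : Q / L ≤ 1 := (div_le_one hL).2 hQL
  set s := Q / L with hs
  have hes : |2 * e * s| ≤ 2 * |e| := by
    rw [abs_mul, abs_mul, abs_two, abs_of_nonneg hs0]
    exact mul_le_of_le_one_right (by positivity) hs1
  refine ⟨ev x (D q) + ev x (pp (j + 1)) + ev x (pp j) + 2 * e * s,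
    Q * -(13 + 2 * j) + ev x (pp j) * ev x (pp (j + 1)) + 2 * e * s * ev x (pp (j + 1)) + e * (e - 1) * s ^ 2,
    ?_, ?_, ?_⟩
  · refine le_add_of_le_of_nonneg ?_ (by positivity)
    exact (abs_add_le _ _).trans (add_le_add ((abs_add_three _ _ _).trans
      (add_le_add (add_le_add hκ hp1) hp0)) hes)
  · refine le_add_of_nonneg_of_le (by positivity) ?_
    refine (abs_add_le _ _).trans (add_le_add ((abs_add_three _ _ _).trans
      (add_le_add (add_le_add ?_ ?_) ?_)) ?_)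
    · rw [abs_mul, abs_neg, abs_of_nonneg hQ, abs_of_nonneg (by positivity)]
      exact mul_le_of_le_one_left (by positivity) hQ1
    · rw [abs_mul]
      exact mul_le_mul hp0 hp1 (abs_nonneg _) (by positivity)
    · rw [abs_mul]
      exact mul_le_mul hes hp1 (abs_nonneg _) (by positivity)
    · rw [abs_mul, abs_mul, abs_of_nonneg (sq_nonneg s)]
      exact mul_le_of_le_one_right (by positivity) (pow_le_one₀ hs0 hs1)
  · have e1 : L ^ (e - 1) = L ^ e / L := Real.rpow_sub_one hL.ne' e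
    have e2 : L ^ (e - 1 - 1) = L ^ e / L / L := by rw [Real.rpow_sub_one hL.ne', e1]
    rw [Aop_mul, Aop_apply, dl_apply, dl_apply, D_lp h0, Derivation.map_smul, D_lp h0]
    simp only [map_add, D_mul, map_mul, map_pow, ev_smul, ev_lp h0, ev_q, hp']
    rw [← hLdef, ← hQdef, e1, e2, hs]
    field_simp
    ring

/-- Pointwise `𝒜(wH)² ≤ C w² (q⁴ H''² + q² H'² + H²)` (`Aop_mul`, `|w'| ≤ C w/ℓ`, `q ≤ ℓ`) and
`ℓ^{n+4} q^n (q⁴ H''² + q² H'² + H²) ≤ T_{n+4}(G)`; `μ_{n+2} = q^n μ_2`; Young. -/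
lemma pair_src (n : ℕ) (b : ℝ) : ∃ C, 0 ≤ C ∧ ∀ l, 0 < l → l ≤ 1 → ∀ ε, 0 < ε → ∀ R G : SF,
    |ig (R * (mu (n + 2) * Aop (n + 2) (lp l ((n + 2 : ℕ) - 10 - b) * Dn (n + 2) G)))| ≤
      ε * nT l (n + 4) (b + 2) G + C / ε * ig ((ell l * q) ^ n * R ^ 2 * W l (b - 2)) := by
  obtain ⟨K, hK⟩ := e0c_Aop_pt (n + 2) ((n + 2 : ℕ) - 10 - b)
  have hC : 0 < 9 * (1 + K ^ 2) := by positivity
  refine ⟨9 * (1 + K ^ 2), hC.le, fun l h0 h1 ε hε R G => ?_⟩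
  rw [nT, ← smul_eq_mul ε, ← smul_eq_mul (_ / ε), ← map_smul, ← map_smul, ← map_add]
  refine e0c_abs_ig fun x => ?_
  obtain ⟨a₁, a₀, ha₁, ha₀, hA⟩ := hK l h0 (Dn (n + 2) G) x
  have hL := ell_pos h0 x
  have hQ := q_nonneg x
  have hW := ev_W_nonneg h0 (b + 2) x
  have hW4 : ev x (W l (b - 2)) = ((x : ℝ) + l) ^ 4 * ev x (W l (b + 2)) := by
    rw [ev_W_shift h0 (b - 2) 4 x]
    congr 3
    push_cast
    ring
  have hmu : ev x (mu (n + 2)) * ((x : ℝ) + l) ^ (((n + 2 : ℕ) : ℝ) - 10 - b) =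
      ((x : ℝ) + l) ^ (n + 4) * ((x : ℝ) * (1 - x)) ^ n * ev x (W l (b + 2)) := by
    have : (((n + 2 : ℕ) : ℝ) - 10 - b) = ((n + 4 : ℕ) : ℝ) + (-10 - (b + 2)) := by push_cast; ring
    rw [this, Real.rpow_add hL, Real.rpow_natCast, ev_W h0, ev_mu, mul_pow]
    ring
  have t2 := e0c_om h0 h1 (a := n + 4) (b := n + 4) (i := n + 4) (m := n + 4) (k := 0) le_rfl (by omega)
    (by omega) G x
  have t1 := e0c_om h0 h1 (a := n + 4) (b := n + 2) (i := n + 3) (m := n + 4) (k := 0) (by omega) (by omega)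
    (by omega) G x
  have t0 := e0c_om h0 h1 (a := n + 4) (b := n) (i := n + 2) (m := n + 4) (k := 0) (by omega) (by omega)
    (by omega) G x
  rw [← Dn_succ, ← Dn_succ] at hA
  rw [map_mul, map_mul, hA, map_add, ev_smul, ev_smul, map_mul, map_mul, map_mul, map_pow, map_pow, map_mul,
    ev_TT, ev_ell, ev_q, hW4, ← mul_assoc (ev x (mu (n + 2))), hmu]
  have hZ := e0c_sq3 ha₁ ha₀ (((x : ℝ) * (1 - x)) ^ 2 * ev x (Dn (n + 4) G))
    (((x : ℝ) * (1 - x)) * ev x (Dn (n + 3) G)) (ev x (Dn (n + 2) G))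
  set L := (x : ℝ) + l
  set Q := (x : ℝ) * (1 - x)
  set Z := Q ^ 2 * ev x (Dn (n + 4) G) + a₁ * (Q * ev x (Dn (n + 3) G)) + a₀ * ev x (Dn (n + 2) G)
  set w := ev x (W l (b + 2))
  set T := Tv l (n + 4) G x
  have hP : 0 ≤ L ^ (n + 4) * Q ^ n := by positivity
  have hZT : L ^ (n + 4) * Q ^ n * Z ^ 2 ≤ 9 * (1 + K ^ 2) * T := by
    refine (mul_le_mul_of_nonneg_left hZ hP).trans ?_
    have e : L ^ (n + 4) * Q ^ n * (3 * (1 + K ^ 2) * ((Q ^ 2 * ev x (Dn (n + 4) G)) ^ 2 +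
        (Q * ev x (Dn (n + 3) G)) ^ 2 + ev x (Dn (n + 2) G) ^ 2)) =
        3 * (1 + K ^ 2) * (L ^ (n + 4) * Q ^ (n + 4) * ev x (Dn (n + 4) G) ^ 2 +
          L ^ (n + 4) * Q ^ (n + 2) * ev x (Dn (n + 3) G) ^ 2 +
          L ^ (n + 4) * Q ^ n * ev x (Dn (n + 2) G) ^ 2) := by ring
    rw [e]
    calc _ ≤ 3 * (1 + K ^ 2) * (2 ^ 0 * T + 2 ^ 0 * T + 2 ^ 0 * T) := by gcongr
      _ = _ := by ring
  have hY := e0c_young (ev x R) Z (div_pos hε hC)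
  calc |ev x R * (L ^ (n + 4) * Q ^ n * w * Z)| = L ^ (n + 4) * Q ^ n * w * |ev x R * Z| := by
        rw [show ev x R * (L ^ (n + 4) * Q ^ n * w * Z) = L ^ (n + 4) * Q ^ n * w * (ev x R * Z) by ring,
          abs_mul, abs_of_nonneg (mul_nonneg hP hW)]
    _ ≤ L ^ (n + 4) * Q ^ n * w *
        (ε / (9 * (1 + K ^ 2)) * Z ^ 2 + 1 / (ε / (9 * (1 + K ^ 2))) * ev x R ^ 2) :=
        mul_le_mul_of_nonneg_left hY (mul_nonneg hP hW)
    _ = ε / (9 * (1 + K ^ 2)) * w * (L ^ (n + 4) * Q ^ n * Z ^ 2) +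
        9 * (1 + K ^ 2) / ε * ((L * Q) ^ n * ev x R ^ 2 * (L ^ 4 * w)) := by
        rw [one_div_div]; ring
    _ ≤ ε / (9 * (1 + K ^ 2)) * w * (9 * (1 + K ^ 2) * T) +
        9 * (1 + K ^ 2) / ε * ((L * Q) ^ n * ev x R ^ 2 * (L ^ 4 * w)) := by gcongr
    _ = _ := by field_simp

lemma e0d_mu (n : ℕ) (x : I01) : ev x (mu (n + 2)) = ((x : ℝ) * (1 - x)) ^ n * ev x (mu 2) := by
  simp only [ev_mu, mul_pow]; ring

lemma e0d_young {β c0 K y R : ℝ} (hc : 0 < c0) (h1 : c0 ≤ β) (h2 : β ≤ K) :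
    c0 / 2 * y ^ 2 - |K| / 2 * R ^ 2 ≤ β * (y ^ 2 + y * R) := by
  have h3 := mul_le_mul_of_nonneg_right h1 (sq_nonneg y)
  have h4 := mul_le_mul_of_nonneg_right (h2.trans (le_abs_self K)) (sq_nonneg R)
  have h5 := mul_nonneg (hc.le.trans h1) (sq_nonneg (y + R))
  nlinarith

lemma e0d_R {e L Q H H' p P N T : ℝ} (hQ : 0 ≤ Q) (hQL : Q ≤ L) (hN : 0 ≤ N) (hp : |p| ≤ P)
    (h1 : N * (L * Q) ^ 3 * H' ^ 2 ≤ T) (h2 : N * (L * Q) ^ 2 * H ^ 2 ≤ T) :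
    N * (2 * e * L * Q * (Q * H' + p * H) + e * (e - 1) * Q ^ 2 * H) ^ 2 ≤
      3 * (4 * e ^ 2 + 4 * e ^ 2 * P ^ 2 + (e * (e - 1)) ^ 2) * T := by
  have hL : 0 ≤ L := hQ.trans hQL
  have hT : 0 ≤ T := le_trans (by positivity) h2
  have a1 : N * (L * Q ^ 2 * H') ^ 2 ≤ T := by
    refine le_trans ?_ h1
    have : N * (L * Q) ^ 3 * H' ^ 2 - N * (L * Q ^ 2 * H') ^ 2 =
        N * L ^ 2 * Q ^ 3 * H' ^ 2 * (L - Q) := by ring
    have h3 : 0 ≤ N * L ^ 2 * Q ^ 3 * H' ^ 2 * (L - Q) :=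
      mul_nonneg (by positivity) (sub_nonneg.2 hQL)
    linarith
  have a2 : N * (p * (L * Q * H)) ^ 2 ≤ P ^ 2 * T := by
    have h3 : p ^ 2 ≤ P ^ 2 := by
      rw [← sq_abs]; exact pow_le_pow_left₀ (abs_nonneg _) hp 2
    calc N * (p * (L * Q * H)) ^ 2 = p ^ 2 * (N * (L * Q) ^ 2 * H ^ 2) := by ring
      _ ≤ P ^ 2 * T := mul_le_mul h3 h2 (by positivity) (by positivity)
  have a3 : N * (Q ^ 2 * H) ^ 2 ≤ T := by
    refine le_trans ?_ h2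
    have : N * (L * Q) ^ 2 * H ^ 2 - N * (Q ^ 2 * H) ^ 2 =
        N * Q ^ 2 * H ^ 2 * (L + Q) * (L - Q) := by ring
    have h3 : 0 ≤ N * Q ^ 2 * H ^ 2 * (L + Q) * (L - Q) :=
      mul_nonneg (by positivity) (sub_nonneg.2 hQL)
    linarith
  set u := 2 * e * (L * Q ^ 2 * H')
  set v := 2 * e * (p * (L * Q * H))
  set w := e * (e - 1) * (Q ^ 2 * H)
  have e1 : 2 * e * L * Q * (Q * H' + p * H) + e * (e - 1) * Q ^ 2 * H = u + v + w := by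
    simp only [u, v, w]; ring
  have b0 : (u + v + w) ^ 2 ≤ 3 * (u ^ 2 + v ^ 2 + w ^ 2) := by
    nlinarith [sq_nonneg (u - v), sq_nonneg (u - w), sq_nonneg (v - w)]
  have b1 : N * u ^ 2 ≤ 4 * e ^ 2 * T := by
    calc N * u ^ 2 = 4 * e ^ 2 * (N * (L * Q ^ 2 * H') ^ 2) := by simp only [u]; ring
      _ ≤ _ := mul_le_mul_of_nonneg_left a1 (by positivity)
  have b2 : N * v ^ 2 ≤ 4 * e ^ 2 * (P ^ 2 * T) := by
    calc N * v ^ 2 = 4 * e ^ 2 * (N * (p * (L * Q * H)) ^ 2) := by simp only [v]; ring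
      _ ≤ _ := mul_le_mul_of_nonneg_left a2 (by positivity)
  have b3 : N * w ^ 2 ≤ (e * (e - 1)) ^ 2 * T := by
    calc N * w ^ 2 = (e * (e - 1)) ^ 2 * (N * (Q ^ 2 * H) ^ 2) := by simp only [w]; ring
      _ ≤ _ := mul_le_mul_of_nonneg_left a3 (by positivity)
  rw [e1]
  calc N * (u + v + w) ^ 2 ≤ N * (3 * (u ^ 2 + v ^ 2 + w ^ 2)) := mul_le_mul_of_nonneg_left b0 hN
    _ = 3 * (N * u ^ 2 + N * v ^ 2 + N * w ^ 2) := by ring
    _ ≤ 3 * (4 * e ^ 2 * T + 4 * e ^ 2 * (P ^ 2 * T) + (e * (e - 1)) ^ 2 * T) := by gcongr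
    _ = _ := by ring

lemma e0d_pt (n : ℕ) (b c0 K : ℝ) (hc : 0 < c0) : ∃ C, 0 ≤ C ∧ ∀ l, 0 < l →
    ∀ β G : SF, (∀ x, c0 ≤ ev x β) → (∀ x, ev x β ≤ K) →
    c0 / 2 * ig (mu (n + 2) * lp l ((n + 2 : ℕ) - 10 - b) * Aop (n + 2) (Dn (n + 2) G) ^ 2) -
        C * nT l (n + 3) (b + 2) G ≤
      ig (β * Aop (n + 2) (Dn (n + 2) G) *
        (mu (n + 2) * Aop (n + 2) (lp l ((n + 2 : ℕ) - 10 - b) * Dn (n + 2) G))) := by
  set e : ℝ := ((n + 2 : ℕ) : ℝ) - 10 - b with he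
  set C1 : ℝ := 3 * (4 * e ^ 2 + 4 * e ^ 2 * (10 + ((n + 2 + 1 : ℕ) : ℝ)) ^ 2 + (e * (e - 1)) ^ 2)
    with hC1
  refine ⟨|K| / 2 * C1, by positivity, fun l h0 β G hβ hK => ?_⟩
  rw [nT, ← smul_eq_mul, ← smul_eq_mul (|K| / 2 * C1), ← map_smul, ← map_smul, ← map_sub]
  refine ig_mono fun x => ?_
  have hL := ell_pos h0 x
  have h1 := t_le_Tv h0 (le_refl (n + 3)) G x
  have h2 := t_le_Tv h0 (show n + 2 ≤ n + 3 by omega) G x
  have hR := e0d_R (e := e) (L := (x : ℝ) + l) (Q := (x : ℝ) * (1 - x)) (H := ev x (Dn (n + 2) G))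
    (H' := ev x (Dn (n + 3) G)) (p := ev x (pp (n + 2 + 1))) (P := 10 + ((n + 2 + 1 : ℕ) : ℝ))
    (N := (((x : ℝ) + l) * (x * (1 - x))) ^ n) (T := Tv l (n + 3) G x) (q_nonneg x) (q_le_ell h0 x)
    (pow_nonneg (mul_nonneg hL.le (q_nonneg x)) n) (abs_pp_le _ x)
    (by rw [← pow_add]; exact h1) (by rw [← pow_add]; exact h2)
  rw [← hC1] at hR
  have p0 : ((x : ℝ) + l) ^ e = ((x : ℝ) + l) ^ n * ((x : ℝ) + l) ^ 4 *
      ((x : ℝ) + l) ^ (-10 - (b + 2)) := by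
    rw [← pow_add, ← Real.rpow_natCast, ← Real.rpow_add hL]; congr 1; rw [he]; push_cast; ring
  have p1 : ((x : ℝ) + l) ^ (e - 1) = ((x : ℝ) + l) ^ n * ((x : ℝ) + l) ^ 3 *
      ((x : ℝ) + l) ^ (-10 - (b + 2)) := by
    rw [← pow_add, ← Real.rpow_natCast, ← Real.rpow_add hL]; congr 1; rw [he]; push_cast; ring
  have p2 : ((x : ℝ) + l) ^ (e - 1 - 1) = ((x : ℝ) + l) ^ n * ((x : ℝ) + l) ^ 2 *
      ((x : ℝ) + l) ^ (-10 - (b + 2)) := by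
    rw [← pow_add, ← Real.rpow_natCast, ← Real.rpow_add hL]; congr 1; rw [he]; push_cast; ring
  rw [Aop_mul, D_lp h0, Derivation.map_smul, D_lp h0, dl_apply (n + 2 + 1), ← Dn_succ (n + 2) G, W]
  simp only [map_sub, map_add, map_mul, map_pow, map_smul, smul_eq_mul, ev_lp h0, ev_TT, e0d_mu n, ev_q,
    p0, p1, p2]
  have hM := ev_mu_nonneg 2 x
  have hP : 0 < ((x : ℝ) + l) ^ (-10 - (b + 2)) := Real.rpow_pos_of_pos hL _
  have hN : 0 ≤ (((x : ℝ) + l) * (x * (1 - x))) ^ n := pow_nonneg (mul_nonneg hL.le (q_nonneg x)) n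
  have hY := e0d_young (y := ((x : ℝ) + l) ^ 2 * ev x (Aop (n + 2) (Dn (n + 2) G)))
    (R := 2 * e * ((x : ℝ) + l) * ((x : ℝ) * (1 - x)) * ((x : ℝ) * (1 - x) * ev x (Dn (n + 3) G) +
      ev x (pp (n + 2 + 1)) * ev x (Dn (n + 2) G)) +
      e * (e - 1) * ((x : ℝ) * (1 - x)) ^ 2 * ev x (Dn (n + 2) G)) hc (hβ x) (hK x)
  have h3 := mul_le_mul_of_nonneg_left hY (mul_nonneg (mul_nonneg hM hP.le) hN)
  have h4 := mul_le_mul_of_nonneg_left hR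
    (mul_nonneg (show 0 ≤ |K| / 2 by positivity) (mul_nonneg hM hP.le))
  rw [mul_pow ((x : ℝ) + l)] at h3 h4
  simp only [show n + 2 + 1 = n + 3 from rfl] at h3 h4 ⊢
  linear_combination h3 + h4

/-- Main term: `β 𝒜H μ 𝒜(wH) = β w μ (𝒜H)² + β μ 𝒜H (2 w' q δH + w'' q² H)
≥ (c0/2) w μ (𝒜H)² - C T_{n+3}(G) W_{b+2}` pointwise; then `coerc`. -/
lemma top_main (n : ℕ) (b c0 K : ℝ) (hc : 0 < c0) : ∃ c C, 0 < c ∧ 0 ≤ C ∧ ∀ l, 0 < l → l ≤ 1 →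
    ∀ β G : SF, (∀ x, c0 ≤ ev x β) → (∀ x, ev x β ≤ K) →
    c * tp l (n + 4) (b + 2) G - C * nT l (n + 3) (b + 2) G ≤
      ig (β * Aop (n + 2) (Dn (n + 2) G) *
        (mu (n + 2) * Aop (n + 2) (lp l ((n + 2 : ℕ) - 10 - b) * Dn (n + 2) G))) := by
  obtain ⟨C1, hC1, h1⟩ := e0d_pt n b c0 K hc
  obtain ⟨C2, hC2, h2⟩ := coerc n b
  refine ⟨c0 / 2 / (C2 + 1), c0 / 2 + C1, by positivity, by positivity,
    fun l h0 hl β G hβ hK => le_trans ?_ (h1 l h0 β G hβ hK)⟩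
  have h3 := h2 l h0 hl G
  set E := ig (mu (n + 2) * lp l ((n + 2 : ℕ) - 10 - b) * Aop (n + 2) (Dn (n + 2) G) ^ 2) with hE
  have hE0 : 0 ≤ E := ig_nonneg fun x => by
    rw [map_mul, map_mul, map_pow]
    exact mul_nonneg (mul_nonneg (ev_mu_nonneg _ _) (ev_lp_pos h0 _ _).le) (sq_nonneg _)
  have hN := nT_nonneg h0 (n + 3) (b + 2) G
  have h4 : c0 / 2 / (C2 + 1) * tp l (n + 4) (b + 2) G ≤ c0 / 2 * (E + nT l (n + 3) (b + 2) G) := by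
    rw [div_mul_eq_mul_div, div_le_iff₀ (by positivity), mul_assoc]
    refine mul_le_mul_of_nonneg_left ?_ (by positivity)
    nlinarith
  linarith

/-- the lower-order part of `Dn_Bop` -/
lemma Dn_Bop_lower (n : ℕ) : ∃ C, 0 ≤ C ∧ ∀ l, 0 < l → l ≤ 1 → ∀ (G : SF) (x : I01),
    ((x : ℝ) + l) ^ 4 * (((x : ℝ) + l) * (x * (1 - x))) ^ n *
      ev x (Dn n (Bop G) - Aop (n + 2) (Dn (n + 2) G)) ^ 2 ≤ C * Tv l (n + 3) G x := by
  obtain ⟨c₁, c₂, hc⟩ := Dn_Bop n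
  refine ⟨3 * (c₁ ^ 2 * 2 ^ 2 + c₁ ^ 2 * (12 + n) ^ 2 * 2 ^ 2 + c₂ ^ 2 * 2 ^ 4), by positivity,
    fun l h0 h1 G x => ?_⟩
  have hL := ell_pos h0 x
  have hQ := q_nonneg x
  have t2 := e0c_om h0 h1 (a := n + 4) (b := n + 2) (i := n + 2) (m := n + 3) (k := 2) (by omega) (by omega)
    (by omega) G x
  have t1 := e0c_om h0 h1 (a := n + 4) (b := n) (i := n + 1) (m := n + 3) (k := 2) (by omega) (by omega)
    (by omega) G x
  have t0 := e0c_om h0 h1 (a := n + 4) (b := n) (i := n) (m := n + 3) (k := 4) (by omega) (by omega)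
    (by omega) G x
  have hp : ev x (pp (n + 2)) ^ 2 ≤ (12 + n) ^ 2 := by
    have := abs_le.1 (abs_pp_le (n + 2) x)
    push_cast at this
    exact sq_le_sq' (by linarith [this.1]) (by linarith [this.2])
  have e : ev x (Dn n (Bop G) - Aop (n + 2) (Dn (n + 2) G)) =
      -c₁ * ((x : ℝ) * (1 - x) * ev x (Dn (n + 2) G)) + -c₁ * (ev x (pp (n + 2)) * ev x (Dn (n + 1) G)) +
        c₂ * ev x (Dn n G) := by
    rw [hc, dl_apply, ← Dn_succ]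
    simp only [map_add, map_sub, map_mul, ev_smul, ev_q]
    ring
  rw [e]
  set L := (x : ℝ) + l
  set Q := (x : ℝ) * (1 - x)
  set T := Tv l (n + 3) G x
  set p := ev x (pp (n + 2))
  set F2 := ev x (Dn (n + 2) G)
  set F1 := ev x (Dn (n + 1) G)
  set F0 := ev x (Dn n G)
  have hZ : (-c₁ * (Q * F2) + -c₁ * (p * F1) + c₂ * F0) ^ 2 ≤
      3 * ((-c₁ * (Q * F2)) ^ 2 + (-c₁ * (p * F1)) ^ 2 + (c₂ * F0) ^ 2) := by
    nlinarith [sq_nonneg (-c₁ * (Q * F2) - -c₁ * (p * F1)), sq_nonneg (-c₁ * (Q * F2) - c₂ * F0),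
      sq_nonneg (-c₁ * (p * F1) - c₂ * F0)]
  have hT : 0 ≤ T := Tv_nonneg h0 _ _ _
  calc _ ≤ L ^ 4 * (L * Q) ^ n * (3 * ((-c₁ * (Q * F2)) ^ 2 + (-c₁ * (p * F1)) ^ 2 + (c₂ * F0) ^ 2)) :=
        mul_le_mul_of_nonneg_left hZ (by positivity)
    _ = 3 * (c₁ ^ 2 * (L ^ (n + 4) * Q ^ (n + 2) * F2 ^ 2) + c₁ ^ 2 * p ^ 2 * (L ^ (n + 4) * Q ^ n * F1 ^ 2) +
        c₂ ^ 2 * (L ^ (n + 4) * Q ^ n * F0 ^ 2)) := by ring
    _ ≤ 3 * (c₁ ^ 2 * (2 ^ 2 * T) + c₁ ^ 2 * (12 + n) ^ 2 * (2 ^ 2 * T) + c₂ ^ 2 * (2 ^ 4 * T)) := by gcongr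
    _ = _ := by ring

lemma e_src {l : ℝ} (h0 : 0 < l) (n m : ℕ) (b C : ℝ) {R G : SF}
    (h : ∀ x : I01, ((x : ℝ) + l) ^ 4 * (((x : ℝ) + l) * (x * (1 - x))) ^ n * ev x R ^ 2 ≤
      C * Tv l m G x) :
    ig ((ell l * q) ^ n * R ^ 2 * W l (b - 2)) ≤ C * nT l m (b + 2) G := by
  have e : C * nT l m (b + 2) G = ig (C • (TT l m G * W l (b + 2))) := by
    rw [map_smul]; rfl
  rw [e]
  refine ig_mono fun x => ?_
  have e2 : b - 2 + ((4 : ℕ) : ℝ) = b + 2 := by push_cast; ring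
  have h1 := mul_le_mul_of_nonneg_right (h x) (ev_W_nonneg h0 (b + 2) x)
  rw [ev_smul, map_mul (ev x) (TT l m G), ev_TT, map_mul, ev_W_shift h0 (b - 2) 4, e2]
  simp only [map_mul, map_pow, ev_ell, ev_q]
  linarith

lemma e_div {c C : ℝ} (hc : 0 < c) (hC : 0 ≤ C) : c / (C + 1) * C ≤ c := by
  rw [div_mul_eq_mul_div, div_le_iff₀ (by linarith)]
  nlinarith

/-- Top-order energy inequality.  `pair_ibp`; `Dn n (-(β 𝓑G) + s) = -β 𝒜H - R + Dn n s` with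
`R = β (Dn n 𝓑G - 𝒜H) + (Dn n (β 𝓑G) - β Dn n 𝓑G)`; `top_main`; `pair_src` for `R` and `Dn n s` with `ε`
small against `nT_equiv (n+4)`; `ev_W_shift` (`W (b-2) = ℓ⁴ W (b+2)`), `tp_eq`; `nT_interp (n+3)`. -/
lemma top_energy (n : ℕ) (b c0 K : ℝ) (hc : 0 < c0) : ∃ c C, 0 < c ∧ 0 ≤ C ∧ ∀ l, 0 < l → l ≤ 1 →
    ∀ β G s : SF, (∀ x, c0 ≤ ev x β) → (∀ x, ev x β ≤ K) →
    (∀ x : I01, ((x : ℝ) + l) ^ 4 * (((x : ℝ) + l) * (x * (1 - x))) ^ n *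
      ev x (Dn n (β * Bop G) - β * Dn n (Bop G)) ^ 2 ≤ K * Tv l (n + 3) G x) →
    2 * pair l (n + 2) b (-(β * Bop G) + s) G ≤
      -c * tp l (n + 4) (b + 2) G + C * (tp l 0 (b + 2) G + tp l n (b - 2) s) := by
  obtain ⟨c₁, C₁, hc₁, hC₁, H₁⟩ := top_main n b c0 K hc
  obtain ⟨C₂, hC₂, H₂⟩ := pair_src n b
  obtain ⟨C₃, hC₃, H₃⟩ := Dn_Bop_lower n
  obtain ⟨C₄, hC₄, H₄⟩ := nT_equiv (n + 4) (b + 2)
  obtain ⟨ε, hε, hε'⟩ : ∃ ε : ℝ, 0 < ε ∧ ε * C₄ ≤ c₁ / 8 :=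
    ⟨c₁ / 8 / (C₄ + 1), by positivity, e_div (by positivity) hC₄⟩
  obtain ⟨CR, hCR⟩ : ∃ CR : ℝ, CR = 2 * (K ^ 2 * C₃) + 2 * |K| := ⟨_, rfl⟩
  have hCR0 : 0 ≤ CR := by rw [hCR]; positivity
  obtain ⟨C₆, hC₆⟩ : ∃ C₆ : ℝ, C₆ = C₁ + C₂ / ε * CR := ⟨_, rfl⟩
  have hC₆0 : 0 ≤ C₆ := by rw [hC₆]; positivity
  obtain ⟨δ, hδ, hδ'⟩ : ∃ δ : ℝ, 0 < δ ∧ δ * C₆ ≤ c₁ / 4 :=
    ⟨c₁ / 4 / (C₆ + 1), by positivity, e_div (by positivity) hC₆0⟩
  obtain ⟨C₅, hC₅, H₅⟩ := nT_interp (n + 3) (b + 2) δ hδ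
  refine ⟨c₁, c₁ / 2 + 2 * (C₆ * C₅) + 2 * (C₂ / ε), hc₁, by positivity,
    fun l h0 h1 β G s hβ hβ' hcm => ?_⟩
  set R : SF := β * (Dn n (Bop G) - Aop (n + 2) (Dn (n + 2) G)) +
    (Dn n (β * Bop G) - β * Dn n (Bop G)) with hR
  have hRp : ∀ x : I01, ((x : ℝ) + l) ^ 4 * (((x : ℝ) + l) * (x * (1 - x))) ^ n * ev x R ^ 2 ≤
      CR * Tv l (n + 3) G x := by
    intro x
    have a1 := H₃ l h0 h1 G x
    have a2 := hcm x
    have hT := Tv_nonneg h0 (n + 3) G x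
    have hw : 0 ≤ ((x : ℝ) + l) ^ 4 * (((x : ℝ) + l) * (x * (1 - x))) ^ n :=
      mul_nonneg (pow_nonneg (ell_pos h0 x).le _)
        (pow_nonneg (mul_nonneg (ell_pos h0 x).le (q_nonneg x)) _)
    have hb : ev x β ^ 2 ≤ K ^ 2 := pow_le_pow_left₀ (hc.le.trans (hβ x)) (hβ' x) 2
    rw [hR, map_add, map_mul]
    generalize ((x : ℝ) + l) ^ 4 * (((x : ℝ) + l) * (x * (1 - x))) ^ n = w at *
    generalize ev x (Dn n (Bop G) - Aop (n + 2) (Dn (n + 2) G)) = u at *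
    generalize ev x (Dn n (β * Bop G) - β * Dn n (Bop G)) = v at *
    have a3 : ev x β ^ 2 * (w * u ^ 2) ≤ K ^ 2 * (C₃ * Tv l (n + 3) G x) :=
      mul_le_mul hb a1 (by positivity) (by positivity)
    have a4 : K * Tv l (n + 3) G x ≤ |K| * Tv l (n + 3) G x :=
      mul_le_mul_of_nonneg_right (le_abs_self K) hT
    have a5 : 0 ≤ w * (ev x β * u - v) ^ 2 := by positivity
    rw [hCR]
    nlinarith
  have b1 := H₁ l h0 h1 β G hβ hβ'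
  have b2 := (abs_le.1 (H₂ l h0 h1 ε hε R G)).1
  have b3 := (abs_le.1 (H₂ l h0 h1 ε hε (Dn n s) G)).2
  have b4 := mul_le_mul_of_nonneg_left (e_src h0 n (n + 3) b CR hRp) (by positivity : 0 ≤ C₂ / ε)
  have b5 := mul_le_mul_of_nonneg_left (H₄ l h0 h1 G) hε.le
  have b6 := mul_le_mul_of_nonneg_left (H₅ l h0 h1 G) hC₆0
  rw [← tp_eq h0] at b3
  have e : Dn n (-(β * Bop G) + s) = -(β * Aop (n + 2) (Dn (n + 2) G)) - R + Dn n s := by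
    rw [hR, map_add, map_neg]
    ring
  rw [pair_ibp, e, add_mul, sub_mul, neg_mul (β * _), map_add, map_sub, map_neg]
  have p4 := tp_nonneg l (n + 4) (b + 2) G
  have p0 := tp_nonneg l 0 (b + 2) G
  have ps := tp_nonneg l n (b - 2) s
  have b7 := mul_le_mul_of_nonneg_right hε' (add_nonneg p4 p0)
  have b8 := mul_le_mul_of_nonneg_right hδ' p4
  have b9 : 0 ≤ C₂ / ε * tp l 0 (b + 2) G := by positivity
  have b10 : 0 ≤ (c₁ / 2 + 2 * (C₆ * C₅)) * tp l n (b - 2) s := by positivity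
  have b11 : C₆ * nT l (n + 3) (b + 2) G =
      C₁ * nT l (n + 3) (b + 2) G + C₂ / ε * (CR * nT l (n + 3) (b + 2) G) := by
    rw [hC₆]; ring
  rw [show n + 3 + 1 = n + 4 from rfl] at b6
  linarith

lemma f_low_pt {L Q κ a η : ℝ} (hL : 0 < L) (hQ : 0 ≤ Q) (hQL : Q ≤ L) (hκ : |κ| ≤ 1) (hη : 0 < η)
    (g h h' : ℝ) : -(g * (κ * L * h + Q * a * h + Q * L * h')) ≤
      L * h ^ 2 / 4 + η * L ^ 3 * h' ^ 2 + ((1 + |a|) ^ 2 + 1 / (4 * η)) * L * g ^ 2 := by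
  obtain ⟨r, rfl⟩ : ∃ r, Q = r * L := ⟨Q / L, (div_mul_cancel₀ _ hL.ne').symm⟩
  have r0 : 0 ≤ r := nonneg_of_mul_nonneg_left hQ hL
  have r1 : r ≤ 1 := le_of_mul_le_mul_right (by linarith) hL
  have hs : |κ + r * a| ≤ 1 + |a| := by
    refine (abs_add_le _ _).trans (add_le_add hκ ?_)
    rw [abs_mul, abs_of_nonneg r0]
    exact mul_le_of_le_one_left (abs_nonneg _) r1
  have hs2 : (κ + r * a) ^ 2 * g ^ 2 ≤ (1 + |a|) ^ 2 * g ^ 2 :=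
    mul_le_mul_of_nonneg_right (sq_le_sq' (abs_le.1 hs).1 (abs_le.1 hs).2) (sq_nonneg _)
  have a1 : -(g * h * (κ + r * a)) ≤ h ^ 2 / 4 + (1 + |a|) ^ 2 * g ^ 2 := by
    nlinarith [sq_nonneg (h / 2 + (κ + r * a) * g)]
  have a2 : -(g * (r * (L * h'))) ≤ η * (L * h') ^ 2 + 1 / (4 * η) * g ^ 2 := by
    have b1 : η * (r * (L * h')) ^ 2 ≤ η * (L * h') ^ 2 := by
      rw [mul_pow r]
      exact mul_le_mul_of_nonneg_left (mul_le_of_le_one_left (sq_nonneg _) (pow_le_one₀ r0 r1)) hη.le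
    have b2 : 0 ≤ η * (r * (L * h') + g / (2 * η)) ^ 2 := by positivity
    have b3 : η * (r * (L * h') + g / (2 * η)) ^ 2 =
        η * (r * (L * h')) ^ 2 + g * (r * (L * h')) + 1 / (4 * η) * g ^ 2 := by
      field_simp
      ring
    linarith
  have := mul_le_mul_of_nonneg_left (add_le_add a1 a2) hL.le
  linarith

/-- With `h = δ_1 G`: `∫ μ_2 ℓ^{e-2} h² = ∫ (q ℓ^{e-2} h) (μ_2 G)' = -∫ (q ℓ^{e-2} h)' μ_2 G`
(`mu_dl 1`); Young, `dl_elliptic 0 e h` (`δ_0 h = 𝒜_0 G`), absorb. -/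
lemma low_interp (e ε : ℝ) (hε : 0 < ε) : ∃ C, 0 ≤ C ∧ ∀ l, 0 < l → l ≤ 1 → ∀ G : SF,
    ig (mu 2 * lp l (e - 2) * dl 1 G ^ 2) ≤
      ε * ig (mu 0 * lp l e * Aop 0 G ^ 2) + C * ig (mu 2 * lp l (e - 2) * G ^ 2) := by
  have hη : 0 < min (ε / 6) (1 / (8 * (e ^ 2 + 1))) := lt_min (by positivity) (by positivity)
  have hη1 : min (ε / 6) (1 / (8 * (e ^ 2 + 1))) ≤ ε / 6 := min_le_left _ _
  have hη2 : min (ε / 6) (1 / (8 * (e ^ 2 + 1))) * (8 * (e ^ 2 + 1)) ≤ 1 :=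
    (le_div_iff₀ (by positivity)).1 (min_le_right _ _)
  generalize min (ε / 6) (1 / (8 * (e ^ 2 + 1))) = η at hη hη1 hη2
  refine ⟨2 * ((1 + |e - 2|) ^ 2 + 1 / (4 * η)), by positivity, fun l h0 _ G => ?_⟩
  have h1 := dl_elliptic h0 0 e (dl 1 G)
  have h2 := ig_mu_dl 1 G (q * lp l (e - 2) * dl 1 G)
  have e1 : mu 1 * dl 1 G * (q * lp l (e - 2) * dl 1 G) = mu 2 * lp l (e - 2) * dl 1 G ^ 2 := by
    rw [show mu 2 = q * mu 1 from mu_succ 1]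
    ring
  have h3 : ig (-(mu 2 * G * D (q * lp l (e - 2) * dl 1 G))) ≤
      ig ((1 / 4 : ℝ) • (mu 2 * lp l (e - 2) * dl 1 G ^ 2) + η • (mu 2 * lp l e * D (dl 1 G) ^ 2) +
        ((1 + |e - 2|) ^ 2 + 1 / (4 * η)) • (mu 2 * lp l (e - 2) * G ^ 2)) := by
    refine ig_mono fun x => ?_
    have hL := ell_pos h0 x
    have ea : ((x : ℝ) + l) ^ (e - 2) = ((x : ℝ) + l) ^ (e - 2 - 1) * (x + l) := by
      rw [← Real.rpow_add_one hL.ne', sub_add_cancel]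
    have eb : ((x : ℝ) + l) ^ e = ((x : ℝ) + l) ^ (e - 2 - 1) * (x + l) ^ 3 := by
      rw [← Real.rpow_natCast, ← Real.rpow_add hL]
      congr 1
      push_cast
      ring
    have key := mul_le_mul_of_nonneg_left (f_low_pt (a := e - 2) hL (ev_q_nonneg x)
      (by rw [ev_q]; exact q_le_ell h0 x) (h_D_q x) hη (ev x G) (ev x (dl 1 G)) (ev x (D (dl 1 G))))
      (mul_nonneg (ev_mu_nonneg 2 x) (Real.rpow_nonneg hL.le (e - 2 - 1)))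
    rw [D_mul, D_mul, D_lp h0]
    simp only [map_neg, map_add, map_mul, map_pow, map_smul, smul_eq_mul, ev_lp h0]
    rw [eb, ea]
    linarith
  have hI : 0 ≤ ig (mu 2 * lp l (e - 2) * dl 1 G ^ 2) := ig_nonneg fun x => by
    rw [map_mul, map_mul, map_pow]
    exact mul_nonneg (mul_nonneg (ev_mu_nonneg _ _) (ev_lp_pos h0 _ _).le) (sq_nonneg _)
  have hA : 0 ≤ ig (mu 0 * lp l e * Aop 0 G ^ 2) := ig_nonneg fun x => by
    rw [map_mul, map_mul, map_pow]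
    exact mul_nonneg (mul_nonneg (ev_mu_nonneg _ _) (ev_lp_pos h0 _ _).le) (sq_nonneg _)
  rw [map_neg, map_add, map_add, map_smul, map_smul, map_smul, smul_eq_mul, smul_eq_mul, smul_eq_mul,
    ← h2, e1] at h3
  have h4 : η * ig (mu 2 * lp l e * D (dl 1 G) ^ 2) ≤ η * (3 * ig (mu 0 * lp l e * Aop 0 G ^ 2) +
      2 * e ^ 2 * ig (mu 2 * lp l (e - 2) * dl 1 G ^ 2)) := mul_le_mul_of_nonneg_left h1 hη.le
  have h5 := mul_le_mul_of_nonneg_right hη1 hA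
  have h6 := mul_le_mul_of_nonneg_right hη2 hI
  have h7 := mul_nonneg hη.le hI
  linarith

lemma g_pt {c0 c1 c2 y L Q m v v1 v2 : ℝ} (A h G : ℝ) (hc : 0 < c0) (hy : 0 ≤ y) (hm : 0 ≤ m)
    (hQ : 0 ≤ Q) (hQL : Q ≤ L) (hv : c0 * (y * L ^ 2) ≤ v) (hv1 : |v1| ≤ c1 * (y * L))
    (hv2 : |v2| ≤ c2 * y) :
    c0 / 2 * (m * (y * L ^ 2) * A ^ 2) - 4 * c1 ^ 2 / c0 * (Q * (Q * m) * y * h ^ 2) -
        c2 ^ 2 / c0 * (Q * (Q * m) * y * G ^ 2) ≤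
      A * (m * (v * A + 2 * (v1 * (Q * h)) + v2 * (Q ^ 2 * G))) := by
  have hA := abs_nonneg A
  have hh := abs_nonneg h
  have hG := abs_nonneg G
  have t1 : c0 * (y * L ^ 2) * A ^ 2 ≤ v * A ^ 2 := mul_le_mul_of_nonneg_right hv (sq_nonneg A)
  have t2 : -(c1 * (y * L) * (Q * |h| * |A|)) ≤ v1 * (Q * h * A) := by
    refine le_trans (neg_le_neg ?_) (neg_abs_le _)
    rw [abs_mul, abs_mul, abs_mul, abs_of_nonneg hQ]
    exact mul_le_mul_of_nonneg_right hv1 (by positivity)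
  have t3 : -(c2 * y * (Q * L * |G| * |A|)) ≤ v2 * (Q * Q * G * A) := by
    refine le_trans (neg_le_neg ?_) (neg_abs_le _)
    rw [abs_mul, abs_mul, abs_mul, abs_mul, abs_of_nonneg hQ]
    refine mul_le_mul hv2 ?_ (by positivity) ((abs_nonneg _).trans hv2)
    gcongr
  have s1 : 0 ≤ y * ((c0 * (L * |A|) / 2 - 2 * c1 * (Q * |h|)) ^ 2 / c0) := by positivity
  have s2 : 0 ≤ y * ((c0 * (L * |A|) / 2 - c2 * (Q * |G|)) ^ 2 / c0) := by positivity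
  have e1 : y * ((c0 * (L * |A|) / 2 - 2 * c1 * (Q * |h|)) ^ 2 / c0) =
      c0 / 4 * (y * L ^ 2 * A ^ 2) - 2 * (c1 * (y * L) * (Q * |h| * |A|)) +
        4 * c1 ^ 2 / c0 * (Q * Q * y * h ^ 2) := by
    rw [← sq_abs A, ← sq_abs h]; field_simp; ring
  have e2 : y * ((c0 * (L * |A|) / 2 - c2 * (Q * |G|)) ^ 2 / c0) =
      c0 / 4 * (y * L ^ 2 * A ^ 2) - c2 * y * (Q * L * |G| * |A|) +
        c2 ^ 2 / c0 * (Q * Q * y * G ^ 2) := by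
    rw [← sq_abs A, ← sq_abs G]; field_simp; ring
  have key : c0 / 2 * (y * L ^ 2 * A ^ 2) - 4 * c1 ^ 2 / c0 * (Q * Q * y * h ^ 2) -
      c2 ^ 2 / c0 * (Q * Q * y * G ^ 2) ≤
      v * A ^ 2 + 2 * (v1 * (Q * h * A)) + v2 * (Q * Q * G * A) := by
    linarith
  have := mul_le_mul_of_nonneg_left key hm
  linarith

lemma g_abs {k L a : ℝ} (hL : 0 < L) (n : ℕ) (h : L ^ (2 * n) * a ^ 2 ≤ k) :
    |a| * L ^ n ≤ √k := by
  refine Real.le_sqrt_of_sq_le ?_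
  rw [mul_pow, sq_abs, ← pow_mul, mul_comm n 2, mul_comm]
  exact h

lemma g_main (b c0 K : ℝ) (hc : 0 < c0) : ∃ C, 0 ≤ C ∧ ∀ l, 0 < l → l ≤ 1 →
    ∀ β G : SF, (∀ x, c0 ≤ ev x β) → (∀ x, Tv l 4 β x ≤ K) →
    -(C * tp l 0 (b + 2) G) ≤ pair l 0 b (β * Bop G) G := by
  set E : ℝ := -10 - b with hE
  set c1 : ℝ := √K * (1 + |E|) with hc1
  set c2 : ℝ := √K * (1 + 2 * |E| + |E * (E - 1)|) with hc2
  obtain ⟨C, hC, hI⟩ := low_interp E (c0 ^ 2 / (8 * (c1 ^ 2 + 1))) (by positivity)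
  refine ⟨4 * c1 ^ 2 / c0 * C + c2 ^ 2 / c0, by positivity, fun l h0 h1 β G hβ hK => ?_⟩
  have e0 : ((0 : ℕ) : ℝ) - 10 - b = E := by rw [hE]; push_cast; ring
  have e2 : ((0 : ℕ) : ℝ) - 10 - (b + 2) = E - 2 := by rw [hE]; push_cast; ring
  have hP : pair l 0 b (β * Bop G) G =
      ig (Aop 0 G * (mu 0 * Aop 0 (β * lp l E * G))) := by
    rw [← ig_DD, pair_apply, e0, Dn_zero, Dn_zero, Bop_apply, Dn_succ, Dn_one]
    congr 1; ring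
  have hT : tp l 0 (b + 2) G = ig (mu 2 * lp l (E - 2) * G ^ 2) := by
    rw [tp, pair_apply, e2, Dn_zero]
    congr 1; ring
  have hpt : ig ((c0 / 2) • (mu 0 * lp l E * Aop 0 G ^ 2) -
      (4 * c1 ^ 2 / c0) • (mu 2 * lp l (E - 2) * dl 1 G ^ 2) -
      (c2 ^ 2 / c0) • (mu 2 * lp l (E - 2) * G ^ 2)) ≤
      ig (Aop 0 G * (mu 0 * Aop 0 (β * lp l E * G))) := by
    refine ig_mono fun x => ?_
    have hL := ell_pos h0 x
    have b0 : |ev x β| * ((x : ℝ) + l) ^ 0 ≤ √K :=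
      g_abs hL 0 ((s_le_Tv h0 (i := 0) (by norm_num) β x).trans (hK x))
    have b1 : |ev x (D β)| * ((x : ℝ) + l) ^ 1 ≤ √K :=
      g_abs hL 1 (by simpa only [Dn_one] using (s_le_Tv h0 (i := 1) (by norm_num) β x).trans (hK x))
    have b2 : |ev x (D (D β))| * ((x : ℝ) + l) ^ 2 ≤ √K :=
      g_abs hL 2 (by
        simpa only [Dn_succ, Dn_zero] using (s_le_Tv h0 (i := 2) (by norm_num) β x).trans (hK x))
    rw [pow_zero, mul_one] at b0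
    rw [pow_one] at b1
    have hy : 0 < ((x : ℝ) + l) ^ (E - 2) := Real.rpow_pos_of_pos hL _
    have w1 : ((x : ℝ) + l) ^ (E - 1) = ((x : ℝ) + l) ^ (E - 2) * ((x : ℝ) + l) := by
      rw [← Real.rpow_add_one hL.ne']; congr 1; ring
    have w0 : ((x : ℝ) + l) ^ E = ((x : ℝ) + l) ^ (E - 2) * ((x : ℝ) + l) ^ 2 := by
      rw [← Real.rpow_natCast, ← Real.rpow_add hL]; congr 1; push_cast; ring
    have w2 : E - 1 - 1 = E - 2 := by ring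
    have d1 : D (β * lp l E) = D β * lp l E + E • (β * lp l (E - 1)) := by
      rw [D_mul, D_lp h0, mul_smul_comm]
    have d2 : D (D (β * lp l E)) = D (D β) * lp l E + (2 * E) • (D β * lp l (E - 1)) +
        (E * (E - 1)) • (β * lp l (E - 2)) := by
      rw [d1, map_add, Derivation.map_smul, D_mul, D_mul, D_lp h0, D_lp h0, w2]
      simp only [mul_smul_comm, smul_add, smul_smul, two_mul, add_smul]
      abel
    have m2 : mu 2 = q * (q * mu 0) := by rw [← mu_succ, ← mu_succ]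
    rw [Aop_mul, d2, d1, m2]
    simp only [map_sub, map_add, map_mul, map_pow, ev_smul, ev_lp h0, w0, w1, zero_add]
    have hQ := ev_q_nonneg x
    have hQL : ev x q ≤ (x : ℝ) + l := by rw [ev_q]; exact q_le_ell h0 x
    generalize ((x : ℝ) + l) ^ (E - 2) = y at hy ⊢
    generalize (x : ℝ) + l = L at *
    refine g_pt _ _ _ hc hy.le (ev_mu_nonneg 0 x) hQ hQL ?_ ?_ ?_
    · exact mul_le_mul_of_nonneg_right (hβ x) (by positivity)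
    · have e : ev x (D β) * (y * L ^ 2) + E * (ev x β * (y * L)) =
          (ev x (D β) * L + E * ev x β) * (y * L) := by ring
      rw [e, abs_mul, abs_of_pos (mul_pos hy hL)]
      refine mul_le_mul_of_nonneg_right ((abs_add_le _ _).trans ?_) (by positivity)
      rw [abs_mul, abs_mul, abs_of_pos hL, hc1]
      have := mul_le_mul_of_nonneg_left b0 (abs_nonneg E)
      linarith
    · have e : ev x (D (D β)) * (y * L ^ 2) + 2 * E * (ev x (D β) * (y * L)) +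
          E * (E - 1) * (ev x β * y) =
          (ev x (D (D β)) * L ^ 2 + 2 * (E * (ev x (D β) * L)) + E * (E - 1) * ev x β) * y := by ring
      rw [e, abs_mul, abs_of_pos hy]
      refine mul_le_mul_of_nonneg_right ((abs_add_three _ _ _).trans ?_) hy.le
      rw [abs_mul (ev x (D (D β))), abs_mul 2, abs_mul E (ev x (D β) * L), abs_mul (ev x (D β)),
        abs_mul (E * (E - 1)), abs_of_pos hL, abs_of_pos (pow_pos hL 2), abs_two, hc2]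
      have a1 := mul_le_mul_of_nonneg_left b0 (abs_nonneg (E * (E - 1)))
      have a2 := mul_le_mul_of_nonneg_left b1 (abs_nonneg E)
      linarith
  rw [map_sub, map_sub, map_smul, map_smul, map_smul, smul_eq_mul, smul_eq_mul, smul_eq_mul] at hpt
  have hIA : 0 ≤ ig (mu 0 * lp l E * Aop 0 G ^ 2) := ig_nonneg fun x => by
    rw [map_mul, map_mul, map_pow]
    exact mul_nonneg (mul_nonneg (ev_mu_nonneg _ _) (ev_lp_pos h0 _ _).le) (sq_nonneg _)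
  have h2 := mul_le_mul_of_nonneg_left (hI l h0 h1 G) (show 0 ≤ 4 * c1 ^ 2 / c0 by positivity)
  have h3 : 4 * c1 ^ 2 / c0 * (c0 ^ 2 / (8 * (c1 ^ 2 + 1))) ≤ c0 / 2 := by
    calc _ ≤ 4 * (c1 ^ 2 + 1) / c0 * (c0 ^ 2 / (8 * (c1 ^ 2 + 1))) := by gcongr; linarith
      _ = _ := by field_simp; ring
  have h4 := mul_le_mul_of_nonneg_right h3 hIA
  rw [hP, hT]
  linarith

lemma g_e {l K : ℝ} (h0 : 0 < l) (b : ℝ) (e G : SF)
    (he : ∀ x : I01, ((x : ℝ) + l) ^ 4 * ev x e ^ 2 ≤ K) :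
    pair l 0 b (e * G) G ≤ √K * tp l 0 (b + 2) G := by
  rw [tp, pair_apply, pair_apply, ← smul_eq_mul (√K), ← map_smul]
  refine ig_mono fun x => ?_
  have hL := ell_pos h0 x
  have b2 : |ev x e| * ((x : ℝ) + l) ^ 2 ≤ √K := g_abs hL 2 (he x)
  have w0 : ((x : ℝ) + l) ^ (((0 : ℕ) : ℝ) - 10 - b) =
      ((x : ℝ) + l) ^ (((0 : ℕ) : ℝ) - 10 - (b + 2)) * ((x : ℝ) + l) ^ 2 := by
    rw [← Real.rpow_natCast _ 2, ← Real.rpow_add hL]; congr 1; push_cast; ring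
  simp only [Dn_zero, map_mul, ev_smul, ev_lp h0, w0]
  have hy : 0 < ((x : ℝ) + l) ^ (((0 : ℕ) : ℝ) - 10 - (b + 2)) := Real.rpow_pos_of_pos hL _
  have hm := ev_mu_nonneg (0 + 2) x
  generalize ((x : ℝ) + l) ^ (((0 : ℕ) : ℝ) - 10 - (b + 2)) = y at hy ⊢
  have b3 : ev x e * ((x : ℝ) + l) ^ 2 ≤ √K :=
    (mul_le_mul_of_nonneg_right (le_abs_self _) (by positivity)).trans b2
  have := mul_le_mul_of_nonneg_right b3
    (mul_nonneg (mul_self_nonneg (ev x G)) (mul_nonneg hm hy.le))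
  linarith

/-- Level-0 energy inequality.  With `w = lp l (-10-b)`, `v = β w`:
`∫ β 𝓑G G μ_2 w = ∫ 𝒜G μ_0 𝒜(vG)` (`ig_DD 0`), `Aop_mul`; `c0 w ≤ v`, `|v'| ≤ C w/ℓ`, `|v''| ≤ C w/ℓ²`
(`s_le_Tv`), Young and `low_interp`; `e G` and `s` by `pair_zero_le`. -/
lemma low_energy (b c0 K : ℝ) (hc : 0 < c0) : ∃ C, 0 ≤ C ∧ ∀ l, 0 < l → l ≤ 1 →
    ∀ β e G s : SF, (∀ x, c0 ≤ ev x β) → (∀ x, Tv l 4 β x ≤ K) →
    (∀ x : I01, ((x : ℝ) + l) ^ 4 * ev x e ^ 2 ≤ K) →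
    2 * pair l 0 b (-(β * Bop G) + e * G + s) G ≤ C * tp l 0 (b + 2) G + tp l 0 (b - 2) s := by
  obtain ⟨C, hC, h⟩ := g_main b c0 K hc
  refine ⟨2 * C + 2 * √K + 1, by positivity, fun l h0 h1 β e G s hβ hK he => ?_⟩
  have a1 := h l h0 h1 β G hβ hK
  have a2 := g_e h0 b e G he
  have a3 := pair_zero_le h0 b one_pos s G
  rw [map_add, map_add, map_neg, LinearMap.add_apply, LinearMap.add_apply, LinearMap.neg_apply]
  linarith

end Crest.Agent.R213
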