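import Crest.Agent.R213.Ops

/-! Row 213: jets, locality, and the calculus of `JD`, `JC`, `Sol`. -/

set_option autoImplicit false
open Set Filter Topology
open scoped ContDiff

noncomputable section
namespace Crest.Agent.R213

/-- Leibniz rule (induction on `n` with `D_mul`, `Finset.sum_choose_succ_nsmul`; or via
`Commute.add_pow`-style induction). -/
lemma Dn_mul (n : ℕ) (f g : SF) :
    Dn n (f * g) = ∑ i ∈ Finset.range (n + 1), (n.choose i : ℝ) • (Dn i f * Dn (n - i) g) := by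
  simp only [Nat.cast_smul_eq_nsmul]
  induction n with
  | zero => simp
  | succ n ih =>
    rw [Dn_succ, ih, map_sum,
      Finset.sum_choose_succ_nsmul (fun i j => Dn i f * Dn j g) n, ← Finset.sum_add_distrib]
    refine Finset.sum_congr rfl fun i hi => ?_
    have hi' : n + 1 - i = (n - i) + 1 := by
      have := Finset.mem_range.1 hi; omega
    rw [map_nsmul, D_mul, hi', Dn_succ, Dn_succ, ← nsmul_add, add_comm]

/-- Induction on `n` for `ContDiffOn ℝ n (g i) I01` for all `i` (`contDiffOn_succ_iff_derivWithin uniq`). -/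
lemma contDiffOn_of_jets (g : ℕ → ℝ → ℝ)
    (h : ∀ i, ∀ x ∈ I01, HasDerivWithinAt (g i) (g (i + 1) x) I01 x) (i : ℕ) :
    ContDiffOn ℝ ∞ (g i) I01 := by
  have key : ∀ n : ℕ, ∀ i, ContDiffOn ℝ n (g i) I01 := by
    intro n
    induction n with
    | zero =>
      intro i
      exact contDiffOn_zero.2 fun x hx => (h i x hx).continuousWithinAt
    | succ n ih =>
      intro i
      rw [Nat.cast_succ, contDiffOn_succ_iff_derivWithin uniq]
      refine ⟨fun x hx => (h i x hx).differentiableWithinAt, fun h' => absurd h' (by simp), ?_⟩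
      exact (ih (i + 1)).congr fun x hx => (h i x hx).derivWithin (uniq x hx)
  exact contDiffOn_infty.2 fun n => key n i

/-- a smooth function given by all its jets -/
def ofJets (g : ℕ → ℝ → ℝ) (h : ∀ i, ∀ x ∈ I01, HasDerivWithinAt (g i) (g (i + 1) x) I01 x) : SF :=
  mk (g 0) (contDiffOn_of_jets g h 0)

lemma ev_Dn_ofJets (g : ℕ → ℝ → ℝ)
    (h : ∀ i, ∀ x ∈ I01, HasDerivWithinAt (g i) (g (i + 1) x) I01 x) (i : ℕ) (x : I01) :
    ev x (Dn i (ofJets g h)) = g i x := by
  induction i generalizing x with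
  | zero => rfl
  | succ i ih =>
    rw [Dn_succ]
    exact ev_D_of (F := g i) ih (h i x x.2)

/-- continuous jets linked by the fundamental theorem of calculus -/
lemma exists_SF_of_jets (g : ℕ → CC)
    (h : ∀ i (x : I01), g i x = g i 0 + ∫ y in (0:ℝ)..x, ext (g (i + 1)) y) :
    ∃ f : SF, ∀ i, ((Dn i f : SF) : CC) = g i := by
  have hd : ∀ i, ∀ x ∈ I01, HasDerivWithinAt (ext (g i)) (ext (g (i + 1)) x) I01 x := by
    intro i x hx
    have h1 : HasDerivAt (fun z => g i 0 + ∫ y in (0:ℝ)..z, ext (g (i + 1)) y)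
        (ext (g (i + 1)) x) x :=
      ((continuous_ext (g (i + 1))).integral_hasStrictDerivAt 0 x).hasDerivAt.const_add _
    have h2 : ∀ z ∈ I01, ext (g i) z = g i 0 + ∫ y in (0:ℝ)..z, ext (g (i + 1)) y := fun z hz => by
      rw [ext_of_mem _ hz, h i ⟨z, hz⟩]
    exact h1.hasDerivWithinAt.congr h2 (h2 x hx)
  refine ⟨ofJets (fun i => ext (g i)) hd, fun i => ContinuousMap.ext fun x => ?_⟩
  rw [← ev_def, ev_Dn_ofJets, ext_coe]

/-- `f = g` on `[0,c]` -/
def Agree (c : ℝ) (f g : SF) : Prop := ∀ x : I01, (x : ℝ) ≤ c → ev x f = ev x g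
/-- `f = 0` on `[c,1]` -/
def Van (c : ℝ) (f : SF) : Prop := ∀ x : I01, c ≤ (x : ℝ) → ev x f = 0

lemma ja_D_eq {a b : ℝ} (hab : a < b) (hs : Icc a b ⊆ I01) {f g : SF}
    (h : ∀ x : I01, (x : ℝ) ∈ Icc a b → ev x f = ev x g) (x : I01) (hx : (x : ℝ) ∈ Icc a b) :
    ev x (D f) = ev x (D g) := by
  have h1 := (hasDeriv_ext f x).mono hs
  have h2 := (hasDeriv_ext g x).mono hs
  have h3 : ∀ y ∈ Icc a b, ext (g : CC) y = ext (f : CC) y := fun y hy => by
    rw [ext_eq_ev _ (hs hy), ext_eq_ev _ (hs hy), h ⟨y, hs hy⟩ hy]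
  exact (uniqueDiffOn_Icc hab _ hx).eq_deriv _ (h1.congr h3 (h3 _ hx)) h2

/-- uniqueness of the derivative within `Icc 0 (min c 1)` -/
lemma Agree.D {c : ℝ} {f g : SF} (hc : 0 < c) (h : Agree c f g) : Agree c (D f) (D g) := by
  intro x hx
  exact ja_D_eq (lt_min hc zero_lt_one) (Icc_subset_Icc_right (min_le_right _ _))
    (fun y hy => h y (hy.2.trans (min_le_left _ _))) x ⟨x.2.1, le_min hx x.2.2⟩
lemma Agree.Dn {c : ℝ} {f g : SF} (hc : 0 < c) (h : Agree c f g) (i : ℕ) :
    Agree c (Dn i f) (Dn i g) := by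
  induction i with
  | zero => exact h
  | succ i ih => rw [Dn_succ, Dn_succ]; exact ih.D hc
lemma ja_agree_dl {c : ℝ} {f g : SF} (hc : 0 < c) (h : Agree c f g) (i : ℕ) :
    Agree c (dl i f) (dl i g) := by
  intro x hx
  rw [dl_apply, dl_apply, map_add, map_add, map_mul, map_mul, map_mul, map_mul, h.D hc x hx, h x hx]
lemma Agree.Bop {c : ℝ} {f g : SF} (hc : 0 < c) (h : Agree c f g) : Agree c (Bop f) (Bop g) := by
  rw [Bop_apply, Bop_apply, Aop_apply, Aop_apply]
  exact (ja_agree_dl hc (ja_agree_dl hc h _) _).Dn hc 2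
lemma Van.D {c : ℝ} {f : SF} (hc : c < 1) (h : Van c f) : Van c (D f) := by
  intro x hx
  have := ja_D_eq (f := f) (g := 0) (max_lt hc zero_lt_one) (Icc_subset_Icc_left (le_max_right _ _))
    (fun y hy => by rw [h y ((le_max_left _ _).trans hy.1), map_zero]) x ⟨max_le hx x.2.1, x.2.2⟩
  rw [this, map_zero, map_zero]
lemma Van.Dn {c : ℝ} {f : SF} (hc : c < 1) (h : Van c f) (i : ℕ) : Van c (Dn i f) := by
  induction i with
  | zero => exact h
  | succ i ih => rw [Dn_succ]; exact ih.D hc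

/-- pointwise time derivative + continuity of the derivative in `C([0,1])` gives the derivative in
`C([0,1])` (mean value inequality pointwise in `x`, or FTC). -/
lemma hasDerivAt_CC {Φ Φ' : ℝ → CC} {U : Set ℝ} (hU : IsOpen U)
    (h : ∀ τ ∈ U, ∀ x, HasDerivAt (fun σ => Φ σ x) (Φ' τ x) τ) (hc : ContinuousOn Φ' U)
    {t : ℝ} (ht : t ∈ U) : HasDerivAt Φ (Φ' t) t := by
  refine hasDerivAt_iff_isLittleO.2 (Asymptotics.isLittleO_iff.2 fun ε hε => ?_)
  obtain ⟨δ, hδ, hb⟩ := Metric.eventually_nhds_iff_ball.1 ((hU.eventually_mem ht).and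
    ((hc.continuousAt (hU.mem_nhds ht)).eventually (Metric.closedBall_mem_nhds _ hε)))
  filter_upwards [Metric.ball_mem_nhds t hδ] with σ hσ
  refine (ContinuousMap.norm_le _ (by positivity)).2 fun x => ?_
  have := (convex_ball t δ).norm_image_sub_le_of_norm_hasDerivWithin_le
    (f := fun τ => Φ τ x - τ * Φ' t x) (f' := fun τ => (Φ' τ - Φ' t) x)
    (fun τ hτ => ((h τ (hb τ hτ).1 x).fun_sub (hasDerivAt_mul_const _)).hasDerivWithinAt)
    (fun τ hτ => ((Φ' τ - Φ' t).norm_coe_le_norm x).trans (mem_closedBall_iff_norm.1 (hb τ hτ).2))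
    (Metric.mem_ball_self hδ) hσ
  refine le_of_eq_of_le (congrArg _ ?_) this
  simp only [ContinuousMap.sub_apply, ContinuousMap.smul_apply, smul_eq_mul]
  ring

/-- joint continuity gives continuity in `C([0,1])` -/
lemma continuousOn_CC {Φ : ℝ → CC} {s : Set ℝ}
    (h : ContinuousOn (fun p : ℝ × I01 => Φ p.1 p.2) (s ×ˢ univ)) : ContinuousOn Φ s := by
  exact ContinuousMap.continuousOn_of_continuousOn_uncurry Φ h

section JD
variable {G H : ℝ → SF} {U V : SF} {s s' : Set ℝ} {t : ℝ}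

lemma JD.const (f : SF) : JD (fun _ => f) 0 s t := by
  intro i
  rw [map_zero]
  exact hasDerivWithinAt_const _ _ _
lemma JD.add (hG : JD G U s t) (hH : JD H V s t) : JD (fun τ => G τ + H τ) (U + V) s t := by
  intro i
  simp only [map_add]
  exact (hG i).add (hH i)
lemma JD.neg (hG : JD G U s t) : JD (fun τ => -G τ) (-U) s t := by
  intro i
  simp only [map_neg]
  exact (hG i).neg
lemma JD.sub (hG : JD G U s t) (hH : JD H V s t) : JD (fun τ => G τ - H τ) (U - V) s t := by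
  intro i
  simp only [map_sub]
  exact (hG i).sub (hH i)
lemma JD.smul (c : ℝ) (hG : JD G U s t) : JD (fun τ => c • G τ) (c • U) s t := by
  intro i
  simp only [map_smul]
  exact (hG i).const_smul c
lemma JD.rsmul {c : ℝ → ℝ} {c' : ℝ} (hc : HasDerivWithinAt c c' s t) (hG : JD G U s t) :
    JD (fun τ => c τ • G τ) (c' • G t + c t • U) s t := by
  intro i
  simp only [map_add, map_smul]
  rw [add_comm]
  exact hc.smul (hG i)
/-- `Dn_mul` and the product rule in the Banach algebra `CC` -/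
lemma JD.mul (hG : JD G U s t) (hH : JD H V s t) :
    JD (fun τ => G τ * H τ) (U * H t + G t * V) s t := by
  intro i
  simp only [map_add, Dn_mul, ← Finset.sum_add_distrib, ← smul_add, AddSubmonoidClass.coe_finsetSum]
  exact HasDerivWithinAt.fun_sum fun k _ => ((hG k).mul (hH (i - k))).const_smul (i.choose k : ℝ)
lemma JD.const_mul (f : SF) (hG : JD G U s t) : JD (fun τ => f * G τ) (f * U) s t := by
  simpa only [zero_mul, zero_add] using (JD.const f).mul hG
lemma JD.Dn (hG : JD G U s t) (j : ℕ) : JD (fun τ => Dn j (G τ)) (Dn j U) s t := by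
  intro i
  simp only [Dn_Dn]
  exact hG (i + j)
lemma JD.c_dl (hG : JD G U s t) (j : ℕ) : JD (fun τ => dl j (G τ)) (dl j U) s t := by
  simp only [dl_apply, ← Dn_one]
  exact ((hG.Dn 1).const_mul q).add (hG.const_mul (pp j))
lemma JD.Aop (hG : JD G U s t) (j : ℕ) : JD (fun τ => Aop j (G τ)) (Aop j U) s t := by
  exact (hG.c_dl (j + 1)).c_dl j
lemma JD.Bop (hG : JD G U s t) : JD (fun τ => Bop (G τ)) (Bop U) s t := by
  exact (hG.Aop 0).Dn 2
lemma JD.mono (hG : JD G U s t) (h : s' ⊆ s) : JD G U s' t := fun i => (hG i).mono h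
lemma JD.mono_nhds (hG : JD G U s t) (h : s ∈ 𝓝[s'] t) : JD G U s' t :=
  fun i => (hG i).mono_of_mem_nhdsWithin h
lemma JD.congr (hG : JD G U s t) (h : ∀ τ ∈ s, H τ = G τ) (ht : H t = G t) : JD H U s t := by
  exact fun i => (hG i).congr (fun τ hτ => by rw [h τ hτ]) (by rw [ht])
lemma JD.union (hG : JD G U s t) (hG' : JD G U s' t) : JD G U (s ∪ s') t :=
  fun i => (hG i).union (hG' i)
/-- change of time variable -/
lemma JD.comp {φ : ℝ → ℝ} {φ' : ℝ} (hG : JD G U s (φ t)) (hφ : HasDerivWithinAt φ φ' s' t)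
    (hm : MapsTo φ s' s) : JD (fun τ => G (φ τ)) (φ' • U) s' t := by
  intro i
  rw [map_smul]
  exact (hG i).scomp t hφ hm
lemma JD.hasDeriv_ev (hG : JD G U s t) (x : I01) :
    HasDerivWithinAt (fun τ => ev x (G τ)) (ev x U) s t := by
  exact (ContinuousMap.evalCLM ℝ x).hasFDerivAt.comp_hasDerivWithinAt t (hG 0)
lemma JD.hasDeriv_ig (hG : JD G U s t) : HasDerivWithinAt (fun τ => ig (G τ)) (ig U) s t := by
  exact intg.hasFDerivAt.comp_hasDerivWithinAt t (hG 0)
lemma jtb_lp (i : ℕ) (e : ℝ) {l : ℝ} (hl : 0 < l) :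
    HasDerivAt (fun l => ((R213.Dn i (lp l e) : SF) : CC)) (e • ((R213.Dn i (lp l (e - 1)) : SF) : CC)) l := by
  induction i generalizing e with
  | zero =>
    refine hasDerivAt_CC (Φ' := fun l => e • ((lp l (e - 1) : SF) : CC)) isOpen_Ioi
      (fun τ hτ x => ?_) (ContinuousOn.const_smul (continuousOn_CC ?_) e) hl
    · have hx : (x : ℝ) + τ ≠ 0 := (add_pos_of_nonneg_of_pos x.2.1 hτ).ne'
      refine ((((hasDerivAt_id' τ).const_add (x : ℝ)).rpow_const (p := e) (Or.inl hx)).congr_deriv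
        ?_).congr_of_eventuallyEq ((eventually_gt_nhds hτ).mono fun σ hσ => ev_lp hσ e x)
      rw [one_mul, ← ev_lp hτ]
      rfl
    · refine ContinuousOn.congr (f := fun p : ℝ × I01 => ((p.2 : ℝ) + p.1) ^ (e - 1))
        (ContinuousOn.rpow_const (by fun_prop) fun p hp => Or.inl ?_) fun p hp => ev_lp hp.1 _ _
      exact (add_pos_of_nonneg_of_pos p.2.2.1 hp.1).ne'
  | succ i ih =>
    rw [Dn_succ', D_lp hl, map_smul]
    refine ((ih (e - 1)).const_smul e).congr_of_eventuallyEq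
      ((eventually_gt_nhds hl).mono fun σ hσ => ?_)
    simp only [Dn_succ', D_lp hσ, map_smul]
    rfl

/-- first for `lam = id` on `Ioi 0` (`Dn i (lp l e) = c • lp l (e - i)`, `hasDerivAt_CC`), then
`JD.comp`-style chain rule -/
lemma JD.lp {lam : ℝ → ℝ} {lam' : ℝ} (h : HasDerivWithinAt lam lam' s t) (h0 : 0 < lam t) (e : ℝ) :
    JD (fun τ => lp (lam τ) e) ((lam' * e) • lp (lam t) (e - 1)) s t := by
  intro i
  rw [map_smul, mul_smul]
  exact (jtb_lp i e h0).scomp_hasDerivWithinAt t h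

lemma Sol.jc {F : ℝ → SF → SF} (h : Sol F G s) : JC G s :=
  fun i t ht => (h t ht i).continuousWithinAt
lemma Sol.mono {F : ℝ → SF → SF} (h : Sol F G s) (hs : s' ⊆ s) : Sol F G s' :=
  fun t ht => (h t (hs ht)).mono hs
lemma Sol.single (F : ℝ → SF → SF) (G : ℝ → SF) (a : ℝ) : Sol F G (Icc a a) := by
  intro t ht i
  rw [Icc_self] at ht ⊢
  rw [ht]
  exact HasFDerivWithinAt.singleton

lemma JC.const (f : SF) : JC (fun _ => f) s := fun _ => continuousOn_const
lemma JC.mono (hG : JC G s) (h : s' ⊆ s) : JC G s' := fun i => (hG i).mono h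
lemma JC.add (hG : JC G s) (hH : JC H s) : JC (fun τ => G τ + H τ) s := by
  intro i
  simp only [map_add]
  exact (hG i).add (hH i)
lemma JC.neg (hG : JC G s) : JC (fun τ => -G τ) s := by
  intro i
  simp only [map_neg]
  exact (hG i).neg
lemma JC.sub (hG : JC G s) (hH : JC H s) : JC (fun τ => G τ - H τ) s := by
  intro i
  simp only [map_sub]
  exact (hG i).sub (hH i)
lemma JC.mul (hG : JC G s) (hH : JC H s) : JC (fun τ => G τ * H τ) s := by
  intro i
  simp only [Dn_mul, AddSubmonoidClass.coe_finsetSum]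
  exact continuousOn_finsetSum _ fun k _ => ((hG k).mul (hH (i - k))).const_smul (i.choose k : ℝ)
lemma JC.pow (hG : JC G s) (n : ℕ) : JC (fun τ => G τ ^ n) s := by
  induction n with
  | zero => simpa only [pow_zero] using JC.const 1
  | succ n ih => simpa only [pow_succ] using ih.mul hG
lemma JC.smul (c : ℝ) (hG : JC G s) : JC (fun τ => c • G τ) s := by
  intro i
  simp only [map_smul]
  exact (hG i).const_smul c
lemma JC.rsmul {c : ℝ → ℝ} (hc : ContinuousOn c s) (hG : JC G s) : JC (fun τ => c τ • G τ) s := by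
  intro i
  simp only [map_smul]
  exact hc.smul (hG i)
lemma JC.Dn (hG : JC G s) (j : ℕ) : JC (fun τ => Dn j (G τ)) s := by
  intro i
  simp only [Dn_Dn]
  exact hG (i + j)
lemma JC.c_dl (hG : JC G s) (j : ℕ) : JC (fun τ => dl j (G τ)) s := by
  simp only [dl_apply, ← Dn_one]
  exact ((JC.const q).mul (hG.Dn 1)).add ((JC.const (pp j)).mul hG)
lemma JC.Aop (hG : JC G s) (j : ℕ) : JC (fun τ => Aop j (G τ)) s := by
  exact (hG.c_dl (j + 1)).c_dl j
lemma JC.Bop (hG : JC G s) : JC (fun τ => Bop (G τ)) s := by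
  exact (hG.Aop 0).Dn 2
lemma JC.congr (hG : JC G s) (h : ∀ τ ∈ s, H τ = G τ) : JC H s := by
  exact fun i => (hG i).congr fun τ hτ => by rw [h τ hτ]
lemma JC.cont_ev (hG : JC G s) (i : ℕ) :
    ContinuousOn (fun p : ℝ × I01 => ev p.2 (R213.Dn i (G p.1))) (s ×ˢ univ) := by
  exact continuous_eval.comp_continuousOn
    (((hG i).comp continuousOn_fst fun p hp => hp.1).prodMk continuousOn_snd)
lemma JC.cont_ig (hG : JC G s) : ContinuousOn (fun τ => ig (G τ)) s := by
  exact intg.continuous.comp_continuousOn (hG 0)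
end JD

/-- `f ↦ ∫ y in 0..x, ext f y` -/
def jd_L (x : I01) : CC →L[ℝ] ℝ :=
  LinearMap.mkContinuous
    { toFun := fun f => ∫ y in (0:ℝ)..x, ext f y
      map_add' := fun f g => intervalIntegral.integral_add
        ((continuous_ext f).intervalIntegrable _ _) ((continuous_ext g).intervalIntegrable _ _)
      map_smul' := fun c f => intervalIntegral.integral_smul c _ } |(x : ℝ) - 0|
    (fun f => by
      rw [mul_comm]
      exact intervalIntegral.norm_integral_le_of_norm_le_const (a := 0) (b := x) (C := ‖f‖)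
        (f := ext f) (fun x _ => f.norm_coe_le_norm _))

/-- integration in time: the jets of `V τ` are the `CC`-valued integrals `∫ a..τ` of the jets of `U`
(`exists_SF_of_jets`, Fubini or commuting the integral with the CLM
`f ↦ ∫ y in 0..x, ext f y`; extend `U` by `projIcc`). -/
lemma exists_primitive {U : ℝ → SF} {a b : ℝ} (hab : a ≤ b) (hU : JC U (Icc a b)) :
    ∃ V : ℝ → SF, V a = 0 ∧ (∀ t ∈ Icc a b, JD V (U t) (Icc a b) t) ∧
      ∀ t ∈ Icc a b, (V t : CC) = ∫ τ in a..t, (U τ : CC) := by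
  obtain ⟨u, hu⟩ : ∃ u : ℕ → ℝ → CC, ∀ i τ, u i τ = ((Dn i (U (projIcc a b hab τ)) : SF) : CC) :=
    ⟨_, fun _ _ => rfl⟩
  have hc : ∀ i, Continuous (u i) := fun i => by
    rw [funext (hu i)]
    exact (hU i).comp_continuous (continuous_subtype_val.comp continuous_projIcc)
      fun τ => (projIcc a b hab τ).2
  have hm : ∀ i, ∀ t ∈ Icc a b, u i t = ((Dn i (U t) : SF) : CC) := fun i t ht => by
    rw [hu, projIcc_of_mem hab ht]
  have key : ∀ (t : ℝ) (i : ℕ) (x : I01), (∫ τ in a..t, u i τ) x = (∫ τ in a..t, u i τ) 0 +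
      ∫ y in (0:ℝ)..x, ext (∫ τ in a..t, u (i + 1) τ) y := fun t i x => by
    have e1 := fun y : I01 => (ContinuousMap.evalCLM ℝ y).intervalIntegral_comp_comm
      (μ := MeasureTheory.volume) ((hc i).intervalIntegrable a t)
    have e2 := (jd_L x).intervalIntegral_comp_comm (μ := MeasureTheory.volume)
      ((hc (i + 1)).intervalIntegrable a t)
    refine (e1 x).symm.trans (Eq.trans ?_ (congrArg₂ (· + ·) (e1 0) e2))
    refine Eq.trans (intervalIntegral.integral_congr fun τ _ => ?_) (intervalIntegral.integral_add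
      (((ContinuousMap.evalCLM ℝ (0 : I01)).continuous.comp' (hc i)).intervalIntegrable a t)
      (((jd_L x).continuous.comp' (hc (i + 1))).intervalIntegrable a t))
    have e := integral_D (Dn i (U (projIcc a b hab τ))) 0 x
    rw [← Dn_succ, ← hu, ev_def, ev_def, ← hu] at e
    exact sub_eq_iff_eq_add'.1 e.symm
  choose V hV using fun t => exists_SF_of_jets (fun i => ∫ τ in a..t, u i τ) (key t)
  refine ⟨V, Subtype.ext ?_, fun t ht i => ?_, fun t ht => ?_⟩
  · simpa using hV a 0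
  · simp only [hV, ← hm i t ht]
    exact ((hc i).integral_hasStrictDerivAt a t).hasDerivAt.hasDerivWithinAt
  · refine (hV t 0).trans (intervalIntegral.integral_congr fun τ hτ => hm 0 τ ?_)
    rw [uIcc_of_le ht.1] at hτ
    exact ⟨hτ.1, hτ.2.trans ht.2⟩

lemma jd_congr {F : ℝ → SF → SF} {G H : ℝ → SF} {s : Set ℝ} (hG : Sol F G s)
    (h : ∀ τ ∈ s, H τ = G τ) : Sol F H s := fun t ht => by
  rw [h t ht]
  exact (hG t ht).congr h (h t ht)

lemma jd_glue {F : ℝ → SF → SF} {K : ℝ → SF} {a b c : ℝ} (h₁ : Sol F K (Icc a b))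
    (h₂ : Sol F K (Icc b c)) : Sol F K (Icc a c) := fun t _ => by
  have h : ∀ {p q : ℝ}, Sol F K (Icc p q) → JD K (F t (K t)) (Icc p q) t := fun {p q} hs => by
    by_cases ht : t ∈ Icc p q
    · exact hs t ht
    · exact fun i => HasFDerivWithinAt.of_notMem_closure (by rwa [closure_Icc])
  exact ((h h₁).union (h h₂)).mono Icc_subset_Icc_union_Icc

lemma Sol.concat {F : ℝ → SF → SF} {G H : ℝ → SF} {a b c : ℝ} (hab : a ≤ b) (hbc : b ≤ c)
    (hG : Sol F G (Icc a b)) (hH : Sol F H (Icc b c)) (h : G b = H b) :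
    Sol F (fun t => if t ≤ b then G t else H t) (Icc a c) := by
  have _ := hab
  have _ := hbc
  refine jd_glue (jd_congr hG fun τ hτ => if_pos hτ.2) (jd_congr hH fun τ hτ => ?_)
  split_ifs with h1
  · rw [le_antisymm h1 hτ.1, h]
  · rfl

/-- concatenation of countably many windows -/
lemma Sol.concat_seq {F : ℝ → SF → SF} {G : ℕ → ℝ → SF} {τ : ℕ → ℝ} {T : ℝ} (hτ : StrictMono τ)
    (hT : Tendsto τ atTop (𝓝 T)) (hG : ∀ k, Sol F (G k) (Icc (τ k) (τ (k + 1))))
    (h : ∀ k, G k (τ (k + 1)) = G (k + 1) (τ (k + 1))) :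
    ∃ H : ℝ → SF, Sol F H (Ico (τ 0) T) ∧ ∀ k, ∀ t ∈ Icc (τ k) (τ (k + 1)), H t = G k t := by
  have h1 : ∀ k, ∀ t ∈ Ico (τ k) (τ (k + 1)), sInf {j | t < τ (j + 1)} = k := fun k t ht =>
    le_antisymm (Nat.sInf_le ht.2) (le_csInf ⟨k, ht.2⟩ fun j hj =>
      Nat.le_of_lt_succ (hτ.lt_iff_lt.1 (ht.1.trans_lt hj)))
  have h2 : ∀ k, ∀ t ∈ Icc (τ k) (τ (k + 1)), G (sInf {j | t < τ (j + 1)}) t = G k t :=
    fun k t ht => by
      rcases ht.2.eq_or_lt with rfl | hlt
      · rw [h1 (k + 1) _ ⟨le_rfl, hτ (Nat.lt_succ_self _)⟩, h]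
      · rw [h1 k t ⟨ht.1, hlt⟩]
  have h3 : ∀ n, Sol F (fun t => G (sInf {j | t < τ (j + 1)}) t) (Icc (τ 0) (τ n)) := fun n => by
    induction n with
    | zero => exact Sol.single _ _ _
    | succ n ih => exact jd_glue ih (jd_congr (hG n) (h2 n))
  refine ⟨_, fun t ht => ?_, h2⟩
  obtain ⟨n, hn⟩ := (hT.eventually (lt_mem_nhds ht.2)).exists
  refine (h3 n t ⟨ht.1, hn.le⟩).mono_nhds ?_
  filter_upwards [self_mem_nhdsWithin, mem_nhdsWithin_of_mem_nhds (Iio_mem_nhds hn)] with x hx hx'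
  exact ⟨hx.1, le_of_lt hx'⟩

end Crest.Agent.R213
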