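import Crest.Agent.R213.Tc

/-! Row 213: weighted integral norms, Hardy, interpolation and Sobolev inequalities.
All constants are uniform in `l ∈ (0,1]`. -/

set_option autoImplicit false
open Set Filter Topology

noncomputable section
namespace Crest.Agent.R213

/-- `W_b = μ_2 ℓ^{-10-b}` -/
def W (l b : ℝ) : SF := mu 2 * lp l (-10 - b)
/-- `⟪f⟫_{m,b} = ∫ T_m(f) W_b` -/
def nT (l : ℝ) (m : ℕ) (b : ℝ) (f : SF) : ℝ := ig (TT l m f * W l b)
/-- the level-`j` pairing `∫ U^{(j)} G^{(j)} μ_{j+2} ℓ^{j-10-b}` -/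
def pair (l : ℝ) (j : ℕ) (b : ℝ) : SF →ₗ[ℝ] SF →ₗ[ℝ] ℝ :=
  LinearMap.mk₂ ℝ (fun U G => ig (Dn j U * Dn j G * (mu (j + 2) * lp l (j - 10 - b))))
    (fun _ _ _ => by simp only [map_add, add_mul])
    (fun _ _ _ => by simp only [map_smul, smul_mul_assoc])
    (fun _ _ _ => by simp only [map_add, add_mul, mul_add])
    (fun _ _ _ => by simp only [map_smul, smul_mul_assoc, mul_smul_comm])
def tp (l : ℝ) (j : ℕ) (b : ℝ) (G : SF) : ℝ := pair l j b G G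
/-- the energy `Q_b` (top level `J = 40`) -/
def QQ (l b : ℝ) (G : SF) : ℝ := tp l 0 b G + tp l 40 b G

lemma pair_apply (l : ℝ) (j : ℕ) (b : ℝ) (U G : SF) :
    pair l j b U G = ig (Dn j U * Dn j G * (mu (j + 2) * lp l (j - 10 - b))) := rfl
lemma pair_comm (l : ℝ) (j : ℕ) (b : ℝ) (U G : SF) : pair l j b U G = pair l j b G U := by
  rw [pair_apply, pair_apply, mul_comm (Dn j U)]

section
variable {l : ℝ}
lemma ev_W (h0 : 0 < l) (b : ℝ) (x : I01) :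
    ev x (W l b) = (x : ℝ) ^ 11 * (1 - x) ^ 2 * ((x : ℝ) + l) ^ (-10 - b) := by
  rw [W, map_mul, ev_mu, ev_lp h0]
lemma ev_W_nonneg (h0 : 0 < l) (b : ℝ) (x : I01) : 0 ≤ ev x (W l b) := by
  rw [W, map_mul]
  exact mul_nonneg (ev_mu_nonneg _ _) (ev_lp_pos h0 _ _).le
lemma ev_W_shift (h0 : 0 < l) (b : ℝ) (k : ℕ) (x : I01) :
    ev x (W l b) = ((x : ℝ) + l) ^ k * ev x (W l (b + k)) := by
  have hp := ell_pos h0 x
  have : ((x : ℝ) + l) ^ (-10 - b) = ((x : ℝ) + l) ^ k * ((x : ℝ) + l) ^ (-10 - (b + k)) := by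
    rw [← Real.rpow_natCast, ← Real.rpow_add hp]; congr 1; ring
  rw [ev_W h0, ev_W h0, this]; ring
/-- `x^11 ≤ ℓ^11`, `ℓ ≤ 2` -/
lemma ev_W_le (h0 : 0 < l) (h1 : l ≤ 1) {b : ℝ} (hb : b ≤ 1) (x : I01) :
    ev x (W l b) ≤ 2 ^ (1 - b) := by
  have hp := ell_pos h0 x
  have hx0 := x.2.1
  have hx1 := x.2.2
  have e1 : ((x : ℝ) + l) ^ (1 - b) = ((x : ℝ) + l) ^ 11 * ((x : ℝ) + l) ^ (-10 - b) := by
    rw [← Real.rpow_natCast, ← Real.rpow_add hp]; congr 1; push_cast; ring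
  have e2 : ((x : ℝ) + l) ^ (1 - b) ≤ 2 ^ (1 - b) :=
    Real.rpow_le_rpow hp.le (ell_le h1 x) (by linarith)
  refine le_trans ?_ e2
  rw [ev_W h0, e1]
  refine mul_le_mul_of_nonneg_right ?_ (Real.rpow_nonneg hp.le _)
  have a1 : (x : ℝ) ^ 11 ≤ ((x : ℝ) + l) ^ 11 := pow_le_pow_left₀ hx0 (by linarith) _
  have a2 : (1 - (x : ℝ)) ^ 2 ≤ 1 := pow_le_one₀ (by linarith) (by linarith)
  calc (x : ℝ) ^ 11 * (1 - x) ^ 2 ≤ (x : ℝ) ^ 11 * 1 :=
        mul_le_mul_of_nonneg_left a2 (pow_nonneg hx0 _)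
    _ ≤ _ := by rw [mul_one]; exact a1
lemma tp_eq (h0 : 0 < l) (j : ℕ) (b : ℝ) (G : SF) :
    tp l j b G = ig ((ell l * q) ^ j * Dn j G ^ 2 * W l b) := by
  rw [tp, pair_apply]
  congr 1
  refine SF.ext' fun x => ?_
  have hp := ell_pos h0 x
  have : ((x : ℝ) + l) ^ ((j : ℝ) - 10 - b) = ((x : ℝ) + l) ^ j * ((x : ℝ) + l) ^ (-10 - b) := by
    rw [← Real.rpow_natCast, ← Real.rpow_add hp]; congr 1; ring
  simp only [map_mul, map_pow, ev_W h0, ev_mu, ev_lp h0, ev_ell, ev_q, this, mul_pow]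
  ring
/-- true for every `l` (`lp` is positive also in the junk case) -/
lemma tp_nonneg (l : ℝ) (j : ℕ) (b : ℝ) (G : SF) : 0 ≤ tp l j b G := by
  rw [tp, pair_apply]
  refine ig_nonneg fun x => ?_
  rw [map_mul, map_mul, map_mul]
  refine mul_nonneg (mul_self_nonneg _) (mul_nonneg (ev_mu_nonneg _ _) ?_)
  by_cases h : 0 < l
  · exact (ev_lp_pos h _ _).le
  · simp [lp, h]
lemma QQ_nonneg (l b : ℝ) (G : SF) : 0 ≤ QQ l b G := add_nonneg (tp_nonneg ..) (tp_nonneg ..)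
lemma nT_nonneg (h0 : 0 < l) (m : ℕ) (b : ℝ) (G : SF) : 0 ≤ nT l m b G := by
  refine ig_nonneg fun x => ?_
  rw [map_mul, ev_TT]
  exact mul_nonneg (Tv_nonneg h0 _ _ _) (ev_W_nonneg h0 _ _)
lemma tp_le_nT (h0 : 0 < l) {j m : ℕ} (h : j ≤ m) (b : ℝ) (G : SF) : tp l j b G ≤ nT l m b G := by
  rw [tp_eq h0]
  refine ig_mono fun x => ?_
  rw [map_mul, map_mul (ev x) (TT l m G), ev_TT]
  refine mul_le_mul_of_nonneg_right ?_ (ev_W_nonneg h0 _ _)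
  simpa only [map_mul, map_pow, ev_ell, ev_q] using t_le_Tv h0 h G x
lemma nT_zero (h0 : 0 < l) (b : ℝ) (G : SF) : nT l 0 b G = tp l 0 b G := by
  rw [tp_eq h0, nT]
  congr 1
  refine SF.ext' fun x => ?_
  rw [map_mul, ev_TT, Tv_zero]
  simp
lemma nT_mono (h0 : 0 < l) {m m' : ℕ} (h : m ≤ m') (b : ℝ) (G : SF) : nT l m b G ≤ nT l m' b G := by
  refine ig_mono fun x => ?_
  rw [map_mul, map_mul, ev_TT, ev_TT]
  exact mul_le_mul_of_nonneg_right (Tv_mono h0 h G x) (ev_W_nonneg h0 _ _)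
lemma nT_add (h0 : 0 < l) (m : ℕ) (b : ℝ) (f g : SF) :
    nT l m b (f + g) ≤ 2 * nT l m b f + 2 * nT l m b g := by
  have : 2 * nT l m b f + 2 * nT l m b g =
      ig ((2 : ℝ) • (TT l m f * W l b) + (2 : ℝ) • (TT l m g * W l b)) := by
    rw [map_add, map_smul, map_smul]; rfl
  rw [this]
  refine ig_mono fun x => ?_
  rw [map_add, ev_smul, ev_smul, map_mul, map_mul, map_mul, ev_TT, ev_TT, ev_TT]
  have := mul_le_mul_of_nonneg_right (Tv_add h0 m f g x) (ev_W_nonneg h0 b x)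
  linarith
lemma nT_smul (l : ℝ) (m : ℕ) (b c : ℝ) (f : SF) : nT l m b (c • f) = c ^ 2 * nT l m b f := by
  have : c ^ 2 * nT l m b f = ig ((c ^ 2) • (TT l m f * W l b)) := by
    rw [map_smul]; rfl
  rw [this, nT]
  congr 1
  refine SF.ext' fun x => ?_
  rw [ev_smul, map_mul, map_mul, ev_TT, ev_TT, Tv_smul, mul_assoc]
lemma nT_zero_fun (l : ℝ) (m : ℕ) (b : ℝ) : nT l m b 0 = 0 := by
  have := nT_smul l m b 0 0
  simpa using this
/-- integrate a pointwise bound -/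
lemma nT_le_of_pt (h0 : 0 < l) {m m' k : ℕ} {b C : ℝ} {f g : SF}
    (h : ∀ x : I01, ((x : ℝ) + l) ^ k * Tv l m f x ≤ C * Tv l m' g x) :
    nT l m b f ≤ C * nT l m' (b + k) g := by
  have : C * nT l m' (b + k) g = ig (C • (TT l m' g * W l (b + k))) := by
    rw [map_smul]; rfl
  rw [this]
  refine ig_mono fun x => ?_
  rw [ev_smul, map_mul, map_mul, ev_TT, ev_TT, ev_W_shift h0 b k x]
  have := mul_le_mul_of_nonneg_right (h x) (ev_W_nonneg h0 (b + k) x)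
  linarith
lemma nT_le_of_bd (h0 : 0 < l) (h1 : l ≤ 1) {m : ℕ} {b C : ℝ} (hb : b ≤ 1) {f : SF}
    (h : ∀ x : I01, Tv l m f x ≤ C) : nT l m b f ≤ C * 2 ^ (1 - b) := by
  refine ig_le_const fun x => ?_
  rw [map_mul, ev_TT]
  exact mul_le_mul (h x) (ev_W_le h0 h1 hb x) (ev_W_nonneg h0 _ _)
    ((Tv_nonneg h0 _ _ _).trans (h x))
lemma nmb_ig2 {f g h : SF} {a c d : ℝ} (H : ∀ x, d * ev x f ≤ a * ev x g + c * ev x h) :
    d * ig f ≤ a * ig g + c * ig h := by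
  have := ig_mono (f := d • f) (g := a • g + c • h) fun x => by
    rw [map_add, ev_smul, ev_smul, ev_smul]; exact H x
  rwa [map_add, map_smul, map_smul, map_smul] at this
lemma nmb_ig1 {f g : SF} {a d : ℝ} (H : ∀ x, d * ev x f ≤ a * ev x g) : d * ig f ≤ a * ig g := by
  have := ig_mono (f := d • f) (g := a • g) fun x => by
    rw [ev_smul, ev_smul]; exact H x
  rwa [map_smul, map_smul] at this
lemma nmb_ev (h0 : 0 < l) (U G M : SF) (e : ℝ) (x : I01) :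
    ev x (U * G * (M * lp l e)) = ev x U * ev x G * (ev x M * ((x : ℝ) + l) ^ e) := by
  rw [map_mul, map_mul, map_mul, ev_lp h0]
lemma nmb_pow (h0 : 0 < l) (x : I01) {e e' : ℝ} (k : ℕ) (h : e = e' + k) :
    ((x : ℝ) + l) ^ e = ((x : ℝ) + l) ^ k * ((x : ℝ) + l) ^ e' := by
  rw [h, Real.rpow_add (ell_pos h0 x), Real.rpow_natCast, mul_comm]
lemma nmb_w (h0 : 0 < l) (x : I01) (j : ℕ) (e : ℝ) : 0 ≤ ev x (mu j) * ((x : ℝ) + l) ^ e :=
  mul_nonneg (ev_mu_nonneg j x) (Real.rpow_nonneg (ell_pos h0 x).le _)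
lemma tp_add (l : ℝ) (j : ℕ) (b : ℝ) (f g : SF) :
    tp l j b (f + g) ≤ 2 * tp l j b f + 2 * tp l j b g := by
  have h := tp_nonneg l j b (f - g)
  simp only [tp, map_add, map_sub, LinearMap.add_apply, LinearMap.sub_apply] at h ⊢
  linarith
lemma tp_smul (l : ℝ) (j : ℕ) (b c : ℝ) (f : SF) : tp l j b (c • f) = c ^ 2 * tp l j b f := by
  simp only [tp, map_smul, LinearMap.smul_apply, smul_eq_mul]
  ring
/-- `l ≤ ℓ` -/
lemma tp_succ_le (h0 : 0 < l) (j : ℕ) (b : ℝ) (G : SF) : l * tp l j (b + 1) G ≤ tp l j b G := by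
  rw [← one_mul (tp l j b G), tp, tp, pair_apply, pair_apply]
  refine nmb_ig1 fun x => ?_
  rw [nmb_ev h0, nmb_ev h0, nmb_pow h0 x (e := j - 10 - b) (e' := j - 10 - (b + 1)) 1 (by push_cast; ring)]
  have h1 := mul_nonneg (mul_self_nonneg (ev x (Dn j G))) (nmb_w h0 x (j + 2) (j - 10 - (b + 1)))
  have h2 := mul_nonneg x.2.1 h1
  linarith
/-- `ℓ ≤ 2` -/
lemma tp_le_succ (h0 : 0 < l) (h1 : l ≤ 1) (j : ℕ) (b : ℝ) (G : SF) :
    tp l j b G ≤ 2 * tp l j (b + 1) G := by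
  rw [← one_mul (tp l j b G), tp, tp, pair_apply, pair_apply]
  refine nmb_ig1 fun x => ?_
  rw [nmb_ev h0, nmb_ev h0, nmb_pow h0 x (e := j - 10 - b) (e' := j - 10 - (b + 1)) 1 (by push_cast; ring)]
  have h2 := mul_nonneg (mul_self_nonneg (ev x (Dn j G))) (nmb_w h0 x (j + 2) (j - 10 - (b + 1)))
  have h3 := mul_le_mul_of_nonneg_right (ell_le h1 x) h2
  linarith
/-- `1/(l ℓ) ≤ ν/l² + 1/(ν ℓ²)` -/
lemma tp_young (h0 : 0 < l) (j : ℕ) (b : ℝ) {ν : ℝ} (hν : 0 < ν) (G : SF) :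
    tp l j (b + 1) G / l ≤ ν / l ^ 2 * tp l j b G + 1 / ν * tp l j (b + 2) G := by
  rw [div_eq_inv_mul, tp, tp, tp, pair_apply, pair_apply, pair_apply]
  refine nmb_ig2 fun x => ?_
  rw [nmb_ev h0, nmb_ev h0, nmb_ev h0,
    nmb_pow h0 x (e := j - 10 - b) (e' := j - 10 - (b + 2)) 2 (by push_cast; ring),
    nmb_pow h0 x (e := j - 10 - (b + 1)) (e' := j - 10 - (b + 2)) 1 (by push_cast; ring)]
  have h2 := mul_nonneg (mul_self_nonneg (ev x (Dn j G))) (nmb_w h0 x (j + 2) (j - 10 - (b + 2)))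
  have h3 : l⁻¹ * ((x : ℝ) + l) ≤ ν / l ^ 2 * ((x : ℝ) + l) ^ 2 + 1 / ν := by
    have e : ν / l ^ 2 * ((x : ℝ) + l) ^ 2 + 1 / ν - l⁻¹ * ((x : ℝ) + l) =
        ((ν * (l⁻¹ * ((x : ℝ) + l)) - 1 / 2) ^ 2 + 3 / 4) / ν := by
      field_simp
      ring
    have : 0 ≤ ((ν * (l⁻¹ * ((x : ℝ) + l)) - 1 / 2) ^ 2 + 3 / 4) / ν := by positivity
    linarith
  have h4 := mul_le_mul_of_nonneg_right h3 h2
  linarith
/-- `∫ G² μ_2 ℓ^e = 0` forces `G = 0` on `(0,1)`, hence on `[0,1]` -/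
lemma eq_zero_of_tp (h0 : 0 < l) {b : ℝ} {G : SF} (h : tp l 0 b G = 0) : G = 0 := by
  have h1 : ∀ x ∈ Ioo (0 : ℝ) 1, ext (G : CC) x = 0 := by
    intro x hx
    have hx' : x ∈ I01 := Ioo_subset_Icc_self hx
    by_contra hne
    rw [ext_eq_ev G hx'] at hne
    rw [tp, pair_apply, ig_def, intg_def] at h
    refine (intervalIntegral.integral_pos zero_lt_one (continuous_ext _).continuousOn
      (fun y hy => ?_) ⟨x, hx', ?_⟩).ne' h
    · rw [ext_eq_ev _ (Ioc_subset_Icc_self hy), nmb_ev h0]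
      exact mul_nonneg (mul_self_nonneg _) (nmb_w h0 _ _ _)
    · rw [ext_eq_ev _ hx', nmb_ev h0, ev_mu]
      exact mul_pos (mul_self_pos.2 hne) (mul_pos (mul_pos (pow_pos hx.1 _) (pow_pos (sub_pos.2 hx.2) _))
        (Real.rpow_pos_of_pos (ell_pos h0 _) _))
  have h2 : EqOn (ext (G : CC)) (fun _ => 0) (closure (Ioo (0 : ℝ) 1)) :=
    Set.EqOn.closure h1 (continuous_ext _) continuous_const
  rw [closure_Ioo zero_ne_one] at h2
  refine SF.ext' fun x => ?_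
  rw [map_zero, ← ext_eq_ev G x.2]
  exact h2 x.2
/-- `2 ⟨U,G⟩ ≤ ε ‖G‖²_{b+2} + ε⁻¹ ‖U‖²_{b-2}` at level `0` -/
lemma pair_zero_le (h0 : 0 < l) (b : ℝ) {ε : ℝ} (hε : 0 < ε) (U G : SF) :
    2 * pair l 0 b U G ≤ ε * tp l 0 (b + 2) G + 1 / ε * tp l 0 (b - 2) U := by
  rw [tp, tp, pair_apply, pair_apply, pair_apply]
  refine nmb_ig2 fun x => ?_
  rw [nmb_ev h0, nmb_ev h0, nmb_ev h0,
    nmb_pow h0 x (e := (0 : ℕ) - 10 - b) (e' := (0 : ℕ) - 10 - (b + 2)) 2 (by push_cast; ring),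
    nmb_pow h0 x (e := (0 : ℕ) - 10 - (b - 2)) (e' := (0 : ℕ) - 10 - (b + 2)) 4 (by push_cast; ring)]
  have h2 := nmb_w h0 x (0 + 2) ((0 : ℕ) - 10 - (b + 2))
  set u := ev x (Dn 0 U)
  set g := ev x (Dn 0 G)
  set y := (x : ℝ) + l
  have h3 : 2 * (u * g * y ^ 2) ≤ ε * (g * g) + 1 / ε * (u * u * y ^ 4) := by
    have e : ε * (g * g) + 1 / ε * (u * u * y ^ 4) - 2 * (u * g * y ^ 2) = (ε * g - u * y ^ 2) ^ 2 / ε := by
      field_simp
      ring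
    have : 0 ≤ (ε * g - u * y ^ 2) ^ 2 / ε := by positivity
    linarith
  have h4 := mul_le_mul_of_nonneg_right h3 h2
  linarith
end

lemma nmb_bd {l0 y : ℝ} (h : 0 < l0) (h1 : l0 ≤ y) (h2 : y ≤ 2) (e : ℝ) : y ^ e ≤ l0 ^ e + 2 ^ e := by
  rcases le_total 0 e with he | he
  · exact (Real.rpow_le_rpow (h.le.trans h1) h2 he).trans (le_add_of_nonneg_left (by positivity))
  · exact (Real.rpow_le_rpow_of_nonpos h h1 he).trans (le_add_of_nonneg_right (by positivity))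

/-- comparison of the weights for `l, l' ∈ [l0, 1]` -/
lemma tp_comp (j : ℕ) (b b' l0 : ℝ) (h : 0 < l0) : ∃ C, 0 ≤ C ∧ ∀ l l', l0 ≤ l → l ≤ 1 → l0 ≤ l' →
    l' ≤ 1 → ∀ G, tp l j b G ≤ C * tp l' j b' G := by
  refine ⟨(l0 ^ (j - 10 - b) + 2 ^ (j - 10 - b)) * (l0 ^ (-(j - 10 - b')) + 2 ^ (-(j - 10 - b'))),
    by positivity, fun l l' a1 a2 a3 a4 G => ?_⟩
  have h0 := h.trans_le a1
  have h0' := h.trans_le a3
  rw [← one_mul (tp l j b G), tp, tp, pair_apply, pair_apply]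
  refine nmb_ig1 fun x => ?_
  rw [nmb_ev h0, nmb_ev h0']
  have b1 := nmb_bd h (a1.trans (le_add_of_nonneg_left x.2.1)) (ell_le a2 x) (j - 10 - b)
  have b2 := nmb_bd h (a3.trans (le_add_of_nonneg_left x.2.1)) (ell_le a4 x) (-(j - 10 - b'))
  have hp := Real.rpow_pos_of_pos (ell_pos h0' x) (j - 10 - b')
  rw [Real.rpow_neg (ell_pos h0' x).le, inv_le_iff_one_le_mul₀ hp] at b2
  have b3 := b1.trans (le_mul_of_one_le_right (by positivity) b2)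
  have b4 := mul_le_mul_of_nonneg_left b3
    (mul_nonneg (mul_self_nonneg (ev x (Dn j G))) (ev_mu_nonneg (j + 2) x))
  linarith

lemma c_young {c s : ℝ} (hc : 0 ≤ c) (k : ℕ) (h0 : 0 ≤ s) (h1 : s ≤ 1) :
    c * s ≤ 1 / 4 + c * (4 * c) ^ k * s ^ k := by
  rcases le_total (4 * c * s) 1 with h | h
  · have : 0 ≤ c * (4 * c) ^ k * s ^ k := by positivity
    linarith
  · have h2 : 1 ≤ (4 * c * s) ^ k := one_le_pow₀ h
    rw [mul_assoc, ← mul_pow]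
    nlinarith

lemma c_pt {a b E x s F G : ℝ} (k : ℕ) (ha : 0 ≤ a) (hb : 0 ≤ b) (hx0 : 0 ≤ x) (hx1 : x ≤ 1) (h0 : 0 ≤ s)
    (h1 : s ≤ 1) (hq : x * (1 - x) ≤ 2 * s) :
    F ^ 2 ≤ 4 * (((1 - 2 * x) * ((a + 1) * (1 - x) - (b + 1) * x) - 2 * (x * (1 - x)) + E * (1 - 2 * x) * s) * F ^ 2 +
        2 * (x * (1 - x)) * (1 - 2 * x) * F * G) +
      (4 * ((2 * (a + b + 6) + |E|) * (4 * (2 * (a + b + 6) + |E|)) ^ k) + 8) *
        ((x * (1 - x)) ^ 2 * G ^ 2 + s ^ k * F ^ 2) := by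
  have hy := c_young (c := 2 * (a + b + 6) + |E|) (by positivity) k h0 h1
  have hC : 0 ≤ (2 * (a + b + 6) + |E|) * (4 * (2 * (a + b + 6) + |E|)) ^ k := by positivity
  generalize (2 * (a + b + 6) + |E|) * (4 * (2 * (a + b + 6) + |E|)) ^ k = C at hy hC ⊢
  have hk : |1 - 2 * x| ≤ 1 := abs_le.2 ⟨by linarith, by linarith⟩
  have e1 : -(|E| * s) ≤ E * (1 - 2 * x) * s := by
    have : |E * (1 - 2 * x)| ≤ |E| := by
      rw [abs_mul]; exact mul_le_of_le_one_right (abs_nonneg E) hk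
    nlinarith [neg_abs_le (E * (1 - 2 * x))]
  have e2 : 1 - (a + b + 4) * (x * (1 - x)) ≤ (1 - 2 * x) * ((a + 1) * (1 - x) - (b + 1) * x) := by
    nlinarith [mul_nonneg ha (sq_nonneg (1 - x)), mul_nonneg hb (sq_nonneg x)]
  have e3 : (a + b + 6) * (x * (1 - x)) ≤ (a + b + 6) * (2 * s) :=
    mul_le_mul_of_nonneg_left hq (by positivity)
  have e4 : 3 / 4 - C * s ^ k ≤
      (1 - 2 * x) * ((a + 1) * (1 - x) - (b + 1) * x) - 2 * (x * (1 - x)) + E * (1 - 2 * x) * s := by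
    nlinarith
  have e5 := mul_le_mul_of_nonneg_right e4 (sq_nonneg F)
  have hk2 : (1 - 2 * x) ^ 2 ≤ 1 := by nlinarith
  have hs : 0 ≤ s ^ k := pow_nonneg h0 k
  generalize (1 - 2 * x) * ((a + 1) * (1 - x) - (b + 1) * x) - 2 * (x * (1 - x)) + E * (1 - 2 * x) * s = β at e5 ⊢
  generalize x * (1 - x) = q at *
  generalize 1 - 2 * x = κ at *
  generalize s ^ k = σ at *
  have e6 : κ ^ 2 * F ^ 2 ≤ F ^ 2 := mul_le_of_le_one_left (sq_nonneg F) hk2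
  nlinarith [sq_nonneg (κ * F + 2 * q * G), mul_nonneg hC (mul_nonneg (sq_nonneg q) (sq_nonneg G)),
    mul_nonneg hs (sq_nonneg F)]

/-- Hardy step.  With `ν = x^A (1-x)^B ℓ^E`, `κ = 1 - 2x`: `(q κ ν)' ≥ ν (1 - C q/ℓ)` because
`(qκν)' = ν [κ((A+1)(1-x) - (B+1)x) + E κ q/ℓ - 2q]`, `κ((A+1)(1-x) - (B+1)x) ≥ 1 - C q`, `q ≤ 2q/ℓ`.
Integrate `D (q κ ν f²)` (`ig_D_eq_zero`), use `2 q ν |f f'| ≤ ν f²/2 + 2 ν q² f'²` and
`C s ≤ 1/4 + C' s^k` for `s = q/ℓ ∈ [0,1]`. -/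
lemma hardy (A B k : ℕ) (E : ℝ) : ∃ C, 0 ≤ C ∧ ∀ l, 0 < l → l ≤ 1 → ∀ f : SF,
    ig (X ^ A * (1 - X) ^ B * lp l E * f ^ 2) ≤
      C * (ig (X ^ A * (1 - X) ^ B * lp l E * q ^ 2 * D f ^ 2) +
        ig (X ^ A * (1 - X) ^ B * lp l (E - k) * q ^ k * f ^ 2)) := by
  refine ⟨4 * ((2 * ((A : ℝ) + B + 6) + |E|) * (4 * (2 * ((A : ℝ) + B + 6) + |E|)) ^ k) + 8, by positivity,
    fun l h0 h1 f => ?_⟩
  have hz : ig (D (X ^ (A + 1) * (1 - X) ^ (B + 1) * (1 - X - X) * lp l E * (f * f))) = 0 :=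
    ig_D_eq_zero (by simp) (by simp)
  have key : ∀ (u φ v w : SF) (C : ℝ), ig φ = 0 → (∀ x, ev x u ≤ 4 * ev x φ + C * (ev x v + ev x w)) →
      ig u ≤ C * (ig v + ig w) := fun u φ v w C h h' => by
    have := ig_mono (f := u) (g := (4 : ℝ) • φ + C • (v + w)) fun x => by
      rw [map_add, ev_smul, ev_smul, map_add]; exact h' x
    rwa [map_add, map_smul, map_smul, map_add, h, smul_zero, zero_add, smul_eq_mul] at this
  refine key _ _ _ _ _ hz fun x => ?_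
  have hl := ell_pos h0 x
  have hq := q_nonneg x
  have hpt := c_pt (a := A) (b := B) (E := E) (s := (x : ℝ) * (1 - x) / (x + l)) (F := ev x f) (G := ev x (D f)) k
    (Nat.cast_nonneg A) (Nat.cast_nonneg B) x.2.1 x.2.2 (by positivity) ((div_le_one hl).2 (q_le_ell h0 x))
    (by rw [mul_div_assoc', le_div_iff₀ hl]; nlinarith [ell_le h1 x])
  have hν : 0 ≤ (x : ℝ) ^ A * (1 - x) ^ B * ((x : ℝ) + l) ^ E := by
    have := x.2.1; have := sub_nonneg.2 x.2.2; positivity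
  have := mul_le_mul_of_nonneg_left hpt hν
  simp only [D_mul, Derivation.leibniz_pow, map_sub, D_X, D_lp h0, Derivation.map_one_eq_zero, map_add, map_mul,
    map_pow, ev_smul, map_natCast, smul_eq_mul, ev_X, ev_q, ev_lp h0, map_one, map_zero, Nat.add_sub_cancel,
    Real.rpow_sub hl, Real.rpow_one, Real.rpow_natCast, nsmul_eq_mul]
  refine this.trans_eq ?_
  rw [div_pow]
  push_cast
  ring

/-- the `i`-th term of `nT` -/
def dTau (l : ℝ) (m : ℕ) (b : ℝ) (i : ℕ) (G : SF) : ℝ :=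
  ig (ell l ^ min (2 * i) m * q ^ (2 * i - m) * Dn i G ^ 2 * W l b)

lemma d_nT_eq (l : ℝ) (m : ℕ) (b : ℝ) (G : SF) :
    nT l m b G = ∑ i ∈ Finset.range (m + 1), dTau l m b i G := by
  simp only [nT, TT, dTau, Finset.sum_mul, map_sum]

lemma d_ell_pow {l : ℝ} (h0 : 0 < l) (a : ℕ) : ell l ^ a = lp l a := SF.ext' fun x => by
  rw [map_pow, ev_ell, ev_lp h0, Real.rpow_natCast]

lemma d_weight {l : ℝ} (h0 : 0 < l) (a c : ℕ) (b : ℝ) :
    ell l ^ a * q ^ c * W l b = X ^ (11 + c) * (1 - X) ^ (2 + c) * lp l ((a : ℝ) + (-10 - b)) := by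
  rw [← lp_mul h0, ← d_ell_pow h0]
  simp only [W, mu, q, mul_pow]
  ring

lemma d_step (m i : ℕ) (hi : i < m) (b : ℝ) : ∃ C, 0 ≤ C ∧ ∀ l, 0 < l → l ≤ 1 → ∀ G : SF,
    dTau l m b i G ≤ C * (dTau l m b (i + 1) G + tp l i b G) := by
  obtain ⟨C, hC, h⟩ := hardy (11 + (2 * i - m)) (2 + (2 * i - m)) (min i (m - i))
    (((min (2 * i) m : ℕ) : ℝ) + (-10 - b))
  refine ⟨C, hC, fun l h0 h1 G => ?_⟩
  have h2 := h l h0 h1 (Dn i G)
  have e1 : dTau l m b i G = ig (X ^ (11 + (2 * i - m)) * (1 - X) ^ (2 + (2 * i - m)) *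
      lp l (((min (2 * i) m : ℕ) : ℝ) + (-10 - b)) * Dn i G ^ 2) := by
    rw [← d_weight h0, dTau]
    congr 1
    ring
  have e2 : ig (X ^ (11 + (2 * i - m)) * (1 - X) ^ (2 + (2 * i - m)) *
      lp l (((min (2 * i) m : ℕ) : ℝ) + (-10 - b) - (min i (m - i) : ℕ)) * q ^ min i (m - i) *
        Dn i G ^ 2) = tp l i b G := by
    have ea : ((min (2 * i) m : ℕ) : ℝ) + (-10 - b) - (min i (m - i) : ℕ) =
        (i : ℝ) + (-10 - b) := by
      have : min (2 * i) m = i + min i (m - i) := by omega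
      rw [this]; push_cast; ring
    have ec : q ^ i = q ^ (2 * i - m) * q ^ min i (m - i) := by
      rw [← pow_add]; congr 1; omega
    rw [ea, ← d_weight h0, tp_eq h0, mul_pow, ec]
    congr 1
    ring
  have e3 : ig (X ^ (11 + (2 * i - m)) * (1 - X) ^ (2 + (2 * i - m)) *
      lp l (((min (2 * i) m : ℕ) : ℝ) + (-10 - b)) * q ^ 2 * D (Dn i G) ^ 2) ≤
        dTau l m b (i + 1) G := by
    rw [← d_weight h0, dTau, Dn_succ]
    refine ig_mono fun x => ?_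
    have h3 := om_le h0 h1 x (a := min (2 * i) m) (b := 2 * i - m + 2)
      (a' := min (2 * (i + 1)) m) (b' := 2 * (i + 1) - m) (k := 0) (by omega) (by omega)
    have h4 : 0 ≤ ev x (D (Dn i G)) ^ 2 * ev x (W l b) :=
      mul_nonneg (sq_nonneg _) (ev_W_nonneg h0 b x)
    have h5 := mul_le_mul_of_nonneg_right h3 h4
    simp only [map_mul, map_pow, ev_ell, ev_q]
    calc _ = ((x : ℝ) + l) ^ min (2 * i) m * ((x : ℝ) * (1 - x)) ^ (2 * i - m + 2) *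
          (ev x (D (Dn i G)) ^ 2 * ev x (W l b)) := by ring
      _ ≤ _ := h5
      _ = _ := by ring
  rw [e2, ← e1] at h2
  exact h2.trans (mul_le_mul_of_nonneg_left (add_le_add e3 le_rfl) hC)

lemma d_tau_le (m : ℕ) (b : ℝ) (d : ℕ) : ∀ i, i + d = m → ∃ C, 0 ≤ C ∧ ∀ l, 0 < l → l ≤ 1 →
    ∀ G : SF, dTau l m b i G ≤ C * ∑ j ∈ Finset.range (m + 1), tp l j b G := by
  have hs : ∀ (l : ℝ) (G : SF) (i : ℕ), i ≤ m →
      tp l i b G ≤ ∑ j ∈ Finset.range (m + 1), tp l j b G := fun l G i hi =>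
    Finset.single_le_sum (f := fun j => tp l j b G) (fun j _ => tp_nonneg l j b G)
      (Finset.mem_range.2 (by omega))
  induction d with
  | zero =>
    intro i hi
    obtain rfl : i = m := by omega
    refine ⟨1, zero_le_one, fun l h0 h1 G => ?_⟩
    have e : dTau l i b i G = tp l i b G := by
      rw [tp_eq h0, dTau, show min (2 * i) i = i by omega, show 2 * i - i = i by omega, mul_pow]
    rw [e, one_mul]
    exact hs l G i le_rfl
  | succ d ih =>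
    intro i hi
    obtain ⟨C, hC, h⟩ := ih (i + 1) (by omega)
    obtain ⟨C', hC', h'⟩ := d_step m i (by omega) b
    refine ⟨C' * (C + 1), by positivity, fun l h0 h1 G => (h' l h0 h1 G).trans ?_⟩
    rw [mul_assoc]
    refine mul_le_mul_of_nonneg_left ?_ hC'
    have := h l h0 h1 G
    have := hs l G i (by omega)
    linarith

/-- Backward induction on `i ≤ m` for `τ(i) = ∫ ω(i,m) (G^{(i)})² W_b`: `τ(m) = tp m`, and `hardy` with
`ν = ω(i,m) W_b`, `k = min i (m-i)` gives `τ(i) ≤ C (τ(i+1) + tp i)` (`q² ω(i,m) ≤ ω(i+1,m)`). -/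
lemma nT_le_sum (m : ℕ) (b : ℝ) : ∃ C, 0 ≤ C ∧ ∀ l, 0 < l → l ≤ 1 → ∀ G : SF,
    nT l m b G ≤ C * ∑ i ∈ Finset.range (m + 1), tp l i b G := by
  have h : ∀ i : ℕ, ∃ C, 0 ≤ C ∧ (i ≤ m → ∀ l, 0 < l → l ≤ 1 →
      ∀ G : SF, dTau l m b i G ≤ C * ∑ j ∈ Finset.range (m + 1), tp l j b G) := fun i => by
    by_cases hi : i ≤ m
    · obtain ⟨C, hC, h⟩ := d_tau_le m b (m - i) i (by omega)
      exact ⟨C, hC, fun _ => h⟩
    · exact ⟨0, le_rfl, fun h => absurd h hi⟩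
  choose C hC h using h
  refine ⟨∑ i ∈ Finset.range (m + 1), C i, Finset.sum_nonneg fun i _ => hC i,
    fun l h0 h1 G => ?_⟩
  rw [d_nT_eq, Finset.sum_mul]
  exact Finset.sum_le_sum fun i hi =>
    h i (by have := Finset.mem_range.1 hi; omega) l h0 h1 G

lemma nme_D_pow (f : SF) (n : ℕ) : D (f ^ (n + 1)) = ((n + 1 : ℕ) : ℝ) • (f ^ n * D f) := by
  rw [Derivation.leibniz_pow, Nat.add_sub_cancel, smul_eq_mul, Nat.cast_smul_eq_nsmul]

lemma nme_D_mu (i : ℕ) : D (mu (i + 1)) = pp i * mu i := by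
  rw [mu, ← add_assoc, D_mul, nme_D_pow, nme_D_pow, map_sub, D_X, Derivation.map_one_eq_zero]
  refine SF.ext' fun x => ?_
  simp only [map_add, map_mul, map_pow, map_sub, map_one, map_zero, ev_smul, ev_X, ev_pp, ev_mu]
  push_cast
  ring

lemma nme_young {ε : ℝ} (hε : 0 < ε) (y z : ℝ) : -(y * z) ≤ ε / 2 * y ^ 2 + z ^ 2 / (2 * ε) := by
  have h : ε / 2 * y ^ 2 + z ^ 2 / (2 * ε) + y * z = (ε * y + z) ^ 2 / (2 * ε) := by
    field_simp
    ring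
  have h2 : 0 ≤ (ε * y + z) ^ 2 / (2 * ε) := by positivity
  linarith

lemma nme_pt {ε A L Q p e c u v w T : ℝ} (hε : 0 < ε) (hA : 0 ≤ A) (hL : 0 < L) (hQ : 0 ≤ Q)
    (hQL : Q ≤ L) (hc : |p| + |e| ≤ c) (h1 : A * (L * v) ^ 2 ≤ T) (h2 : A * (Q * L * w) ^ 2 ≤ T) :
    -(A * ((p * L + e * Q) * u * v + Q * L * u * w)) ≤
      ε * T + (c ^ 2 + 1) / (2 * ε) * (u * u * A) := by
  obtain ⟨s, hs⟩ : ∃ s, s = p + e * (Q / L) := ⟨_, rfl⟩
  have h3 : |s| ≤ c := by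
    rw [hs]
    refine (abs_add_le _ _).trans (le_trans (add_le_add le_rfl ?_) hc)
    rw [abs_mul, abs_of_nonneg (div_nonneg hQ hL.le)]
    exact mul_le_of_le_one_right (abs_nonneg _) ((div_le_one hL).2 hQL)
  have h4 : s ^ 2 ≤ c ^ 2 := sq_le_sq' (abs_le.1 h3).1 (abs_le.1 h3).2
  have h5 : p * L + e * Q = L * s := by
    rw [hs]
    field_simp
  have h6 := mul_le_mul_of_nonneg_left (nme_young hε (L * v) (s * u)) hA
  have h7 := mul_le_mul_of_nonneg_left (nme_young hε (Q * L * w) u) hA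
  have h8 : A * ((s * u) ^ 2 / (2 * ε)) ≤ c ^ 2 / (2 * ε) * (u * u * A) := by
    have : A * ((s * u) ^ 2 / (2 * ε)) = s ^ 2 / (2 * ε) * (u * u * A) := by ring
    rw [this]
    have : 0 ≤ u * u * A := mul_nonneg (mul_self_nonneg u) hA
    gcongr
  have h9 := mul_le_mul_of_nonneg_left h1 (half_pos hε).le
  have h10 := mul_le_mul_of_nonneg_left h2 (half_pos hε).le
  rw [h5]
  calc _ = A * -(L * v * (s * u)) + A * -(Q * L * w * u) := by ring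
    _ ≤ ε / 2 * (A * (L * v) ^ 2) + A * ((s * u) ^ 2 / (2 * ε)) +
        (ε / 2 * (A * (Q * L * w) ^ 2) + 1 / (2 * ε) * (u * u * A)) :=
      (add_le_add h6 h7).trans_eq (by ring)
    _ ≤ ε / 2 * T + c ^ 2 / (2 * ε) * (u * u * A) + (ε / 2 * T + 1 / (2 * ε) * (u * u * A)) := by
      gcongr
    _ = _ := by ring

/-- Integrate `D (ν G^{(j)} G^{(j+1)})`, `ν = μ_{j+3} ℓ^{j+1-10-b}`, `ν' = ρ ν/q` with `|ρ| ≤ C`
(`D (mu (i+1)) = pp i * mu i`); `ω(j+1,j+2) = ℓ^{j+2} q^j`; Young. -/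
lemma tp_interp (j : ℕ) (b ε : ℝ) (hε : 0 < ε) : ∃ C, 0 ≤ C ∧ ∀ l, 0 < l → l ≤ 1 → ∀ G : SF,
    tp l (j + 1) b G ≤ ε * nT l (j + 2) b G + C * tp l j b G := by
  obtain ⟨e, he⟩ : ∃ e : ℝ, e = j - 10 - b := ⟨_, rfl⟩
  refine ⟨((2 * j + 15 + |e + 1|) ^ 2 + 1) / (2 * ε), by positivity, fun l h0 h1 G => ?_⟩
  have hz := ig_D_eq_zero (f := mu (j + 2 + 1) * lp l (e + 1) * Dn j G * Dn (j + 1) G)
    (by simp) (by simp)
  have h2 : tp l (j + 1) b G = ig (Dn (j + 1) G * Dn (j + 1) G * (mu (j + 2 + 1) * lp l (e + 1)) -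
      D (mu (j + 2 + 1) * lp l (e + 1) * Dn j G * Dn (j + 1) G)) := by
    have h3 : ((j + 1 : ℕ) : ℝ) - 10 - b = e + 1 := by
      rw [he]
      push_cast
      ring
    rw [map_sub, hz, sub_zero, tp, pair_apply, h3]
  rw [h2, nT, tp, pair_apply, ← he, ← smul_eq_mul ε, ← smul_eq_mul (_ / _), ← map_smul, ← map_smul,
    ← map_add]
  refine ig_mono fun x => ?_
  have hL := ell_pos h0 x
  have hW := ev_W_nonneg h0 b x
  have e1 : ev x (lp l (e + 1)) = ((x : ℝ) + l) * ev x (lp l e) := by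
    rw [ev_lp h0, ev_lp h0, Real.rpow_add_one hL.ne', mul_comm]
  have e2 : ev x (mu (j + 2)) * ev x (lp l e) =
      ((x : ℝ) + l) ^ j * ((x : ℝ) * (1 - x)) ^ j * ev x (W l b) := by
    rw [ev_W h0, ev_mu, ev_lp h0, he, show (j : ℝ) - 10 - b = j + (-10 - b) by ring,
      Real.rpow_add hL, Real.rpow_natCast, mul_pow]
    ring
  have t1 := mul_le_mul_of_nonneg_right (om_le_Tv h0 (show j + 1 ≤ j + 2 by omega) G x) hW
  have t2 := mul_le_mul_of_nonneg_right (t_le_Tv h0 (le_refl (j + 2)) G x) hW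
  rw [om, show min (2 * (j + 1)) (j + 2) = j + 2 by omega,
    show 2 * (j + 1) - (j + 2) = j by omega] at t1
  rw [mul_pow] at t2
  have hp : |ev x (pp (j + 2))| ≤ 2 * j + 15 := by
    have := x.2.1
    have := x.2.2
    have hj : (0 : ℝ) ≤ j := Nat.cast_nonneg j
    rw [ev_pp, abs_le]
    push_cast
    constructor <;> nlinarith
  have key := nme_pt (ε := ε) (A := ev x (mu (j + 2)) * ev x (lp l e)) (L := (x : ℝ) + l)
    (Q := (x : ℝ) * (1 - x)) (p := ev x (pp (j + 2))) (e := e + 1) (c := 2 * j + 15 + |e + 1|)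
    (u := ev x (Dn j G)) (v := ev x (Dn (j + 1) G)) (w := ev x (Dn (j + 2) G))
    (T := Tv l (j + 2) G x * ev x (W l b)) hε
    (mul_nonneg (ev_mu_nonneg _ x) (ev_lp_pos h0 e x).le) hL (q_nonneg x) (q_le_ell h0 x)
    (add_le_add hp le_rfl) (by rw [e2]; exact le_of_eq_of_le (by ring) t1)
    (by rw [e2]; exact le_of_eq_of_le (by ring) t2)
  rw [D_mul, D_mul, D_mul, nme_D_mu, D_lp h0, add_sub_cancel_right, ← Dn_succ, ← Dn_succ, mu_succ]
  simp only [map_add, map_sub, map_mul, ev_smul, ev_q, ev_TT, e1]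
  exact le_of_eq_of_le (by ring) key

lemma f_sum (b : ℝ) (m : ℕ) : ∀ δ : ℝ, 0 < δ → ∃ C, 0 ≤ C ∧ ∀ l, 0 < l → l ≤ 1 → ∀ G : SF,
    ∑ i ∈ Finset.range (m + 1), tp l i b G ≤ δ * tp l (m + 1) b G + C * tp l 0 b G := by
  induction m with
  | zero =>
    refine fun δ hδ => ⟨1, zero_le_one, fun l _ _ G => ?_⟩
    have := mul_nonneg hδ.le (tp_nonneg l (0 + 1) b G)
    rw [Finset.sum_range_one]
    linarith
  | succ m ih =>
    intro δ hδ
    obtain ⟨K, hK, h0⟩ := nT_le_sum (m + 2) b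
    have hη : 0 < min (1 / 2 : ℝ) (δ / 2) := lt_min (by norm_num) (by linarith)
    have hη1 : min (1 / 2 : ℝ) (δ / 2) ≤ 1 / 2 := min_le_left _ _
    have hη2 : min (1 / 2 : ℝ) (δ / 2) ≤ δ / 2 := min_le_right _ _
    generalize min (1 / 2 : ℝ) (δ / 2) = η at hη hη1 hη2
    obtain ⟨C₁, hC₁, h1⟩ := ih 1 one_pos
    obtain ⟨C₂, hC₂, h2⟩ := tp_interp m b (η / (4 * (K + 1))) (by positivity)
    obtain ⟨C₃, hC₃, h3⟩ := ih (1 / (2 * (C₂ + 1))) (by positivity)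
    refine ⟨2 * (4 * (C₂ * C₃) + C₁), by positivity, fun l hl hl1 G => ?_⟩
    have a0 := h0 l hl hl1 G
    have a1 := h1 l hl hl1 G
    have a2 := h2 l hl hl1 G
    have a3 := h3 l hl hl1 G
    have a4 : tp l m b G ≤ ∑ i ∈ Finset.range (m + 1), tp l i b G :=
      Finset.single_le_sum (f := fun i => tp l i b G) (fun i _ => tp_nonneg l i b G)
        (Finset.self_mem_range_succ m)
    have a5 : 0 ≤ ∑ i ∈ Finset.range (m + 1), tp l i b G := Finset.sum_nonneg fun i _ => tp_nonneg l i b G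
    rw [Finset.sum_range_succ _ (m + 2), Finset.sum_range_succ _ (m + 1)] at a0
    rw [Finset.sum_range_succ _ (m + 1)]
    have p0 := tp_nonneg l 0 b G
    have p1 := tp_nonneg l (m + 1) b G
    have p2 := tp_nonneg l (m + 2) b G
    rw [show m + 1 + 1 = m + 2 from rfl]
    generalize ∑ i ∈ Finset.range (m + 1), tp l i b G = A at *
    generalize tp l 0 b G = t₀ at *
    generalize tp l (m + 1) b G = t₁ at *
    generalize tp l (m + 2) b G = t₂ at *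
    have b1 : η / (4 * (K + 1)) * nT l (m + 2) b G ≤ η / 4 * (A + t₁ + t₂) := by
      calc _ ≤ η / (4 * (K + 1)) * ((K + 1) * (A + t₁ + t₂)) := by
            refine mul_le_mul_of_nonneg_left (a0.trans ?_) (by positivity)
            exact mul_le_mul_of_nonneg_right (by linarith) (by positivity)
        _ = _ := by field_simp
    have b2 : C₂ * tp l m b G ≤ t₁ / 2 + C₂ * C₃ * t₀ := by
      have : C₂ * (1 / (2 * (C₂ + 1)) * t₁) ≤ t₁ / 2 := by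
        calc _ ≤ (C₂ + 1) * (1 / (2 * (C₂ + 1)) * t₁) :=
              mul_le_mul_of_nonneg_right (by linarith) (by positivity)
          _ = _ := by field_simp
      have := mul_le_mul_of_nonneg_left (a4.trans a3) hC₂
      linarith
    have b3 : η * (A + t₁) ≤ 1 / 2 * (A + t₁) := mul_le_mul_of_nonneg_right hη1 (by positivity)
    have b4 : η * t₂ ≤ δ / 2 * t₂ := mul_le_mul_of_nonneg_right hη2 p2
    linarith

/-- Induction on `m` for `A_m = ∑_{i ≤ m} tp i ≤ δ tp (m+1) + C tp 0` (all `δ`), from `tp_interp`,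
`nT_le_sum`; then `nT_le_sum` again. -/
lemma nT_interp (m : ℕ) (b δ : ℝ) (hδ : 0 < δ) : ∃ C, 0 ≤ C ∧ ∀ l, 0 < l → l ≤ 1 → ∀ G : SF,
    nT l m b G ≤ δ * tp l (m + 1) b G + C * tp l 0 b G := by
  obtain ⟨K, hK, h0⟩ := nT_le_sum m b
  obtain ⟨C, hC, h1⟩ := f_sum b m (δ / (K + 1)) (by positivity)
  refine ⟨K * C, by positivity, fun l hl hl1 G => (h0 l hl hl1 G).trans ?_⟩
  have p1 := tp_nonneg l (m + 1) b G
  have a1 := mul_le_mul_of_nonneg_left (h1 l hl hl1 G) hK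
  have : K * (δ / (K + 1) * tp l (m + 1) b G) ≤ δ * tp l (m + 1) b G := by
    calc _ ≤ (K + 1) * (δ / (K + 1) * tp l (m + 1) b G) :=
          mul_le_mul_of_nonneg_right (by linarith) (by positivity)
      _ = _ := by field_simp
  linarith

lemma nT_equiv (m : ℕ) (b : ℝ) : ∃ C, 0 ≤ C ∧ ∀ l, 0 < l → l ≤ 1 → ∀ G : SF,
    nT l m b G ≤ C * (tp l m b G + tp l 0 b G) := by
  cases m with
  | zero =>
    refine ⟨1, zero_le_one, fun l hl _ G => ?_⟩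
    have := tp_nonneg l 0 b G
    rw [nT_zero hl]
    linarith
  | succ m =>
    obtain ⟨K, hK, h0⟩ := nT_le_sum (m + 1) b
    obtain ⟨C, hC, h1⟩ := f_sum b m 1 one_pos
    refine ⟨K * (2 + C), by positivity, fun l hl hl1 G => (h0 l hl hl1 G).trans ?_⟩
    rw [Finset.sum_range_succ _ (m + 1), mul_assoc]
    refine mul_le_mul_of_nonneg_left ?_ hK
    have p0 := tp_nonneg l 0 b G
    have p1 := tp_nonneg l (m + 1) b G
    have := h1 l hl hl1 G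
    nlinarith [mul_nonneg hC p1]

lemma nmg_osc {ψ g : SF} (h : ∀ y, |ev y (D ψ)| ≤ ev y g) {a b : I01} (hab : (a : ℝ) ≤ b) :
    |ev b ψ - ev a ψ| ≤ ig g := by
  have h1 : ∀ y : ℝ, |ext ((D ψ : SF) : CC) y| ≤ ext (g : CC) y := fun y => h _
  rw [← integral_D]
  calc |∫ y in (a : ℝ)..b, ext ((D ψ : SF) : CC) y| ≤ ∫ y in (a : ℝ)..b, |ext ((D ψ : SF) : CC) y| :=
        intervalIntegral.abs_integral_le_integral_abs hab
    _ ≤ ∫ y in (a : ℝ)..b, ext (g : CC) y :=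
        intervalIntegral.integral_mono_on hab ((continuous_ext _).abs.intervalIntegrable _ _)
          ((continuous_ext _).intervalIntegrable _ _) fun y _ => h1 y
    _ ≤ ∫ y in (0 : ℝ)..1, ext (g : CC) y :=
        intervalIntegral.integral_mono_interval a.2.1 hab b.2.2
          (Eventually.of_forall fun y => (abs_nonneg _).trans (h1 y))
          ((continuous_ext _).intervalIntegrable _ _)

/-- For `ψ ≥ 0`: `ψ(x) ≤ C ∫ (|ψ'| + ψ/ℓ)`.  Here in the form used below.  Proof: FTC (`integral_D`)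
for `η ψ` on `[0,x]`, `η = y/(y+l)`, if `x ≥ l` or `x ≥ 1/2` (`η(x) ≥ 1/3`), and for
`η = (1-y) l/(y+l)` on `[x,1]` otherwise (`η(x) ≥ 1/4`); `0 ≤ η ≤ 1`, `|η'| ≤ 3/ℓ`. -/
lemma sup_le_ig : ∃ C, 0 ≤ C ∧ ∀ l, 0 < l → l ≤ 1 → ∀ (ψ g : SF), (∀ y, 0 ≤ ev y ψ) →
    (∀ y, |ev y (D ψ)| ≤ ev y g) → ∀ x, ev x ψ ≤ C * ig (g + ψ * lp l (-1)) := by
  refine ⟨2, by norm_num, fun l h0 h1 ψ g hψ hg x => ?_⟩
  have hG : 0 ≤ ig g := ig_nonneg fun y => (abs_nonneg _).trans (hg y)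
  have h2 : ∀ y, ev x ψ - ig g ≤ ev y ψ := fun y => by
    rcases le_total (x : ℝ) y with h | h
    · linarith [(abs_le.1 (nmg_osc hg h)).1]
    · linarith [(abs_le.1 (nmg_osc hg h)).2]
  have h3 : ig ((ev x ψ - ig g) • (1 : SF)) ≤ ig ((2 : ℝ) • (ψ * lp l (-1))) := by
    refine ig_mono fun y => ?_
    rw [ev_smul, ev_smul, map_one, mul_one, map_mul, ev_lp h0, Real.rpow_neg_one]
    have a1 := ell_pos h0 y
    have a2 := ell_le h1 y
    have a3 : 1 / 2 ≤ ((y : ℝ) + l)⁻¹ := by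
      rw [one_div]
      exact inv_anti₀ a1 a2
    have a4 := mul_le_mul_of_nonneg_left a3 (hψ y)
    linarith [h2 y]
  rw [map_smul, map_smul, ig_one, smul_eq_mul, smul_eq_mul, mul_one] at h3
  rw [map_add]
  linarith

/-- `w(A,B,r) = ∫ ℓ^A q^B (G^{(r)})²` -/
def hW (l A : ℝ) (B r : ℕ) (G : SF) : ℝ := ig (lp l A * q ^ B * Dn r G ^ 2)

lemma h_good {l : ℝ} (h0 : 0 < l) {M B r : ℕ} {A b : ℝ} (hr : r ≤ M) (hB : 11 + (2 * r - M) ≤ B)
    (hA : A + B = 2 * r + 1 - b) (G : SF) : hW l A B r G ≤ nT l M b G := by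
  unfold hW nT
  refine ig_mono fun x => ?_
  rw [map_mul, map_mul, map_mul, map_pow, map_pow, ev_lp h0, ev_q, ev_TT, ev_W h0]
  obtain ⟨e, rfl⟩ := Nat.exists_eq_add_of_le hB
  have h1 := om_le_Tv h0 hr G x
  have hL := ell_pos h0 x
  have hQ := q_nonneg x
  have hQL := q_le_ell h0 x
  have hx0 := x.2.1
  have hx1 : 0 ≤ 1 - (x : ℝ) := sub_nonneg.2 x.2.2
  have hmin : ((min (2 * r) M : ℕ) : ℝ) + ((2 * r - M : ℕ) : ℝ) = 2 * r := by
    have : min (2 * r) M + (2 * r - M) = 2 * r := by omega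
    exact_mod_cast this
  have hpow : ((x : ℝ) + l) ^ A * ((x : ℝ) + l) ^ e =
      ((x : ℝ) + l) ^ min (2 * r) M * ((x : ℝ) + l) ^ (-10 - b) := by
    rw [← Real.rpow_natCast, ← Real.rpow_natCast, ← Real.rpow_add hL, ← Real.rpow_add hL]
    congr 1
    push_cast at hA hmin ⊢
    linarith
  have h11 : ((x : ℝ) * (1 - x)) ^ 11 ≤ (x : ℝ) ^ 11 * (1 - x) ^ 2 := by
    have h9 : (1 - (x : ℝ)) ^ 9 ≤ 1 := pow_le_one₀ hx1 (by linarith)
    calc ((x : ℝ) * (1 - x)) ^ 11 = (x : ℝ) ^ 11 * (1 - x) ^ 2 * (1 - x) ^ 9 := by ring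
      _ ≤ (x : ℝ) ^ 11 * (1 - x) ^ 2 * 1 := by gcongr
      _ = _ := mul_one _
  have he : ((x : ℝ) * (1 - x)) ^ e ≤ ((x : ℝ) + l) ^ e := pow_le_pow_left₀ hQ hQL e
  have hA0 : 0 ≤ ((x : ℝ) + l) ^ A := Real.rpow_nonneg hL.le _
  have hW0 : 0 ≤ (x : ℝ) ^ 11 * (1 - x) ^ 2 * ((x : ℝ) + l) ^ (-10 - b) := by positivity
  calc ((x : ℝ) + l) ^ A * ((x : ℝ) * (1 - x)) ^ (11 + (2 * r - M) + e) * ev x (Dn r G) ^ 2
      = ((x : ℝ) + l) ^ A * ((x : ℝ) * (1 - x)) ^ e * ((x : ℝ) * (1 - x)) ^ (2 * r - M) *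
          ev x (Dn r G) ^ 2 * ((x : ℝ) * (1 - x)) ^ 11 := by rw [pow_add, pow_add]; ring
    _ ≤ ((x : ℝ) + l) ^ A * ((x : ℝ) + l) ^ e * ((x : ℝ) * (1 - x)) ^ (2 * r - M) *
          ev x (Dn r G) ^ 2 * ((x : ℝ) ^ 11 * (1 - x) ^ 2) := by gcongr
    _ = om l r M x * ev x (Dn r G) ^ 2 *
          ((x : ℝ) ^ 11 * (1 - x) ^ 2 * ((x : ℝ) + l) ^ (-10 - b)) := by
        rw [hpow, om]; ring
    _ ≤ _ := mul_le_mul_of_nonneg_right h1 hW0

lemma h_hardy (A : ℝ) (B r k : ℕ) : ∃ C, 0 ≤ C ∧ ∀ l, 0 < l → l ≤ 1 → ∀ G : SF,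
    hW l A B r G ≤ C * (hW l A (B + 2) (r + 1) G + hW l (A - k) (B + k) r G) := by
  obtain ⟨C, hC, h⟩ := hardy B B k A
  refine ⟨C, hC, fun l h0 h1 G => ?_⟩
  have h2 := h l h0 h1 (Dn r G)
  have hq : X ^ B * (1 - X) ^ B = q ^ B := by rw [q, mul_pow]
  rw [hq, ← Dn_succ] at h2
  unfold hW
  have e1 : lp l A * q ^ B * Dn r G ^ 2 = q ^ B * lp l A * Dn r G ^ 2 := by ring
  have e2 : lp l A * q ^ (B + 2) * Dn (r + 1) G ^ 2 =
      q ^ B * lp l A * q ^ 2 * Dn (r + 1) G ^ 2 := by ring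
  have e3 : lp l (A - k) * q ^ (B + k) * Dn r G ^ 2 =
      q ^ B * lp l (A - k) * q ^ k * Dn r G ^ 2 := by ring
  rw [e1, e2, e3]
  exact h2

lemma h_chain (M : ℕ) (b : ℝ) (n : ℕ) : ∀ (A : ℝ) (B r : ℕ), A + B = 2 * r + 1 - b → r + n ≤ M →
    11 + (2 * (r + n) - M) ≤ B + 2 * n → ∃ C, 0 ≤ C ∧ ∀ l, 0 < l → l ≤ 1 → ∀ G : SF,
      hW l A B r G ≤ C * nT l M b G := by
  induction n with
  | zero =>
    intro A B r hA hr hB
    exact ⟨1, zero_le_one, fun l h0 _ G => by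
      rw [one_mul]; exact h_good h0 (by omega) (by omega) hA G⟩
  | succ n ih =>
    intro A B r hA hr hB
    obtain ⟨C1, hC1, h1⟩ := h_hardy A B r (11 + (2 * r - M))
    obtain ⟨C2, hC2, h2⟩ := ih A (B + 2) (r + 1) (by push_cast; linarith) (by omega) (by omega)
    refine ⟨C1 * (C2 + 1), by positivity, fun l h0 hl G => ?_⟩
    have h3 : hW l (A - ((11 + (2 * r - M) : ℕ) : ℝ)) (B + (11 + (2 * r - M))) r G ≤ nT l M b G :=
      h_good h0 (by omega) (by omega) (by rw [Nat.cast_add B]; linarith) G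
    calc hW l A B r G ≤ _ := h1 l h0 hl G
      _ ≤ C1 * (C2 * nT l M b G + nT l M b G) :=
          mul_le_mul_of_nonneg_left (add_le_add (h2 l h0 hl G) h3) hC1
      _ = _ := by ring

lemma h_D_q (x : I01) : |ev x (D q)| ≤ 1 := by
  have : D q = 1 - X - X := by
    rw [q, D_mul, map_sub, D_X, Derivation.map_one_eq_zero]; ring
  rw [this, map_sub, map_sub, map_one, ev_X, abs_le]
  have := x.2.1; have := x.2.2
  constructor <;> linarith

/-- the sup of `ℓ^a q^B f²` against three integrals -/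
lemma h_sup (a : ℝ) (B r : ℕ) : ∃ C, 0 ≤ C ∧ ∀ l, 0 < l → l ≤ 1 → ∀ (G : SF) (x : I01),
    ((x : ℝ) + l) ^ a * ((x : ℝ) * (1 - x)) ^ B * ev x (Dn r G) ^ 2 ≤
      C * ((|a| + 2) * hW l (a - 1) B r G + B * hW l a (B - 1) r G + hW l (a + 1) B (r + 1) G) := by
  obtain ⟨C, hC, h⟩ := sup_le_ig
  refine ⟨C, hC, fun l h0 h1 G x => ?_⟩
  set f := Dn r G with hf
  have hf' : Dn (r + 1) G = D f := Dn_succ r G
  have key := h l h0 h1 (lp l a * q ^ B * f ^ 2)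
    ((|a| + 1) • (lp l (a - 1) * q ^ B * f ^ 2) + (B : ℝ) • (lp l a * q ^ (B - 1) * f ^ 2) +
      lp l (a + 1) * q ^ B * D f ^ 2) (fun y => ?_) (fun y => ?_) x
  · rw [map_mul, map_mul, map_pow, map_pow, ev_lp h0, ev_q] at key
    refine key.trans (le_of_eq ?_)
    congr 1
    have e1 : lp l a * q ^ B * f ^ 2 * lp l (-1) = lp l (a - 1) * q ^ B * f ^ 2 := by
      rw [sub_eq_add_neg a, ← lp_mul h0]; ring
    rw [e1, map_add, map_add, map_add, map_smul, map_smul, smul_eq_mul, smul_eq_mul]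
    unfold hW
    rw [hf', ← hf]
    ring
  · rw [map_mul, map_mul, map_pow, map_pow]
    exact mul_nonneg (mul_nonneg (ev_lp_pos h0 _ y).le (pow_nonneg (ev_q_nonneg y) _)) (sq_nonneg _)
  · have hL := ell_pos h0 y
    have hQ := ev_q_nonneg y
    have hq1 := h_D_q y
    rw [D_mul, D_mul, D_lp h0, Derivation.leibniz_pow, Derivation.leibniz_pow]
    simp only [map_add, map_mul, map_pow, map_smul, smul_eq_mul, nsmul_eq_mul,
      map_natCast, ev_lp h0]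
    set L := (y : ℝ) + l
    set Q := ev y q
    set F := ev y f
    set F' := ev y (D f)
    set κ := ev y (D q)
    have hP : 0 < L ^ (a - 1) := Real.rpow_pos_of_pos hL _
    have ea : L ^ a = L ^ (a - 1) * L := by
      rw [← Real.rpow_add_one hL.ne']; congr 1; ring
    have ea1 : L ^ (a + 1) = L ^ (a - 1) * L ^ 2 := by
      rw [Real.rpow_add_one hL.ne', ea]; ring
    rw [ea1, ea]
    set P := L ^ (a - 1)
    have hQB : 0 ≤ Q ^ B := pow_nonneg hQ _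
    have hQB1 : 0 ≤ Q ^ (B - 1) := pow_nonneg hQ _
    have t1 : |a * P * Q ^ B * F ^ 2| = |a| * (P * Q ^ B * F ^ 2) := by
      rw [mul_assoc, mul_assoc, abs_mul, abs_of_nonneg (a := P * _) (by positivity)]; ring
    have t2 : |P * L * (B * (Q ^ (B - 1) * κ)) * F ^ 2| ≤ B * (P * L * Q ^ (B - 1) * F ^ 2) := by
      have : P * L * (B * (Q ^ (B - 1) * κ)) * F ^ 2 = (B * (P * L * Q ^ (B - 1) * F ^ 2)) * κ := by
        ring
      rw [this, abs_mul, abs_of_nonneg (by positivity)]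
      exact mul_le_of_le_one_right (by positivity) hq1
    have t3 : |P * L * Q ^ B * (2 * (F * F'))| ≤ P * Q ^ B * F ^ 2 + P * L ^ 2 * Q ^ B * F' ^ 2 := by
      have : P * L * Q ^ B * (2 * (F * F')) = (P * Q ^ B) * (2 * F * (L * F')) := by ring
      rw [this, abs_mul, abs_of_nonneg (by positivity)]
      have h4 : |2 * F * (L * F')| ≤ F ^ 2 + (L * F') ^ 2 := by
        rw [abs_le]; constructor <;> nlinarith [sq_nonneg (F + L * F'), sq_nonneg (F - L * F')]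
      calc _ ≤ (P * Q ^ B) * (F ^ 2 + (L * F') ^ 2) := by gcongr
        _ = _ := by ring
    have e : (a * P * Q ^ B + P * L * (B * (Q ^ (B - 1) * κ))) * F ^ 2 +
        P * L * Q ^ B * (((2 : ℕ) : ℝ) * (F ^ (2 - 1) * F')) =
        a * P * Q ^ B * F ^ 2 + P * L * (B * (Q ^ (B - 1) * κ)) * F ^ 2 +
          P * L * Q ^ B * (2 * (F * F')) := by
      push_cast; ring
    rw [e]
    refine (abs_add_three _ _ _).trans ?_
    rw [t1]
    linarith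

lemma h_sob_one (m i : ℕ) (hi : i ≤ m) (b : ℝ) : ∃ C, 0 ≤ C ∧ ∀ l, 0 < l → l ≤ 1 →
    ∀ (G : SF) (x : I01),
    ((x : ℝ) + l) ^ (2 - b) * (om l i m x * ev x (Dn i G) ^ 2) ≤ C * nT l (m + 15) b G := by
  have hmin : ((min (2 * i) m : ℕ) : ℝ) + ((2 * i - m : ℕ) : ℝ) = 2 * i := by
    have : min (2 * i) m + (2 * i - m) = 2 * i := by omega
    exact_mod_cast this
  set B := 2 * i - m with hB
  set a : ℝ := 2 - b + (min (2 * i) m : ℕ) with ha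
  obtain ⟨C, hC, h⟩ := h_sup a B i
  obtain ⟨C1, hC1, h1⟩ := h_chain (m + 15) b 6 (a - 1) B i (by linarith) (by omega) (by omega)
  obtain ⟨C3, hC3, h3⟩ := h_chain (m + 15) b 6 (a + 1) B (i + 1) (by push_cast; linarith) (by omega)
    (by omega)
  obtain ⟨C2, hC2, h2⟩ : ∃ C, 0 ≤ C ∧ ∀ l, 0 < l → l ≤ 1 → ∀ G : SF,
      B * hW l a (B - 1) i G ≤ C * nT l (m + 15) b G := by
    rcases Nat.eq_zero_or_pos B with hB0 | hB0
    · exact ⟨0, le_rfl, fun l _ _ G => by rw [hB0]; simp⟩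
    · obtain ⟨C2, hC2, h2⟩ := h_chain (m + 15) b 6 a (B - 1) i
        (by rw [Nat.cast_sub hB0]; push_cast; linarith) (by omega) (by omega)
      exact ⟨B * C2, by positivity, fun l h0 hl G => by
        rw [mul_assoc]; exact mul_le_mul_of_nonneg_left (h2 l h0 hl G) (Nat.cast_nonneg _)⟩
  refine ⟨C * ((|a| + 2) * C1 + C2 + C3), by positivity, fun l h0 hl G x => ?_⟩
  have hL := ell_pos h0 x
  have e : ((x : ℝ) + l) ^ (2 - b) * (om l i m x * ev x (Dn i G) ^ 2) =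
      ((x : ℝ) + l) ^ a * ((x : ℝ) * (1 - x)) ^ B * ev x (Dn i G) ^ 2 := by
    rw [ha, Real.rpow_add hL, Real.rpow_natCast, om]; ring
  rw [e]
  refine (h l h0 hl G x).trans ?_
  rw [mul_assoc C]
  refine mul_le_mul_of_nonneg_left ?_ hC
  have h4 := mul_le_mul_of_nonneg_left (h1 l h0 hl G) (show 0 ≤ |a| + 2 by positivity)
  have h5 := h2 l h0 hl G
  have h6 := h3 l h0 hl G
  linarith

/-- Weighted Sobolev.  For each `i ≤ m`, `f = G^{(i)}`, `ψ = ℓ^{2-b} ω(i,m) f²`, `B = (2i-m)⁺`: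
`sup_le_ig` with `|ψ'| + ψ/ℓ ≤ C (ν f² + ν ρ² f'²)`, `ν = ℓ^{2-b} ω(i,m)/ρ`, `ρ = q` if `B ≥ 1`, `ρ = ℓ`
if `B = 0`.  Put `w(A,B,r) = ∫ ℓ^A q^B (G^{(r)})²` (real `A`); `hardy` (with equal powers of `x`, `1-x`)
gives `w(A,B,r) ≤ C (w(A,B+2,r+1) + w(A-k,B+k,r))`.  A term `w(A,B,r)` with `A + B = 2r + 1 - b`,
`r ≤ M = m+15`, `B ≥ 11 + (2r - M)⁺` is `≤ ⟪G⟫_{M,b}` (`q^11 ≤ μ_2`, `q ≤ ℓ`).  The defect
`11 + (2r-M)⁺ - B` is killed at once in the second term (`k` large), and in the chain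
`(B,r) → (B+2,r+1)` it is `≤ 0` after 7 steps. -/
lemma sob (m : ℕ) (b : ℝ) : ∃ C, 0 ≤ C ∧ ∀ l, 0 < l → l ≤ 1 → ∀ (G : SF) (x : I01),
    ((x : ℝ) + l) ^ (2 - b) * Tv l m G x ≤ C * nT l (m + 15) b G := by
  choose! C hC h using fun i hi => h_sob_one m i hi b
  refine ⟨∑ i ∈ Finset.range (m + 1), C i,
    Finset.sum_nonneg fun i hi => hC i (Nat.lt_succ_iff.1 (Finset.mem_range.1 hi)),
    fun l h0 h1 G x => ?_⟩
  rw [Tv, Finset.mul_sum, Finset.sum_mul]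
  exact Finset.sum_le_sum fun i hi => h i (Nat.lt_succ_iff.1 (Finset.mem_range.1 hi)) l h0 h1 G x

/-- `sob` with `nT_mono`, `nT_equiv 40` -/
lemma sobQ (b : ℝ) : ∃ C, 0 ≤ C ∧ ∀ l, 0 < l → l ≤ 1 → ∀ (G : SF) (x : I01),
    ((x : ℝ) + l) ^ (2 - b) * Tv l 25 G x ≤ C * QQ l b G := by
  obtain ⟨C₁, hC₁, h1⟩ := sob 25 b
  obtain ⟨C₂, hC₂, h2⟩ := nT_equiv 40 b
  refine ⟨C₁ * C₂, by positivity, fun l hl hl1 G x => (h1 l hl hl1 G x).trans ?_⟩
  rw [mul_assoc, QQ, add_comm (tp l 0 b G)]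
  exact mul_le_mul_of_nonneg_left (h2 l hl hl1 G) hC₁

/-- time derivative of the energy (`JD.mul`, `JD.lp`, `JD.hasDeriv_ig`) -/
lemma hasDeriv_tp {G : ℝ → SF} {U : SF} {s : Set ℝ} {t : ℝ} (hG : JD G U s t) {lam : ℝ → ℝ}
    {lam' : ℝ} (hl : HasDerivWithinAt lam lam' s t) (h0 : 0 < lam t) (j : ℕ) (b : ℝ) :
    HasDerivWithinAt (fun τ => tp (lam τ) j b (G τ))
      (2 * pair (lam t) j b U (G t) + lam' * (j - 10 - b) * tp (lam t) j (b + 1) (G t)) s t := by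
  have h := (((hG.Dn j).mul (hG.Dn j)).mul
    ((JD.lp hl h0 (j - 10 - b)).const_mul (mu (j + 2)))).hasDeriv_ig
  refine h.congr_deriv ?_
  rw [tp, pair_apply, pair_apply, show (j : ℝ) - 10 - (b + 1) = j - 10 - b - 1 by ring,
    mul_comm (Dn j (G t)) (Dn j U), add_mul, mul_smul_comm, mul_smul_comm, map_add, map_add, map_smul,
    smul_eq_mul]
  ring

end Crest.Agent.R213
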