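import Crest.Agent.R213.SF

/-! Row 213: the one-dimensional operators (`n = 10`). -/

set_option autoImplicit false
open Set Filter Topology

noncomputable section
namespace Crest.Agent.R213

/-- `q = x (1 - x)` -/
def q : SF := X * (1 - X)
/-- `μ_j = x^(9+j) (1-x)^j` -/
def mu (j : ℕ) : SF := X ^ (9 + j) * (1 - X) ^ j
/-- `p_i = μ_{i+1}' / μ_i` -/
def pp (i : ℕ) : SF := ((10 + i : ℕ) : ℝ) • (1 - X) - ((i + 1 : ℕ) : ℝ) • X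
/-- `δ_i f = μ_i⁻¹ (μ_{i+1} f)'` -/
def dl (i : ℕ) : SF →ₗ[ℝ] SF :=
  LinearMap.mulLeft ℝ q ∘ₗ (D : SF →ₗ[ℝ] SF) + LinearMap.mulLeft ℝ (pp i)
/-- `𝒜_j = δ_j δ_{j+1}`, so that `μ_j 𝒜_j f = (μ_{j+2} f)''` -/
def Aop (j : ℕ) : SF →ₗ[ℝ] SF := dl j ∘ₗ dl (j + 1)
/-- `𝓑 f = (𝒜_0 f)''` -/
def Bop : SF →ₗ[ℝ] SF := Dn 2 ∘ₗ Aop 0

lemma dl_apply (i : ℕ) (f : SF) : dl i f = q * D f + pp i * f := rfl
lemma Aop_apply (j : ℕ) (f : SF) : Aop j f = dl j (dl (j + 1) f) := rfl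
lemma Bop_apply (f : SF) : Bop f = Dn 2 (Aop 0 f) := rfl

@[simp] lemma ev_q (x : I01) : ev x q = x * (1 - x) := by simp [q]
@[simp] lemma ev_mu (j : ℕ) (x : I01) : ev x (mu j) = (x : ℝ) ^ (9 + j) * (1 - x) ^ j := by
  simp [mu]
lemma ev_pp (i : ℕ) (x : I01) : ev x (pp i) = (10 + i) * (1 - x) - (i + 1) * x := by
  simp [pp]
lemma ev_q_nonneg (x : I01) : 0 ≤ ev x q := by
  rw [ev_q]; exact mul_nonneg x.2.1 (sub_nonneg.2 x.2.2)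
lemma ev_mu_nonneg (j : ℕ) (x : I01) : 0 ≤ ev x (mu j) := by
  rw [ev_mu]; exact mul_nonneg (pow_nonneg x.2.1 _) (pow_nonneg (sub_nonneg.2 x.2.2) _)
lemma mu_succ (j : ℕ) : mu (j + 1) = q * mu j := by simp only [mu, q]; ring

/-- The right-hand side of the reduced Calabi flow `Γ_t = -(1 - qΓ)² 𝓑Γ`. -/
def flow (_ : ℝ) (G : SF) : SF := -((1 - q * G) ^ 2 * Bop G)

end Crest.Agent.R213
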