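import Crest.Agent.R213.Abs

/-! Row 213: the blowing-up solution of the reduced flow. -/

set_option autoImplicit false
open Set Filter Topology

noncomputable section
namespace Crest.Agent.R213

lemma exists_window {τ : ℕ → ℝ} {T : ℝ} (hT : Tendsto τ atTop (𝓝 T))
    {t : ℝ} {n : ℕ} (h1 : τ n ≤ t) (h2 : t < T) : ∃ k, n ≤ k ∧ t ∈ Icc (τ k) (τ (k + 1)) := by
  classical
  have hex : ∃ k, t < τ (n + k + 1) := by
    obtain ⟨k, hk⟩ := (hT.eventually (lt_mem_nhds h2)).exists_forall_of_atTop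
    exact ⟨k, hk _ (by omega)⟩
  refine ⟨n + Nat.find hex, by omega, ?_, (Nat.find_spec hex).le⟩
  rcases h : Nat.find hex with _ | j
  · simpa using h1
  · have := Nat.find_min hex (m := j) (by omega)
    exact not_lt.1 this

lemma tendsto_of_windows {τ b : ℕ → ℝ} {T : ℝ} (hτ : StrictMono τ) (hT : Tendsto τ atTop (𝓝 T))
    (hb : Tendsto b atTop (𝓝 0)) {f : ℝ → ℝ} (h0 : ∀ t, 0 ≤ f t)
    (hf : ∀ k, ∀ t ∈ Icc (τ k) (τ (k + 1)), f t ≤ b k) : Tendsto f (𝓝[Iio T] T) (𝓝 0) := by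
  refine tendsto_order.2 ⟨fun a ha => Eventually.of_forall fun t => ha.trans_le (h0 t), fun a ha => ?_⟩
  obtain ⟨n, hn⟩ := (hb.eventually (gt_mem_nhds ha)).exists_forall_of_atTop
  have hlt : τ n < T := (hτ (Nat.lt_succ_self n)).trans_le (hτ.monotone.ge_of_tendsto hT _)
  filter_upwards [self_mem_nhdsWithin, mem_nhdsWithin_of_mem_nhds (Ioi_mem_nhds hlt)] with t h1 h2
  obtain ⟨k, hk, ht⟩ := exists_window hT (le_of_lt h2) h1
  exact (hf k t ht).trans_lt (hn k hk)

theorem stP (hE : StE) (hD : StD) : StP := by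
  obtain ⟨cf, Γa, c0, K, g0, h⟩ := exists_app hE
  obtain ⟨τ, G, b, hτ, h0, hT, hG, hGG, hb, hgood⟩ := exists_orbit h.ok hD
  obtain ⟨H, hH, hHG⟩ := Sol.concat_seq hτ hT hG hGG
  obtain ⟨C, hC, hsob⟩ := sobQ 1
  have hlt : τ 0 < 0 := (hτ Nat.zero_lt_one).trans_le (hτ.monotone.ge_of_tendsto hT _)
  have hsub : Ico (τ 0) 0 ⊆ Ico (-1 : ℝ) 0 := Ico_subset_Ico_left h0
  have hmaps : MapsTo (fun s : ℝ => s + τ 0) (Ico 0 (-τ 0)) (Ico (τ 0) 0) := fun s hs =>
    ⟨by linarith [hs.1], by linarith [hs.2]⟩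
  refine ⟨-τ 0, fun s => Γa (s + τ 0) + H (s + τ 0), g0, by linarith, ?_, ?_, h.g0_pos, ?_⟩
  · intro s hs
    obtain ⟨U, hU, hUG⟩ := h.der _ (hsub (hmaps hs))
    have h1 := ((hU.mono hsub).add (hH _ (hmaps hs)))
    have h2 := JD.comp (φ := fun s : ℝ => s + τ 0) (t := s) h1
      ((hasDerivAt_id s).add_const (τ 0)).hasDerivWithinAt hmaps
    rw [hUG, one_smul] at h2
    exact h2
  · intro s hs x
    have hm := hmaps hs
    obtain ⟨k, -, hk⟩ := exists_window (n := 0) hT hm.1 hm.2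
    have h1 := (hgood k _ hk).1.1 x
    rw [← hHG k _ hk, h.a_eq _ (hsub hm), one_smul] at h1
    have e : 1 - q * (Γa (s + τ 0) + H (s + τ 0)) = 1 - q * Γa (s + τ 0) - q * H (s + τ 0) := by ring
    rw [e]
    linarith [h.ok.c0_pos]
  · have l1 : Tendsto (fun t => (ev 0 (H t) * lam t) ^ 2) (𝓝[Iio 0] 0) (𝓝 0) := by
      refine tendsto_of_windows hτ hT (b := fun k => C * b k) (by simpa using hb.const_mul C)
        (fun t => sq_nonneg _) fun k t ht => ?_
      have hk0 : τ (k + 1) < 0 := (hτ (Nat.lt_succ_self _)).trans_le (hτ.monotone.ge_of_tendsto hT _)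
      have ht0 : t < 0 := ht.2.trans_lt hk0
      have ht1 : -1 ≤ t := h0.trans ((hτ.monotone (Nat.zero_le k)).trans ht.1)
      have hl := lam_pos ht0
      have h1 := hsob _ hl (lam_le_one ht1) (H t) 0
      have h2 := sq_le_Tv hl 25 (H t) 0
      have h3 := (hgood k t ht).2
      rw [← hHG k t ht, II] at h3
      have e : (((0 : I01) : ℝ) + lam t) ^ ((2 : ℝ) - 1) = lam t := by norm_num
      rw [e] at h1
      have h4 := mul_le_mul_of_nonneg_left h2 hl.le
      have h5 := mul_le_mul_of_nonneg_left (h4.trans h1) hl.le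
      have h6 := mul_le_mul_of_nonneg_left h3 hC
      nlinarith
    have l2 : Tendsto (fun t => ev 0 (H t) * lam t) (𝓝[Iio 0] 0) (𝓝 0) := by
      have := (Real.continuous_sqrt.tendsto 0).comp l1
      rw [tendsto_zero_iff_abs_tendsto_zero]
      simpa [Function.comp_def, Real.sqrt_sq_eq_abs] using this
    have l3 : Tendsto lam (𝓝[Iio 0] 0) (𝓝 0) := by
      have : Continuous lam := Real.continuous_sqrt.comp continuous_neg
      have := this.tendsto 0
      rw [show lam 0 = 0 by simp [lam]] at this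
      exact this.mono_left nhdsWithin_le_nhds
    have l4 : Tendsto (fun t => ev 0 (Γa t + H t) * lam t) (𝓝[Iio 0] 0) (𝓝 g0) := by
      have := (l3.const_sub g0).add l2
      rw [sub_zero, add_zero] at this
      refine this.congr' ?_
      filter_upwards [self_mem_nhdsWithin,
        mem_nhdsWithin_of_mem_nhds (Ioi_mem_nhds (by norm_num : (-1 : ℝ) < 0))] with t h1 h2
      have hl := lam_pos h1
      rw [map_add, h.val0 t ⟨le_of_lt h2, h1⟩]
      field_simp
    have l5 : Tendsto (fun s : ℝ => s + τ 0) (𝓝[Iio (-τ 0)] (-τ 0)) (𝓝[Iio 0] 0) := by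
      refine tendsto_nhdsWithin_iff.2 ⟨?_, ?_⟩
      · have : Tendsto (fun s : ℝ => s + τ 0) (𝓝 (-τ 0)) (𝓝 (-τ 0 + τ 0)) :=
          (continuous_add_const _).tendsto _
        rw [neg_add_cancel] at this
        exact this.mono_left nhdsWithin_le_nhds
      · filter_upwards [self_mem_nhdsWithin] with s hs
        have : s < -τ 0 := hs
        show s + τ 0 < 0
        linarith
    refine (l4.comp l5).congr fun s => ?_
    simp only [Function.comp, lam]
    congr 2
    ring

end Crest.Agent.R213
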