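import Mathlib

/-! Row 213 (Calabi flow): the differential algebra `SF` of smooth functions on `[0,1]`. -/

set_option autoImplicit false
open Set Filter Topology
open scoped ContDiff

noncomputable section
namespace Crest.Agent.R213

abbrev I01 : Set ℝ := Icc 0 1
abbrev CC : Type := C(I01, ℝ)

/-- extension to `ℝ` by the boundary values -/
def ext (f : CC) : ℝ → ℝ := IccExtend zero_le_one f

lemma ext_of_mem (f : CC) {x : ℝ} (hx : x ∈ I01) : ext f x = f ⟨x, hx⟩ :=
  IccExtend_of_mem _ _ hx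
@[simp] lemma ext_coe (f : CC) (x : I01) : ext f x = f x := IccExtend_val _ _ x
lemma continuous_ext (f : CC) : Continuous (ext f) := f.continuous.Icc_extend'
lemma ext_add (f g : CC) : ext (f + g) = ext f + ext g := rfl
lemma ext_mul (f g : CC) : ext (f * g) = ext f * ext g := rfl
lemma ext_smul (c : ℝ) (f : CC) : ext (c • f) = c • ext f := rfl
lemma ext_sub (f g : CC) : ext (f - g) = ext f - ext g := rfl

lemma uniq : UniqueDiffOn ℝ I01 := uniqueDiffOn_Icc zero_lt_one

/-- smooth functions on `[0,1]` -/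
def SF : Subalgebra ℝ CC where
  carrier := {f | ContDiffOn ℝ ∞ (ext f) I01}
  mul_mem' := fun {f g} hf hg => by
    have : ContDiffOn ℝ ∞ (fun x => ext f x * ext g x) I01 := ContDiffOn.mul hf hg
    exact this
  add_mem' := fun {f g} hf hg => by
    have : ContDiffOn ℝ ∞ (fun x => ext f x + ext g x) I01 := ContDiffOn.add hf hg
    exact this
  algebraMap_mem' := fun c => by
    have : ContDiffOn ℝ ∞ (fun _ : ℝ => c) I01 := contDiffOn_const
    exact this

lemma SF.smooth (f : SF) : ContDiffOn ℝ ∞ (ext (f : CC)) I01 := f.2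

/-- evaluation -/
def ev (x : I01) : SF →ₐ[ℝ] ℝ := (ContinuousMap.evalAlgHom ℝ ℝ x).comp SF.val

lemma ev_def (x : I01) (f : SF) : ev x f = (f : CC) x := rfl
lemma ev_smul (x : I01) (c : ℝ) (f : SF) : ev x (c • f) = c * ev x f := rfl
lemma ext_eq_ev (f : SF) {x : ℝ} (hx : x ∈ I01) : ext (f : CC) x = ev ⟨x, hx⟩ f := ext_of_mem _ hx
lemma SF.ext' {f g : SF} (h : ∀ x, ev x f = ev x g) : f = g :=
  Subtype.ext (ContinuousMap.ext h)
lemma continuous_ev (f : SF) : Continuous fun x => ev x f := (f : CC).continuous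
lemma abs_ev_le (x : I01) (f : SF) : |ev x f| ≤ ‖(f : CC)‖ := (f : CC).norm_coe_le_norm x

/-- an element of `SF` from a function smooth on `[0,1]` -/
def mk (F : ℝ → ℝ) (h : ContDiffOn ℝ ∞ F I01) : SF :=
  ⟨⟨fun x => F x, continuousOn_iff_continuous_domRestrict.1 h.continuousOn⟩,
    h.congr fun _ hx => ext_of_mem _ hx⟩

@[simp] lemma ev_mk (F : ℝ → ℝ) (h : ContDiffOn ℝ ∞ F I01) (x : I01) : ev x (mk F h) = F x := rfl

def D0 (f : SF) : SF :=
  mk (derivWithin (ext (f : CC)) I01) ((contDiffOn_infty_iff_derivWithin uniq).1 f.2).2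

lemma hasDeriv_ext0 (f : SF) (x : I01) :
    HasDerivWithinAt (ext (f : CC)) (ev x (D0 f)) I01 x :=
  (((contDiffOn_infty_iff_derivWithin uniq).1 f.2).1 x x.2).hasDerivWithinAt

lemma D0_eq {f : SF} {x : I01} {c : ℝ} (h : HasDerivWithinAt (ext (f : CC)) c I01 x) :
    ev x (D0 f) = c := h.derivWithin (uniq x x.2)

/-- the derivation `d/dx` -/
def D : Derivation ℝ SF SF :=
  Derivation.mk'
    { toFun := D0
      map_add' := fun f g => SF.ext' fun x => by
        rw [map_add]
        exact D0_eq ((hasDeriv_ext0 f x).add (hasDeriv_ext0 g x))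
      map_smul' := fun c f => SF.ext' fun x => by
        rw [RingHom.id_apply, ev_smul]
        exact D0_eq ((hasDeriv_ext0 f x).const_smul c) }
    (fun f g => SF.ext' fun x => by
        have h := (hasDeriv_ext0 f x).mul (hasDeriv_ext0 g x)
        have h2 := D0_eq (f := f * g) h
        simp only [LinearMap.coe_mk, AddHom.coe_mk, smul_eq_mul, map_add, map_mul]
        rw [h2, ext_coe, ext_coe, ← ev_def, ← ev_def]
        ring)

lemma hasDeriv_ext (f : SF) (x : I01) :
    HasDerivWithinAt (ext (f : CC)) (ev x (D f)) I01 x := hasDeriv_ext0 f x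

lemma ev_D_eq {f : SF} {x : I01} {c : ℝ} (h : HasDerivWithinAt (ext (f : CC)) c I01 x) :
    ev x (D f) = c := D0_eq h

lemma ev_D_of {f : SF} {F : ℝ → ℝ} (hF : ∀ x : I01, ev x f = F x) {x : I01} {c : ℝ}
    (h : HasDerivWithinAt F c I01 x) : ev x (D f) = c :=
  ev_D_eq (h.congr (fun y hy => by rw [ext_eq_ev f hy, hF]) (by rw [ext_coe, ← ev_def, hF]))

lemma D_mul (f g : SF) : D (f * g) = D f * g + f * D g := by
  rw [Derivation.leibniz, smul_eq_mul, smul_eq_mul]; ring

/-- iterated derivative -/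
def Dn (i : ℕ) : SF →ₗ[ℝ] SF := (D : SF →ₗ[ℝ] SF) ^ i

@[simp] lemma Dn_zero (f : SF) : Dn 0 f = f := rfl
lemma Dn_succ (i : ℕ) (f : SF) : Dn (i + 1) f = D (Dn i f) := by
  simp [Dn, pow_succ']
lemma Dn_succ' (i : ℕ) (f : SF) : Dn (i + 1) f = Dn i (D f) := by
  simp [Dn, pow_succ]
lemma Dn_one (f : SF) : Dn 1 f = D f := by rw [Dn_succ, Dn_zero]
lemma Dn_Dn (i j : ℕ) (f : SF) : Dn i (Dn j f) = Dn (i + j) f := by
  simp [Dn, pow_add]

/-- the coordinate function -/
def X : SF := mk id contDiffOn_id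
@[simp] lemma ev_X (x : I01) : ev x X = x := rfl
@[simp] lemma D_X : D X = 1 := SF.ext' fun x => by
  rw [map_one]; exact ev_D_of (F := id) (fun _ => rfl) (hasDerivWithinAt_id _ _)

/-- `(x + l) ^ e` for `l > 0` (junk value `1` otherwise) -/
def lp (l e : ℝ) : SF :=
  if h : 0 < l then
    mk (fun x => (x + l) ^ e) ((contDiffOn_id.add contDiffOn_const).rpow_const_of_ne
      fun x hx => by have := hx.1; simp only [id]; positivity)
  else 1

lemma ev_lp {l : ℝ} (h : 0 < l) (e : ℝ) (x : I01) : ev x (lp l e) = ((x : ℝ) + l) ^ e := by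
  simp [lp, h]

lemma ev_lp_pos {l : ℝ} (h : 0 < l) (e : ℝ) (x : I01) : 0 < ev x (lp l e) := by
  rw [ev_lp h]; have := x.2.1; positivity

lemma D_lp {l : ℝ} (h : 0 < l) (e : ℝ) : D (lp l e) = e • lp l (e - 1) := SF.ext' fun x => by
  rw [ev_smul, ev_lp h]
  refine ev_D_of (F := fun y => (y + l) ^ e) (ev_lp h e) ?_
  have hx : (x : ℝ) + l ≠ 0 := by have := x.2.1; positivity
  have := (((hasDerivAt_id (x : ℝ)).add_const l).rpow_const (p := e) (Or.inl hx)).hasDerivWithinAt
    (s := I01)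
  simpa using this

lemma lp_mul {l : ℝ} (h : 0 < l) (e e' : ℝ) : lp l e * lp l e' = lp l (e + e') := SF.ext' fun x => by
  have : 0 < (x : ℝ) + l := by have := x.2.1; positivity
  rw [map_mul, ev_lp h, ev_lp h, ev_lp h, Real.rpow_add this]

lemma lp_zero (l : ℝ) : lp l 0 = 1 := SF.ext' fun x => by
  by_cases h : 0 < l
  · rw [ev_lp h]; simp
  · simp [lp, h]

/-- integral over `[0,1]` as a continuous linear form on `C([0,1])` -/
def intg : CC →L[ℝ] ℝ :=
  LinearMap.mkContinuous
    { toFun := fun f => ∫ x in (0:ℝ)..1, ext f x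
      map_add' := fun f g => intervalIntegral.integral_add
        ((continuous_ext f).intervalIntegrable _ _) ((continuous_ext g).intervalIntegrable _ _)
      map_smul' := fun c f => intervalIntegral.integral_smul c _ } 1
    (fun f => by
      have := intervalIntegral.norm_integral_le_of_norm_le_const (a := 0) (b := 1) (C := ‖f‖)
        (f := ext f) (fun x _ => f.norm_coe_le_norm _)
      simpa using this)

lemma intg_def (f : CC) : intg f = ∫ x in (0:ℝ)..1, ext f x := rfl

/-- integral of a smooth function -/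
def ig : SF →ₗ[ℝ] ℝ := intg.toLinearMap.comp SF.val.toLinearMap

lemma ig_def (f : SF) : ig f = intg (f : CC) := rfl

lemma ig_mono {f g : SF} (h : ∀ x, ev x f ≤ ev x g) : ig f ≤ ig g :=
  intervalIntegral.integral_mono_on zero_le_one ((continuous_ext _).intervalIntegrable _ _)
    ((continuous_ext _).intervalIntegrable _ _) fun x hx => by
      change ext (f : CC) x ≤ ext (g : CC) x
      rw [ext_eq_ev f hx, ext_eq_ev g hx]; exact h _

lemma ig_nonneg {f : SF} (h : ∀ x, 0 ≤ ev x f) : 0 ≤ ig f := by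
  have := ig_mono (f := 0) (g := f) (by simpa using h)
  simpa using this

lemma ig_one : ig 1 = 1 := by
  change ∫ x in (0:ℝ)..1, (1:ℝ) = 1
  simp

lemma ig_le_const {f : SF} {c : ℝ} (h : ∀ x, ev x f ≤ c) : ig f ≤ c := by
  have := ig_mono (f := f) (g := c • 1) (by intro x; rw [ev_smul]; simpa using h x)
  rwa [map_smul, ig_one, smul_eq_mul, mul_one] at this

/-- fundamental theorem of calculus between two points -/
lemma integral_D (f : SF) (a b : I01) :
    ∫ x in (a:ℝ)..b, ext ((D f : SF) : CC) x = ev b f - ev a f := by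
  have hsub : uIcc (a:ℝ) b ⊆ I01 := uIcc_subset_Icc a.2 b.2
  have := intervalIntegral.integral_eq_sub_of_hasDeriv_right (f := ext (f : CC))
    (f' := ext ((D f : SF) : CC)) (a := a) (b := b) (continuous_ext _).continuousOn
    (fun x hx => by
      have hx' : x ∈ Ioo (0:ℝ) 1 :=
        ⟨lt_of_le_of_lt (le_min a.2.1 b.2.1) hx.1, lt_of_lt_of_le hx.2 (max_le a.2.2 b.2.2)⟩
      have hxI : x ∈ I01 := Ioo_subset_Icc_self hx'
      have h := hasDeriv_ext f ⟨x, hxI⟩
      rw [ext_eq_ev _ hxI]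
      exact (h.hasDerivAt (Icc_mem_nhds hx'.1 hx'.2)).hasDerivWithinAt)
    ((continuous_ext _).intervalIntegrable _ _)
  rw [this, ext_coe, ext_coe]; rfl

lemma ig_D (f : SF) : ig (D f) = ev 1 f - ev 0 f := integral_D f 0 1

/-- `ig (D f) = 0` when `f` vanishes at both ends: the integration by parts used everywhere -/
lemma ig_D_eq_zero {f : SF} (h0 : ev 0 f = 0) (h1 : ev 1 f = 0) : ig (D f) = 0 := by
  rw [ig_D, h0, h1, sub_zero]

/-- time derivative of all jets, in the sup norm -/
def JD (G : ℝ → SF) (U : SF) (s : Set ℝ) (t : ℝ) : Prop :=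
  ∀ i, HasDerivWithinAt (fun τ => ((Dn i (G τ) : SF) : CC)) ((Dn i U : SF) : CC) s t

/-- `G` solves `G' = F t G` on the time set `s` (with all jets) -/
def Sol (F : ℝ → SF → SF) (G : ℝ → SF) (s : Set ℝ) : Prop := ∀ t ∈ s, JD G (F t (G t)) s t

/-- all jets depend continuously on time -/
def JC (G : ℝ → SF) (s : Set ℝ) : Prop :=
  ∀ i, ContinuousOn (fun τ => ((Dn i (G τ) : SF) : CC)) s

end Crest.Agent.R213
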