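import Crest.Agent.R213.Jet

/-! Row 213: pointwise weighted jet calculus.  `ℓ = x + l`, `q = x(1-x) ≤ ℓ ≤ 2` for `0 < l ≤ 1`.
`Tv l m f x = ∑_{i ≤ m} ω(i,m) (f^{(i)})²`, `ω(i,m) = ℓ^{min(2i,m)} q^{(2i-m)⁺}` (total degree `2i`).
Basic comparison (`om_le`): `ℓ^a q^b ≤ 2^k ℓ^{a'} q^{b'}` when `b' ≤ b`, `a + b = a' + b' + k`. -/

set_option autoImplicit false
open Set Filter Topology

noncomputable section
namespace Crest.Agent.R213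

/-- `ℓ = x + l` -/
def ell (l : ℝ) : SF := X + l • 1
@[simp] lemma ev_ell (l : ℝ) (x : I01) : ev x (ell l) = x + l := by simp [ell]

/-- the weight `ω(i,m)` -/
def om (l : ℝ) (i m : ℕ) (x : I01) : ℝ :=
  ((x : ℝ) + l) ^ min (2 * i) m * ((x : ℝ) * (1 - x)) ^ (2 * i - m)

def Tv (l : ℝ) (m : ℕ) (f : SF) (x : I01) : ℝ :=
  ∑ i ∈ Finset.range (m + 1), om l i m x * ev x (Dn i f) ^ 2

/-- `Tv` as an element of `SF` -/
def TT (l : ℝ) (m : ℕ) (f : SF) : SF :=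
  ∑ i ∈ Finset.range (m + 1), ell l ^ min (2 * i) m * q ^ (2 * i - m) * Dn i f ^ 2

lemma ev_TT (l : ℝ) (m : ℕ) (f : SF) (x : I01) : ev x (TT l m f) = Tv l m f x := by
  simp [TT, Tv, om]

section
variable {l : ℝ}

lemma q_le_ell (h0 : 0 < l) (x : I01) : (x : ℝ) * (1 - x) ≤ x + l := by
  have := x.2.1; have := x.2.2; nlinarith
lemma q_nonneg (x : I01) : 0 ≤ (x : ℝ) * (1 - x) := mul_nonneg x.2.1 (sub_nonneg.2 x.2.2)
lemma ell_pos (h0 : 0 < l) (x : I01) : 0 < (x : ℝ) + l := by have := x.2.1; positivity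
lemma ell_le (h1 : l ≤ 1) (x : I01) : (x : ℝ) + l ≤ 2 := by have := x.2.2; linarith

lemma a_cmp (h0 : 0 < l) (x : I01) {a b a' b' : ℕ} (hb : b' ≤ b) (hk : a + b = a' + b') :
    ((x : ℝ) + l) ^ a * ((x : ℝ) * (1 - x)) ^ b ≤ ((x : ℝ) + l) ^ a' * ((x : ℝ) * (1 - x)) ^ b' := by
  obtain ⟨d, rfl⟩ := Nat.exists_eq_add_of_le hb
  obtain rfl : a' = a + d := by omega
  have h1 := ell_pos h0 x
  have h2 := q_nonneg x
  have h3 := q_le_ell h0 x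
  generalize (x : ℝ) + l = u at *
  generalize (x : ℝ) * (1 - x) = v at *
  calc u ^ a * v ^ (b' + d) = u ^ a * v ^ d * v ^ b' := by ring
    _ ≤ u ^ a * u ^ d * v ^ b' := by gcongr
    _ = _ := by ring

lemma om_le (h0 : 0 < l) (h1 : l ≤ 1) (x : I01) {a b a' b' k : ℕ} (hb : b' ≤ b)
    (hk : a + b = a' + b' + k) :
    ((x : ℝ) + l) ^ a * ((x : ℝ) * (1 - x)) ^ b ≤
      2 ^ k * (((x : ℝ) + l) ^ a' * ((x : ℝ) * (1 - x)) ^ b') := by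
  refine (a_cmp h0 x (a' := k + a') hb (by omega)).trans ?_
  rw [pow_add, mul_assoc]
  exact mul_le_mul_of_nonneg_right (pow_le_pow_left₀ (ell_pos h0 x).le (ell_le h1 x) k)
    (mul_nonneg (pow_nonneg (ell_pos h0 x).le _) (pow_nonneg (q_nonneg x) _))

lemma om_nonneg (h0 : 0 < l) (i m : ℕ) (x : I01) : 0 ≤ om l i m x := by
  exact mul_nonneg (pow_nonneg (ell_pos h0 x).le _) (pow_nonneg (q_nonneg x) _)
lemma Tv_nonneg (h0 : 0 < l) (m : ℕ) (f : SF) (x : I01) : 0 ≤ Tv l m f x := by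
  exact Finset.sum_nonneg fun i _ => mul_nonneg (om_nonneg h0 i m x) (sq_nonneg _)
lemma om_le_Tv (h0 : 0 < l) {i m : ℕ} (hi : i ≤ m) (f : SF) (x : I01) :
    om l i m x * ev x (Dn i f) ^ 2 ≤ Tv l m f x := by
  exact Finset.single_le_sum (f := fun i => om l i m x * ev x (Dn i f) ^ 2)
    (fun i _ => mul_nonneg (om_nonneg h0 i m x) (sq_nonneg _)) (Finset.mem_range.2 (by omega))
lemma Tv_mono (h0 : 0 < l) {m m' : ℕ} (h : m ≤ m') (f : SF) (x : I01) : Tv l m f x ≤ Tv l m' f x := by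
  refine le_trans (Finset.sum_le_sum fun i _ => ?_) (Finset.sum_le_sum_of_subset_of_nonneg
    (Finset.range_mono (Nat.succ_le_succ h)) fun i _ _ => mul_nonneg (om_nonneg h0 i m' x) (sq_nonneg _))
  exact mul_le_mul_of_nonneg_right (a_cmp h0 x (by omega) (by omega)) (sq_nonneg _)
/-- `t_i ≤ T_m` -/
lemma t_le_Tv (h0 : 0 < l) {i m : ℕ} (hi : i ≤ m) (f : SF) (x : I01) :
    (((x : ℝ) + l) * (x * (1 - x))) ^ i * ev x (Dn i f) ^ 2 ≤ Tv l m f x := by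
  refine le_trans (mul_le_mul_of_nonneg_right ?_ (sq_nonneg _)) (om_le_Tv h0 hi f x)
  rw [mul_pow]
  exact a_cmp h0 x (by omega) (by omega)
lemma s_le_Tv (h0 : 0 < l) {i m : ℕ} (hi : 2 * i ≤ m) (f : SF) (x : I01) :
    ((x : ℝ) + l) ^ (2 * i) * ev x (Dn i f) ^ 2 ≤ Tv l m f x := by
  refine le_trans (le_of_eq ?_) (om_le_Tv h0 (show i ≤ m by omega) f x)
  rw [om, min_eq_left hi, Nat.sub_eq_zero_of_le hi, pow_zero, mul_one]
lemma sq_le_Tv (h0 : 0 < l) (m : ℕ) (f : SF) (x : I01) : ev x f ^ 2 ≤ Tv l m f x := by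
  simpa using s_le_Tv h0 (i := 0) (Nat.zero_le m) f x
lemma Tv_zero (l : ℝ) (f : SF) (x : I01) : Tv l 0 f x = ev x f ^ 2 := by
  simp [Tv, om]
lemma Tv_le_s (h0 : 0 < l) (m : ℕ) (f : SF) (x : I01) :
    Tv l m f x ≤ ∑ i ∈ Finset.range (m + 1), ((x : ℝ) + l) ^ (2 * i) * ev x (Dn i f) ^ 2 := by
  refine Finset.sum_le_sum fun i _ => mul_le_mul_of_nonneg_right ?_ (sq_nonneg _)
  simpa only [om, pow_zero, mul_one] using
    a_cmp h0 x (a := min (2 * i) m) (b := 2 * i - m) (a' := 2 * i) (b' := 0) (by omega) (by omega)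
lemma Tv_add (h0 : 0 < l) (m : ℕ) (f g : SF) (x : I01) :
    Tv l m (f + g) x ≤ 2 * Tv l m f x + 2 * Tv l m g x := by
  simp only [Tv, Finset.mul_sum, ← Finset.sum_add_distrib, map_add]
  refine Finset.sum_le_sum fun i _ => ?_
  nlinarith [mul_nonneg (om_nonneg h0 i m x) (sq_nonneg (ev x (Dn i f) - ev x (Dn i g)))]
lemma Tv_sub (h0 : 0 < l) (m : ℕ) (f g : SF) (x : I01) :
    Tv l m (f - g) x ≤ 2 * Tv l m f x + 2 * Tv l m g x := by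
  simp only [Tv, Finset.mul_sum, ← Finset.sum_add_distrib, map_sub]
  refine Finset.sum_le_sum fun i _ => ?_
  nlinarith [mul_nonneg (om_nonneg h0 i m x) (sq_nonneg (ev x (Dn i f) + ev x (Dn i g)))]
lemma Tv_smul (l : ℝ) (m : ℕ) (c : ℝ) (f : SF) (x : I01) : Tv l m (c • f) x = c ^ 2 * Tv l m f x := by
  simp only [Tv, Finset.mul_sum, map_smul, smul_eq_mul]
  exact Finset.sum_congr rfl fun i _ => by ring
lemma Tv_neg (l : ℝ) (m : ℕ) (f : SF) (x : I01) : Tv l m (-f) x = Tv l m f x := by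
  simp only [Tv, map_neg, neg_sq]
lemma Tv_congr (l : ℝ) (m : ℕ) {f g : SF} {x : I01} (h : ∀ i, ev x (Dn i f) = ev x (Dn i g)) :
    Tv l m f x = Tv l m g x := by
  simp only [Tv, h]
end

lemma tcb_gen (m : ℕ) (f : ℝ → SF) (w : ℝ → I01 → ℝ) (c : ℕ → ℝ) (hc : ∀ i, 0 ≤ c i)
    (h : ∀ l, 0 < l → l ≤ 1 → ∀ (x : I01) (i : ℕ),
      ((x : ℝ) + l) ^ (2 * i) * ev x (Dn i (f l)) ^ 2 ≤ c i * w l x) :
    ∃ C, 0 ≤ C ∧ ∀ l, 0 < l → l ≤ 1 → ∀ x, Tv l m (f l) x ≤ C * w l x :=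
  ⟨∑ i ∈ Finset.range (m + 1), c i, Finset.sum_nonneg fun i _ => hc i, fun l h0 h1 x => by
    rw [Finset.sum_mul]
    exact (Tv_le_s h0 m _ x).trans (Finset.sum_le_sum fun i _ => h l h0 h1 x i)⟩

lemma tcb_sq (x : I01) (f : SF) : ev x f ^ 2 ≤ ‖(f : CC)‖ ^ 2 := by
  rw [← sq_abs]
  exact pow_le_pow_left₀ (abs_nonneg _) (abs_ev_le x f) 2

lemma tcb_small (m : ℕ) (f : SF) (hf : ∀ x : I01, 0 ≤ ev x f ∧ ev x f ≤ x) :
    ∃ C, 0 ≤ C ∧ ∀ l, 0 < l → l ≤ 1 → ∀ x : I01, Tv l m f x ≤ C * ((x : ℝ) + l) ^ 2 := by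
  refine tcb_gen m (fun _ => f) (fun l x => ((x : ℝ) + l) ^ 2)
    (fun i => 1 + 2 ^ (2 * i) * ‖((Dn i f : SF) : CC)‖ ^ 2) (fun i => by positivity) fun l h0 h1 x i => ?_
  have hp := ell_pos h0 x
  have h2 := ell_le h1 x
  rcases i with _ | i
  · have : ev x f ^ 2 ≤ ((x : ℝ) + l) ^ 2 := pow_le_pow_left₀ (hf x).1 (by linarith [(hf x).2]) 2
    have h3 : 0 ≤ 2 ^ (2 * 0) * ‖((Dn 0 f : SF) : CC)‖ ^ 2 * ((x : ℝ) + l) ^ 2 := by positivity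
    rw [mul_zero, pow_zero, one_mul, Dn_zero] at *
    nlinarith
  · have h3 : ((x : ℝ) + l) ^ (2 * i) ≤ 2 ^ (2 * (i + 1)) :=
      (pow_le_pow_left₀ hp.le h2 _).trans (pow_le_pow_right₀ one_le_two (by omega))
    calc ((x : ℝ) + l) ^ (2 * (i + 1)) * ev x (Dn (i + 1) f) ^ 2
        = ((x : ℝ) + l) ^ (2 * i) * ev x (Dn (i + 1) f) ^ 2 * ((x : ℝ) + l) ^ 2 := by ring
      _ ≤ 2 ^ (2 * (i + 1)) * ‖((Dn (i + 1) f : SF) : CC)‖ ^ 2 * ((x : ℝ) + l) ^ 2 :=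
          mul_le_mul_of_nonneg_right (mul_le_mul h3 (tcb_sq x _) (sq_nonneg _) (by positivity)) (sq_nonneg _)
      _ ≤ _ := by gcongr; linarith

lemma tcb_lp (e : ℝ) (i : ℕ) : ∃ c : ℝ, ∀ l, 0 < l → Dn i (lp l e) = c • lp l (e - i) := by
  induction i with
  | zero => exact ⟨1, fun l _ => by simp⟩
  | succ i ih =>
    obtain ⟨c, hc⟩ := ih
    refine ⟨c * (e - i), fun l hl => ?_⟩
    rw [Dn_succ, hc l hl, D.map_smul, D_lp hl, smul_smul, Nat.cast_succ, sub_sub]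

/-- a fixed function has bounded `Tv` (`Tv_le_s`, `ℓ ≤ 2`, `abs_ev_le`) -/
lemma Tv_fixed (m : ℕ) (f : SF) : ∃ C, 0 ≤ C ∧ ∀ l, 0 < l → l ≤ 1 → ∀ x, Tv l m f x ≤ C := by
  simpa only [mul_one] using tcb_gen m (fun _ => f) (fun _ _ => 1)
    (fun i => 2 ^ (2 * i) * ‖((Dn i f : SF) : CC)‖ ^ 2) (fun i => by positivity) fun l h0 h1 x i => by
      rw [mul_one]
      exact mul_le_mul (pow_le_pow_left₀ (ell_pos h0 x).le (ell_le h1 x) _) (tcb_sq x _) (sq_nonneg _)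
        (by positivity)

/-- `q² ≤ ℓ²`, `ω(1,m) ≤ ℓ²`, `ω(2,m) ≤ ℓ⁴ ≤ 4ℓ²`, higher jets vanish -/
lemma Tv_q (m : ℕ) : ∃ C, 0 ≤ C ∧ ∀ l, 0 < l → l ≤ 1 → ∀ x : I01,
    Tv l m q x ≤ C * ((x : ℝ) + l) ^ 2 :=
  tcb_small m q fun x => ⟨ev_q_nonneg x, by rw [ev_q]; nlinarith [x.2.1]⟩
lemma Tv_X (m : ℕ) : ∃ C, 0 ≤ C ∧ ∀ l, 0 < l → l ≤ 1 → ∀ x : I01,
    Tv l m X x ≤ C * ((x : ℝ) + l) ^ 2 :=
  tcb_small m X fun x => ⟨x.2.1, le_rfl⟩
/-- `Dn i (lp l e) = c_i • lp l (e - i)` and `Tv_le_s` -/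
lemma Tv_lp (m : ℕ) (e : ℝ) : ∃ C, 0 ≤ C ∧ ∀ l, 0 < l → l ≤ 1 → ∀ x : I01,
    Tv l m (lp l e) x ≤ C * (((x : ℝ) + l) ^ e) ^ 2 := by
  choose c hc using tcb_lp e
  refine tcb_gen m (fun l => lp l e) (fun l x => (((x : ℝ) + l) ^ e) ^ 2) (fun i => c i ^ 2)
    (fun i => sq_nonneg _) fun l h0 _ x i => le_of_eq ?_
  have hp := ell_pos h0 x
  rw [hc i l h0, ev_smul, ev_lp h0, Real.rpow_sub hp, Real.rpow_natCast, pow_mul']
  field_simp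

lemma tcc_cs (s : Finset ℕ) (c a : ℕ → ℝ) {w B : ℝ} (hw : 0 ≤ w)
    (h : ∀ i ∈ s, w * a i ^ 2 ≤ B) :
    w * (∑ i ∈ s, c i * a i) ^ 2 ≤ (∑ i ∈ s, c i ^ 2) * s.card * B := by
  have h1 := Finset.sum_mul_sq_le_sq_mul_sq s c a
  have h2 : w * ∑ i ∈ s, a i ^ 2 ≤ s.card * B := by
    rw [Finset.mul_sum]
    simpa using Finset.sum_le_card_nsmul _ _ _ h
  have h3 : 0 ≤ ∑ i ∈ s, c i ^ 2 := Finset.sum_nonneg fun i _ => sq_nonneg _
  calc w * (∑ i ∈ s, c i * a i) ^ 2 ≤ w * ((∑ i ∈ s, c i ^ 2) * ∑ i ∈ s, a i ^ 2) :=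
        mul_le_mul_of_nonneg_left h1 hw
    _ = (∑ i ∈ s, c i ^ 2) * (w * ∑ i ∈ s, a i ^ 2) := by ring
    _ ≤ (∑ i ∈ s, c i ^ 2) * (s.card * B) := mul_le_mul_of_nonneg_left h2 h3
    _ = _ := by ring

lemma tcc_ev (n : ℕ) (f g : SF) (x : I01) : ev x (Dn n (f * g)) =
    ∑ i ∈ Finset.range (n + 1), (n.choose i : ℝ) * (ev x (Dn i f) * ev x (Dn (n - i) g)) := by
  rw [Dn_mul, map_sum]
  exact Finset.sum_congr rfl fun i _ => by rw [ev_smul, map_mul]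

lemma tcc_om {l : ℝ} (h0 : 0 < l) (h1 : l ≤ 1) (x : I01) {i i' n m m₁ m₂ : ℕ} (hn : n = i + i')
    (h : 2 * i - m₁ + (2 * i' - m₂) ≤ 2 * n - m) : om l n m x ≤ om l i m₁ x * om l i' m₂ x := by
  have := om_le h0 h1 x (a := min (2 * n) m) (b := 2 * n - m)
    (a' := min (2 * i) m₁ + min (2 * i') m₂) (b' := 2 * i - m₁ + (2 * i' - m₂)) (k := 0) h
    (by omega)
  unfold om
  refine this.trans (le_of_eq ?_)
  rw [pow_add, pow_add]
  ring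

lemma tcc_term {l : ℝ} (h0 : 0 < l) (h1 : l ≤ 1) (x : I01) {i i' n m m₁ m₂ : ℕ} (hn : n = i + i')
    (h : 2 * i - m₁ + (2 * i' - m₂) ≤ 2 * n - m) (hi : i ≤ m₁) (hi' : i' ≤ m₂) (f g : SF) :
    om l n m x * (ev x (Dn i f) * ev x (Dn i' g)) ^ 2 ≤ Tv l m₁ f x * Tv l m₂ g x := by
  calc om l n m x * (ev x (Dn i f) * ev x (Dn i' g)) ^ 2
      ≤ om l i m₁ x * om l i' m₂ x * (ev x (Dn i f) * ev x (Dn i' g)) ^ 2 :=
        mul_le_mul_of_nonneg_right (tcc_om h0 h1 x hn h) (sq_nonneg _)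
    _ = (om l i m₁ x * ev x (Dn i f) ^ 2) * (om l i' m₂ x * ev x (Dn i' g) ^ 2) := by ring
    _ ≤ _ := mul_le_mul (om_le_Tv h0 hi f x) (om_le_Tv h0 hi' g x)
        (mul_nonneg (om_nonneg h0 _ _ x) (sq_nonneg _)) (Tv_nonneg h0 _ f x)

lemma tcc_sum (m : ℕ) : ∃ C, 0 ≤ C ∧ ∀ l, 0 < l → ∀ (f g : SF) (x : I01) (B : ℝ),
    (∀ n, n ≤ m → ∀ i, i ≤ n → om l n m x * (ev x (Dn i f) * ev x (Dn (n - i) g)) ^ 2 ≤ B) →
    Tv l m (f * g) x ≤ C * B := by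
  refine ⟨∑ n ∈ Finset.range (m + 1), (∑ i ∈ Finset.range (n + 1), (n.choose i : ℝ) ^ 2) *
    (Finset.range (n + 1)).card, Finset.sum_nonneg fun n _ => mul_nonneg
      (Finset.sum_nonneg fun i _ => sq_nonneg _) (Nat.cast_nonneg _), fun l h0 f g x B h => ?_⟩
  unfold Tv
  rw [Finset.sum_mul]
  refine Finset.sum_le_sum fun n hn => ?_
  rw [tcc_ev]
  exact tcc_cs _ _ _ (om_nonneg h0 _ _ x) fun i hi =>
    h n (Nat.lt_succ_iff.1 (Finset.mem_range.1 hn)) i (Nat.lt_succ_iff.1 (Finset.mem_range.1 hi))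

/-- Leibniz (`Dn_mul`, Cauchy-Schwarz) with `ω(i+i',m) ≤ ω(i,m) ω(i',m)` for `i + i' ≤ m`. -/
lemma Tv_mul (m : ℕ) : ∃ C, 0 ≤ C ∧ ∀ l, 0 < l → l ≤ 1 → ∀ (f g : SF) (x : I01),
    Tv l m (f * g) x ≤ C * (Tv l m f x * Tv l m g x) := by
  obtain ⟨C, hC, h⟩ := tcc_sum m
  refine ⟨C, hC, fun l h0 h1 f g x => h l h0 f g x _ fun n hn i hi => ?_⟩
  exact tcc_term h0 h1 x (by omega) (by omega) (by omega) (by omega) f g

/-- tame Leibniz: for `i ≤ i'`, `i + i' ≤ m ≤ 2 m' + 1` one has `i ≤ m'` and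
`ω(i+i',m) ≤ ω(i,m') ω(i',m)`; symmetric for `i' ≤ i`. -/
lemma Tv_mul_tame (m m' : ℕ) (h : m ≤ 2 * m' + 1) : ∃ C, 0 ≤ C ∧ ∀ l, 0 < l → l ≤ 1 →
    ∀ (f g : SF) (x : I01),
    Tv l m (f * g) x ≤ C * (Tv l m' f x * Tv l m g x + Tv l m f x * Tv l m' g x) := by
  obtain ⟨C, hC, h'⟩ := tcc_sum m
  refine ⟨C, hC, fun l h0 h1 f g x => h' l h0 f g x _ fun n hn i hi => ?_⟩
  have p1 := mul_nonneg (Tv_nonneg h0 m' f x) (Tv_nonneg h0 m g x)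
  have p2 := mul_nonneg (Tv_nonneg h0 m f x) (Tv_nonneg h0 m' g x)
  rcases le_total i (n - i) with hle | hle
  · have := tcc_term h0 h1 x (i := i) (i' := n - i) (n := n) (m := m) (m₁ := m') (m₂ := m)
      (by omega) (by omega) (by omega) (by omega) f g
    linarith
  · have := tcc_term h0 h1 x (i := i) (i' := n - i) (n := n) (m := m) (m₁ := m) (m₂ := m')
      (by omega) (by omega) (by omega) (by omega) f g
    linarith

/-- commutator: `∑_{1 ≤ i ≤ n+1} C(n+1,i) β^{(i)} V^{(n+1-i)}`, `t_{n+1} = t_i t_{n+1-i}`, `t_le_Tv`;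
either `i ≤ m` or `n + 1 - i ≤ m`. -/
lemma Tv_comm (n m : ℕ) (h : n ≤ 2 * m) : ∃ C, 0 ≤ C ∧ ∀ l, 0 < l → l ≤ 1 →
    ∀ (β V : SF) (x : I01),
    (((x : ℝ) + l) * (x * (1 - x))) ^ (n + 1) * ev x (Dn (n + 1) (β * V) - β * Dn (n + 1) V) ^ 2 ≤
      C * (Tv l m β x * Tv l n V x + Tv l (n + 1) β x * Tv l m V x) := by
  refine ⟨(∑ i ∈ Finset.range (n + 1), ((n + 1).choose (i + 1) : ℝ) ^ 2) *
    (Finset.range (n + 1)).card, mul_nonneg (Finset.sum_nonneg fun i _ => sq_nonneg _)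
      (Nat.cast_nonneg _), fun l h0 h1 β V x => ?_⟩
  have e : ev x (Dn (n + 1) (β * V) - β * Dn (n + 1) V) = ∑ i ∈ Finset.range (n + 1),
      ((n + 1).choose (i + 1) : ℝ) * (ev x (Dn (i + 1) β) * ev x (Dn (n - i) V)) := by
    rw [map_sub, tcc_ev, Finset.sum_range_succ', map_mul]
    simp
  have ht : 0 ≤ ((x : ℝ) + l) * (x * (1 - x)) := mul_nonneg (ell_pos h0 x).le (q_nonneg x)
  rw [e]
  refine tcc_cs _ _ _ (pow_nonneg ht _) fun i hi => ?_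
  have hi' : i ≤ n := Nat.lt_succ_iff.1 (Finset.mem_range.1 hi)
  have p1 := mul_nonneg (Tv_nonneg h0 m β x) (Tv_nonneg h0 n V x)
  have p2 := mul_nonneg (Tv_nonneg h0 (n + 1) β x) (Tv_nonneg h0 m V x)
  have e2 : (((x : ℝ) + l) * (x * (1 - x))) ^ (n + 1) *
      (ev x (Dn (i + 1) β) * ev x (Dn (n - i) V)) ^ 2 =
      ((((x : ℝ) + l) * (x * (1 - x))) ^ (i + 1) * ev x (Dn (i + 1) β) ^ 2) *
        ((((x : ℝ) + l) * (x * (1 - x))) ^ (n - i) * ev x (Dn (n - i) V) ^ 2) := by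
    rw [show n + 1 = (i + 1) + (n - i) by omega, pow_add _ (i + 1) (n - i)]
    ring
  rw [e2]
  have hq : 0 ≤ (((x : ℝ) + l) * (x * (1 - x))) ^ (n - i) * ev x (Dn (n - i) V) ^ 2 :=
    mul_nonneg (pow_nonneg ht _) (sq_nonneg _)
  rcases le_or_gt (i + 1) m with hle | hle
  · have := mul_le_mul (t_le_Tv h0 hle β x) (t_le_Tv h0 (show n - i ≤ n by omega) V x) hq
      (Tv_nonneg h0 _ β x)
    linarith
  · have := mul_le_mul (t_le_Tv h0 (show i + 1 ≤ n + 1 by omega) β x)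
      (t_le_Tv h0 (show n - i ≤ m by omega) V x) hq (Tv_nonneg h0 _ β x)
    linarith

/-- the two-parameter sum -/
def td_T (l : ℝ) (m n : ℕ) (f : SF) (x : I01) : ℝ :=
  ∑ i ∈ Finset.range (n + 1), om l i m x * ev x (Dn i f) ^ 2

lemma td_le {l : ℝ} (h0 : 0 < l) (m : ℕ) {i n : ℕ} (hi : i ≤ n) (f : SF) (x : I01) :
    om l i m x * ev x (Dn i f) ^ 2 ≤ td_T l m n f x :=
  Finset.single_le_sum (f := fun i => om l i m x * ev x (Dn i f) ^ 2)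
    (fun i _ => mul_nonneg (om_nonneg h0 i m x) (sq_nonneg _))
    (Finset.mem_range.2 (Nat.lt_succ_of_le hi))

lemma td_D {l : ℝ} (h0 : 0 < l) (m n : ℕ) (f : SF) (x : I01) :
    ((x : ℝ) + l) ^ 2 * td_T l m n (D f) x ≤ td_T l (m + 2) (n + 1) f x := by
  rw [td_T, td_T, Finset.sum_range_succ' _ (n + 1), Finset.mul_sum]
  refine le_add_of_le_of_nonneg (le_of_eq (Finset.sum_congr rfl fun i _ => ?_))
    (mul_nonneg (om_nonneg h0 _ _ x) (sq_nonneg _))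
  rw [Dn_succ', om, om, show min (2 * (i + 1)) (m + 2) = min (2 * i) m + 2 by omega,
    show 2 * (i + 1) - (m + 2) = 2 * i - m by omega]
  ring

lemma td_form (j i : ℕ) : ∃ (A : SF) (c b : ℝ), D A = c • 1 ∧ (i = 0 → b = 0) ∧
    ∀ f : SF, Dn i (dl j f) = q * Dn (i + 1) f + A * Dn i f + b • Dn (i - 1) f := by
  induction i with
  | zero =>
    refine ⟨pp j, -((10 + j : ℕ) : ℝ) - ((j + 1 : ℕ) : ℝ), 0, ?_, fun _ => rfl, fun f => ?_⟩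
    · simp only [pp, map_sub, Derivation.map_smul, Derivation.map_one_eq_zero, D_X]
      module
    · rw [Dn_zero, dl_apply, Dn_succ, Dn_zero, zero_smul, add_zero]
  | succ i ih =>
    obtain ⟨A, c, b, h1, h2, h3⟩ := ih
    refine ⟨A + D q, c - 2, b + c, ?_, fun h => absurd h i.succ_ne_zero, fun f => ?_⟩
    · have e : D q = 1 - X - X := by
        rw [q, D_mul, map_sub, Derivation.map_one_eq_zero, D_X]
        ring
      rw [map_add, h1, e, map_sub, map_sub, Derivation.map_one_eq_zero, D_X]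
      module
    · have h4 : b • D (Dn (i - 1) f) = b • Dn i f := by
        rcases i with _ | i
        · rw [h2 rfl, zero_smul, zero_smul]
        · rw [Nat.add_sub_cancel, Dn_succ]
      rw [Dn_succ, h3, map_add, map_add, D_mul, D_mul, Derivation.map_smul, h4, h1, ← Dn_succ,
        ← Dn_succ, Nat.add_sub_cancel, smul_one_mul, add_smul]
      ring

lemma td_dl (j m n : ℕ) : ∃ C, 0 ≤ C ∧ ∀ l, 0 < l → l ≤ 1 → ∀ (f : SF) (x : I01),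
    td_T l m n (dl j f) x ≤ C * td_T l m (n + 1) f x := by
  choose A c b _ _ h using td_form j
  refine ⟨∑ i ∈ Finset.range (n + 1), 3 * (1 + ‖(A i : CC)‖ ^ 2 + 4 * b i ^ 2), by positivity,
    fun l h0 h1 f x => ?_⟩
  rw [Finset.sum_mul]
  refine Finset.sum_le_sum fun i hi => ?_
  have hi' := Finset.mem_range.1 hi
  have a1 := td_le h0 m (i := i + 1) (n := n + 1) (by omega) f x
  have a2 := td_le h0 m (i := i) (n := n + 1) (by omega) f x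
  have a3 := td_le h0 m (i := i - 1) (n := n + 1) (by omega) f x
  have w0 := om_nonneg h0 i m x
  have b1 : om l i m x * ((x : ℝ) * (1 - x)) ^ 2 ≤ om l (i + 1) m x := by
    have := om_le h0 h1 x (a := min (2 * i) m) (b := 2 * i - m + 2) (a' := min (2 * (i + 1)) m)
      (b' := 2 * (i + 1) - m) (k := 0) (by omega) (by omega)
    rw [pow_zero, one_mul, pow_add, ← mul_assoc] at this
    exact this
  have b2 : ev x (A i) ^ 2 ≤ ‖(A i : CC)‖ ^ 2 := sq_le_sq' (abs_le.1 (abs_ev_le x _)).1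
    (abs_le.1 (abs_ev_le x _)).2
  have b3 : om l i m x ≤ 4 * om l (i - 1) m x := by
    rcases i with _ | i
    · rw [Nat.zero_sub]
      linarith
    · have := om_le h0 h1 x (a := min (2 * (i + 1)) m) (b := 2 * (i + 1) - m) (a' := min (2 * i) m)
        (b' := 2 * i - m) (k := 2) (by omega) (by omega)
      rw [show (2 : ℝ) ^ 2 = 4 by norm_num] at this
      exact this
  rw [h, map_add, map_add, map_mul, map_mul, ev_smul, ev_q]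
  generalize ev x (Dn (i + 1) f) = F₁ at *
  generalize ev x (Dn i f) = F₂ at *
  generalize ev x (Dn (i - 1) f) = F₃ at *
  generalize td_T l m (n + 1) f x = T at *
  generalize (x : ℝ) * (1 - x) = Q at *
  have c1 : om l i m x * (Q * F₁) ^ 2 ≤ T := by
    have := mul_le_mul_of_nonneg_right b1 (sq_nonneg F₁)
    linarith
  have c2 : om l i m x * (ev x (A i) * F₂) ^ 2 ≤ ‖(A i : CC)‖ ^ 2 * T := by
    have := mul_le_mul b2 a2 (by positivity) (by positivity)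
    linarith
  have c3 : om l i m x * (b i * F₃) ^ 2 ≤ 4 * b i ^ 2 * T := by
    have e1 := mul_le_mul_of_nonneg_right b3 (sq_nonneg F₃)
    have := mul_le_mul_of_nonneg_left (show om l i m x * F₃ ^ 2 ≤ 4 * T by linarith)
      (sq_nonneg (b i))
    linarith
  have c4 : (Q * F₁ + ev x (A i) * F₂ + b i * F₃) ^ 2 ≤
      3 * ((Q * F₁) ^ 2 + (ev x (A i) * F₂) ^ 2 + (b i * F₃) ^ 2) := by
    generalize Q * F₁ = u
    generalize ev x (A i) * F₂ = v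
    generalize b i * F₃ = w
    nlinarith [sq_nonneg (u - v), sq_nonneg (u - w), sq_nonneg (v - w)]
  have := mul_le_mul_of_nonneg_left c4 w0
  linarith

/-- Use the two-parameter sum `T(m,n) f = ∑_{i ≤ n} ω(i,m) (f^{(i)})²`:
`ℓ² T(m,n)(D f) ≤ T(m+2,n+1) f` (`ℓ² ω(i,m) = ω(i+1,m+2)`), and `T(m,n)(δ_j f) ≤ C T(m,n+1) f`
(`Dn (i+1) (q f') = q f^{(i+2)} + ...` three terms, `q² ω(i,m) ≤ ω(i+1,m)`, `ω(i+1,m) ≤ 4 ω(i,m)`).
Then `𝓑 = D D δ_0 δ_1`. -/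
lemma Tv_Bop (m : ℕ) : ∃ C, 0 ≤ C ∧ ∀ l, 0 < l → l ≤ 1 → ∀ (G : SF) (x : I01),
    ((x : ℝ) + l) ^ 4 * Tv l m (Bop G) x ≤ C * Tv l (m + 4) G x := by
  obtain ⟨C₁, h₁, k₁⟩ := td_dl 0 (m + 4) (m + 2)
  obtain ⟨C₂, h₂, k₂⟩ := td_dl 1 (m + 4) (m + 3)
  refine ⟨C₁ * C₂, mul_nonneg h₁ h₂, fun l h0 h1 G x => ?_⟩
  have e : Bop G = D (D (dl 0 (dl 1 G))) := by rw [Bop_apply, Dn_succ, Dn_one, Aop_apply]
  calc _ = ((x : ℝ) + l) ^ 2 * (((x : ℝ) + l) ^ 2 * td_T l m m (D (D (dl 0 (dl 1 G)))) x) := by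
        rw [e, ← mul_assoc, ← pow_add]
        rfl
    _ ≤ ((x : ℝ) + l) ^ 2 * td_T l (m + 2) (m + 1) (D (dl 0 (dl 1 G))) x :=
        mul_le_mul_of_nonneg_left (td_D h0 _ _ _ x) (sq_nonneg _)
    _ ≤ td_T l (m + 4) (m + 2) (dl 0 (dl 1 G)) x := td_D h0 _ _ _ x
    _ ≤ C₁ * td_T l (m + 4) (m + 3) (dl 1 G) x := k₁ l h0 h1 _ x
    _ ≤ C₁ * (C₂ * td_T l (m + 4) (m + 4) G x) := mul_le_mul_of_nonneg_left (k₂ l h0 h1 _ x) h₁
    _ = _ := (mul_assoc _ _ _).symm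

end Crest.Agent.R213
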