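import Crest.Agent.R213.En

/-! Row 213: cut-offs, the transfer operators between scales, point functionals, sections. -/

set_option autoImplicit false
open Set Filter Topology
open scoped ContDiff

noncomputable section
namespace Crest.Agent.R213

/-- inner, outer and low (squared) norms at scale `l` -/
def II (l : ℝ) (G : SF) : ℝ := l * QQ l 1 G
def OO (l : ℝ) (G : SF) : ℝ := QQ l 0 G
def LL (l : ℝ) (G : SF) : ℝ := l ^ 3 * tp l 0 3 G

lemma II_nonneg {l : ℝ} (h0 : 0 < l) (G : SF) : 0 ≤ II l G := mul_nonneg h0.le (QQ_nonneg ..)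
lemma OO_nonneg (l : ℝ) (G : SF) : 0 ≤ OO l G := QQ_nonneg ..
lemma LL_nonneg {l : ℝ} (h0 : 0 < l) (G : SF) : 0 ≤ LL l G :=
  mul_nonneg (pow_pos h0 3).le (tp_nonneg ..)
lemma II_le_OO {l : ℝ} (h0 : 0 < l) (G : SF) : II l G ≤ OO l G := by
  have h1 := tp_succ_le h0 0 0 G
  have h2 := tp_succ_le h0 40 0 G
  rw [zero_add] at h1 h2
  rw [II, OO, QQ, QQ]
  linarith
lemma LL_le_II {l : ℝ} (h0 : 0 < l) (G : SF) : LL l G ≤ II l G := by
  have h1 := tp_succ_le h0 0 1 G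
  have h2 := tp_succ_le h0 0 2 G
  norm_num only at h1 h2
  have h3 := mul_le_mul_of_nonneg_left h1 h0.le
  have h4 := mul_le_mul_of_nonneg_left h2 (sq_nonneg l)
  have h5 := mul_nonneg h0.le (tp_nonneg l 40 1 G)
  rw [II, LL, QQ]
  linarith
lemma II_add {l : ℝ} (h0 : 0 < l) (f g : SF) : II l (f + g) ≤ 2 * II l f + 2 * II l g := by
  have h1 := mul_le_mul_of_nonneg_left (tp_add l 0 1 f g) h0.le
  have h2 := mul_le_mul_of_nonneg_left (tp_add l 40 1 f g) h0.le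
  simp only [II, QQ]
  linarith
lemma II_sub {l : ℝ} (h0 : 0 < l) (f g : SF) : II l (f - g) ≤ 2 * II l f + 2 * II l g := by
  have h := II_add h0 f ((-1 : ℝ) • g)
  have e : II l ((-1 : ℝ) • g) = II l g := by simp only [II, QQ, tp_smul]; ring
  rwa [e, neg_one_smul, ← sub_eq_add_neg] at h

/-- the seminorm of a positive semidefinite symmetric form (`Seminorm.of`, Cauchy-Schwarz through
the discriminant) -/
lemma exists_seminorm {E : Type} [AddCommGroup E] [Module ℝ E] (B : E →ₗ[ℝ] E →ₗ[ℝ] ℝ)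
    (hs : ∀ u v, B u v = B v u) (hp : ∀ u, 0 ≤ B u u) :
    ∃ N : Seminorm ℝ E, ∀ u, N u = √(B u u) := by
  have cs : ∀ u v, B u v ≤ √(B u u) * √(B v v) := fun u v => by
    have h := discrim_le_zero (a := B v v) (b := 2 * B u v) (c := B u u) fun t => by
      have := hp (u + t • v)
      simp only [map_add, map_smul, LinearMap.add_apply, LinearMap.smul_apply, smul_eq_mul,
        hs v u] at this
      linarith
    rw [← Real.sqrt_mul (hp u)]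
    refine Real.le_sqrt_of_sq_le ?_
    rw [discrim] at h
    linarith
  refine ⟨Seminorm.of (fun u => √(B u u)) (fun u v => ?_) fun a u => ?_, fun _ => rfl⟩
  · refine Real.sqrt_le_iff.2 ⟨by positivity, ?_⟩
    simp only [map_add, LinearMap.add_apply, hs v u, add_sq, Real.sq_sqrt (hp _)]
    linarith [cs u v]
  · simp only [map_smul, LinearMap.smul_apply, smul_eq_mul]
    rw [← mul_assoc, Real.sqrt_mul (mul_self_nonneg a), Real.sqrt_mul_self_eq_abs, Real.norm_eq_abs]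

lemma tra_form {l : ℝ} (h0 : 0 < l) : ∃ B : SF →ₗ[ℝ] SF →ₗ[ℝ] ℝ, (∀ u v, B u v = B v u) ∧
    ∀ u, B u u = II l u :=
  ⟨l • (pair l 0 1 + pair l 40 1), fun u v => by
    simp only [LinearMap.smul_apply, LinearMap.add_apply, pair_comm l _ _ u v], fun _ => rfl⟩
lemma exists_N {l : ℝ} (h0 : 0 < l) : ∃ N : Seminorm ℝ SF, ∀ u, N u = √(II l u) := by
  obtain ⟨B, hs, hB⟩ := tra_form h0
  simpa only [hB] using exists_seminorm B hs fun u => hB u ▸ II_nonneg h0 u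
lemma exists_O (l : ℝ) : ∃ N : Seminorm ℝ SF, ∀ u, N u = √(OO l u) := by
  exact exists_seminorm (pair l 0 0 + pair l 40 0)
    (fun u v => by simp only [LinearMap.add_apply, pair_comm l _ _ u v]) (OO_nonneg l)
lemma exists_L {l : ℝ} (h0 : 0 < l) : ∃ N : Seminorm ℝ SF, ∀ u, N u = √(LL l u) := by
  exact exists_seminorm (l ^ 3 • pair l 0 3)
    (fun u v => by simp only [LinearMap.smul_apply, pair_comm l _ _ u v]) (LL_nonneg h0)

/-- `1` on `[0,c]`, `0` on `[2c,1]` -/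
def cut (c : ℝ) : SF := mk (fun x => Real.smoothTransition (2 - x / c))
  (Real.smoothTransition.contDiff.comp (contDiff_const.sub (contDiff_id.div_const c))).contDiffOn

/-- smooth on `x < 1`, and zero near `1` -/
lemma contDiffOn_cutd {c : ℝ} (h0 : 0 < c) (h1 : c < 1 / 2) :
    ContDiffOn ℝ ∞ (fun x : ℝ => Real.smoothTransition (2 - x / c) / (1 - x) ^ 2) I01 := by
  intro x hx
  refine ContDiffAt.contDiffWithinAt ?_
  rcases lt_or_ge x 1 with h | h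
  · exact (Real.smoothTransition.contDiff.comp
      (contDiff_const.sub (contDiff_id.div_const c))).contDiffAt.div
      ((contDiff_const.sub contDiff_id).pow 2).contDiffAt (pow_ne_zero 2 (sub_pos.2 h).ne')
  · refine (contDiffAt_const (c := (0 : ℝ))).congr_of_eventuallyEq ?_
    filter_upwards [Ioi_mem_nhds (show 2 * c < x by linarith)] with y hy
    have : 2 - y / c ≤ 0 := by
      rw [sub_nonpos, le_div_iff₀ h0]; exact le_of_lt hy
    rw [Real.smoothTransition.zero_of_nonpos this, zero_div]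

/-- `χ` -/
def chi : SF := cut (1 / 4)
/-- `χ / (1-x)²` -/
def chid : SF := mk _ (contDiffOn_cutd (c := 1 / 4) (by norm_num) (by norm_num))
/-- `κ / (1-x)²` -/
def kapd : SF := mk _ (contDiffOn_cutd (c := 1 / 8) (by norm_num) (by norm_num))

lemma ev_cut_one {c : ℝ} (h0 : 0 < c) {x : I01} (hx : (x : ℝ) ≤ c) : ev x (cut c) = 1 := by
  refine Real.smoothTransition.one_of_one_le ?_
  have : (x : ℝ) / c ≤ 1 := (div_le_one h0).2 hx
  linarith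
lemma ev_cut_zero {c : ℝ} (h0 : 0 < c) {x : I01} (hx : 2 * c ≤ x) : ev x (cut c) = 0 := by
  refine Real.smoothTransition.zero_of_nonpos ?_
  rw [sub_nonpos, le_div_iff₀ h0]; exact hx
lemma ev_cut_mem (c : ℝ) (x : I01) : 0 ≤ ev x (cut c) ∧ ev x (cut c) ≤ 1 := by
  exact ⟨Real.smoothTransition.nonneg _, Real.smoothTransition.le_one _⟩
lemma ev_chid (x : I01) : ev x chid = ev x chi / (1 - x) ^ 2 := rfl
lemma ev_kapd (x : I01) : ev x kapd = ev x (cut (1 / 8)) / (1 - x) ^ 2 := rfl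
lemma trb_cancel {c : ℝ} (h0 : 0 < c) (h1 : 2 * c ≤ 1) (x : I01) :
    ev x (cut c) / (1 - x) ^ 2 * (1 - x) ^ 2 = ev x (cut c) := by
  rcases eq_or_ne (1 - (x : ℝ)) 0 with h | h
  · rw [ev_cut_zero h0 (by linarith), zero_div, zero_mul]
  · exact div_mul_cancel₀ _ (pow_ne_zero 2 h)

lemma chid_mul : chid * (1 - X) ^ 2 = chi := by
  refine SF.ext' fun x => ?_
  rw [map_mul, map_pow, map_sub, map_one, ev_X, ev_chid]
  exact trb_cancel (c := 1 / 4) (by norm_num) (by norm_num) x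
lemma kapd_mul : kapd * (1 - X) ^ 2 = cut (1 / 8) := by
  refine SF.ext' fun x => ?_
  rw [map_mul, map_pow, map_sub, map_one, ev_X, ev_kapd]
  exact trb_cancel (c := 1 / 8) (by norm_num) (by norm_num) x

lemma trb_ext_zero {c : ℝ} {g : SF} (h : Van c g) (hc : c ≤ 1) {y : ℝ} (hy : c ≤ y) :
    ext (g : CC) y = 0 :=
  h (projIcc 0 1 zero_le_one y) (le_max_of_le_right (le_min hc hy))

lemma trb_van_chi (f : SF) : Van (1 / 2) (chi * f) := fun x hx => by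
  rw [map_mul, chi, ev_cut_zero (by norm_num) (by linarith), zero_mul]

lemma trb_der {g : SF} (h : Van (1 / 2) g) {y : ℝ} (hy : 0 ≤ y) :
    HasDerivWithinAt (ext (g : CC)) (ext ((D g : SF) : CC) y) (Ici 0) y := by
  rcases lt_or_ge y 1 with h1 | h1
  · rw [ext_eq_ev _ ⟨hy, h1.le⟩]
    refine (hasDeriv_ext g ⟨y, hy, h1.le⟩).mono_of_mem_nhdsWithin ?_
    exact mem_of_superset (inter_mem_nhdsWithin _ (Iic_mem_nhds h1)) fun z hz => ⟨hz.1, hz.2⟩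
  · rw [trb_ext_zero (h.D (by norm_num)) (by norm_num) (by linarith)]
    refine ((hasDerivAt_const y (0 : ℝ)).congr_of_eventuallyEq ?_).hasDerivWithinAt
    filter_upwards [Ioi_mem_nhds (show 1 / 2 < y by linarith)] with z hz
    exact trb_ext_zero h (by norm_num) (le_of_lt hz)

lemma trb_jets (f : SF) {r : ℝ} (hr : 0 ≤ r) (i : ℕ) (x : ℝ) (hx : x ∈ I01) :
    HasDerivWithinAt (fun y => r ^ i * ext ((Dn i (chi * f) : SF) : CC) (r * y))
      (r ^ (i + 1) * ext ((Dn (i + 1) (chi * f) : SF) : CC) (r * x)) I01 x := by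
  have h1 := trb_der ((trb_van_chi f).Dn (by norm_num) i) (mul_nonneg hr hx.1)
  have h2 : HasDerivWithinAt (fun y : ℝ => r * y) r I01 x := by
    simpa using ((hasDerivAt_id x).const_mul r).hasDerivWithinAt
  have h3 := (h1.comp x h2 fun y hy => mul_nonneg hr hy.1).const_mul (r ^ i)
  rw [Dn_succ]
  exact h3.congr_deriv (by ring)

/-- `ext (χ f)` is smooth on `Ici 0` (it vanishes on `Ici (1/2)`) -/
lemma contDiffOn_Sc (f : SF) {r : ℝ} (hr : 0 ≤ r) :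
    ContDiffOn ℝ ∞ (fun x : ℝ => ext ((chi * f : SF) : CC) (r * x)) I01 := by
  have := contDiffOn_of_jets (fun i y => r ^ i * ext ((Dn i (chi * f) : SF) : CC) (r * y))
    (trb_jets f hr) 0
  simpa using this

/-- `(Sc r f)(x) = (χ f)(r x)`, extended by zero -/
def Sc (r : ℝ) : SF →ₗ[ℝ] SF where
  toFun f := mk _ (contDiffOn_Sc f (le_max_right r 0))
  map_add' f g := SF.ext' fun x => by
    simp only [ev_mk, map_add, mul_add]; rfl
  map_smul' c f := SF.ext' fun x => by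
    simp only [ev_mk, RingHom.id_apply, ev_smul, mul_smul_comm]; rfl

lemma ev_Sc {r : ℝ} (hr : 0 ≤ r) (f : SF) (x : I01) :
    ev x (Sc r f) = ext ((chi * f : SF) : CC) (r * x) := by
  change ext ((chi * f : SF) : CC) (max r 0 * (x : ℝ)) = _
  rw [max_eq_left hr]

/-- jets of `Sc` (for `r x > 1` both sides vanish because `Van (1/2) (Dn i (χ f))`) -/
lemma ev_Dn_Sc {r : ℝ} (hr : 0 ≤ r) (f : SF) (i : ℕ) (x : I01) :
    ev x (Dn i (Sc r f)) = r ^ i * ext ((Dn i (chi * f) : SF) : CC) (r * x) := by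
  have h : Sc r f = ofJets (fun i y => r ^ i * ext ((Dn i (chi * f) : SF) : CC) (r * y))
      (trb_jets f hr) := by
    refine SF.ext' fun y => ?_
    have := ev_Dn_ofJets (fun i y => r ^ i * ext ((Dn i (chi * f) : SF) : CC) (r * y))
      (trb_jets f hr) 0 y
    rw [Dn_zero] at this
    rw [this, ev_Sc hr, pow_zero, one_mul, Dn_zero]
  rw [h, ev_Dn_ofJets]

/-- transfer from scale `r l` to scale `l` -/
def Tr (r : ℝ) : SF →ₗ[ℝ] SF :=
  r • (LinearMap.mulLeft ℝ kapd ∘ₗ Sc r ∘ₗ LinearMap.mulLeft ℝ ((1 - X) ^ 2))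

lemma Tr_apply (r : ℝ) (G : SF) : Tr r G = r • (kapd * Sc r ((1 - X) ^ 2 * G)) := rfl

lemma Tr_van (r : ℝ) (G : SF) : Van (1 / 4) (Tr r G) := by
  intro x hx
  rw [Tr_apply, ev_smul, map_mul, ev_kapd, ev_cut_zero (by norm_num) (by linarith), zero_div,
    zero_mul, mul_zero]

lemma trb_ev_Tr {r : ℝ} (hr : 0 ≤ r) (G : SF) {x : I01} (hx : (x : ℝ) ≤ 1 / 8) :
    ev x ((1 - X) ^ 2 * Tr r G) = r * ext ((chi * ((1 - X) ^ 2 * G) : SF) : CC) (r * x) := by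
  rw [Tr_apply, mul_smul_comm, ← mul_assoc, mul_comm _ kapd, kapd_mul, ev_smul, map_mul,
    ev_cut_one (by norm_num) hx, one_mul, ev_Sc hr]

lemma trb_key {r' : ℝ} (hr' : 2 ≤ r') {ψ : SF} (h : Van (1 / 4) ψ) {y : ℝ} (hy : 0 ≤ y) :
    ext ((chi * ((1 - X) ^ 2 * Tr r' ψ) : SF) : CC) y =
      r' * ext ((chi * ((1 - X) ^ 2 * ψ) : SF) : CC) (r' * y) := by
  have hv : Van (1 / 4) (chi * ((1 - X) ^ 2 * ψ)) := fun x hx => by
    rw [map_mul, map_mul, h x hx, mul_zero, mul_zero]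
  rcases le_total y (1 / 8) with h1 | h1
  · have hyI : y ∈ I01 := ⟨hy, by linarith⟩
    rw [ext_eq_ev _ hyI, map_mul, trb_ev_Tr (by linarith) ψ h1, chi,
      ev_cut_one (by norm_num) (show y ≤ 1 / 4 by linarith), one_mul]
  · have hw : Van (1 / 8) (chi * ((1 - X) ^ 2 * Tr r' ψ)) := fun x hx => by
      rw [map_mul, map_mul, Tr_apply, ev_smul, map_mul, ev_Sc (by linarith),
        trb_ext_zero hv (by norm_num) (by nlinarith)]
      simp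
    rw [trb_ext_zero hw (by norm_num) h1, trb_ext_zero hv (by norm_num) (by nlinarith), mul_zero]

lemma Tr_Tr {r r' : ℝ} (hr : 0 < r) (hr' : 2 ≤ r') {ψ : SF} (h : Van (1 / 4) ψ) :
    Tr r (Tr r' ψ) = Tr (r * r') ψ := by
  refine SF.ext' fun x => ?_
  rw [Tr_apply r, Tr_apply (r * r'), ev_smul, ev_smul, map_mul (ev x), map_mul (ev x), ev_Sc hr.le,
    ev_Sc (by positivity), trb_key hr' h (mul_nonneg hr.le x.2.1),
    show r' * (r * (x : ℝ)) = r * r' * x by ring]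
  ring

/-- `f ↦ (x ↦ ext f (r x))` -/
def trc_L (r : ℝ) : CC →L[ℝ] CC :=
  LinearMap.mkContinuous
    { toFun := fun f => ⟨fun x => ext f (r * x), (continuous_ext f).comp (by fun_prop)⟩
      map_add' := fun _ _ => rfl
      map_smul' := fun _ _ => rfl } 1
    fun f => by
      rw [one_mul]
      exact (ContinuousMap.norm_le _ (norm_nonneg f)).2 fun x => f.norm_coe_le_norm _

/-- `f ↦ (x ↦ ext f (r x))` is a continuous linear map of `CC`; `ev_Dn_Sc` -/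
lemma JD.Sc {G : ℝ → SF} {U : SF} {s : Set ℝ} {t r : ℝ} (hr : 0 ≤ r) (h : JD G U s t) :
    JD (fun τ => Sc r (G τ)) (Sc r U) s t := by
  intro i
  have e : ∀ f : SF, ((R213.Dn i (R213.Sc r f) : SF) : CC) =
      r ^ i • trc_L r ((R213.Dn i (chi * f) : SF) : CC) :=
    fun f => ContinuousMap.ext fun x => ev_Dn_Sc hr f i x
  simp only [e]
  exact ((trc_L r).hasFDerivAt.comp_hasDerivWithinAt t (h.const_mul chi i)).const_smul (r ^ i)
lemma JD.Tr {G : ℝ → SF} {U : SF} {s : Set ℝ} {t r : ℝ} (hr : 0 ≤ r) (h : JD G U s t) :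
    JD (fun τ => Tr r (G τ)) (Tr r U) s t := by
  exact (((h.const_mul ((1 - X) ^ 2)).Sc hr).const_mul kapd).smul r

lemma trc_om {l r : ℝ} (h0 : 0 < l) (hr : 0 < r) {i m : ℕ} (hi : i ≤ m) {x y : I01}
    (hy : (y : ℝ) = r * x) (hy' : (y : ℝ) ≤ 1 / 2) :
    om l i m x * (r ^ i) ^ 2 ≤ 2 ^ m * om (r * l) i m y := by
  have h1 : r * ((x : ℝ) * (1 - x)) ≤ 2 * ((y : ℝ) * (1 - y)) := by
    rw [← mul_assoc, ← hy]
    nlinarith [mul_nonneg y.2.1 x.2.1, mul_nonneg y.2.1 (sub_nonneg.2 hy')]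
  have h2 : (r ^ i) ^ 2 = r ^ min (2 * i) m * r ^ (2 * i - m) := by
    rw [← pow_mul, ← pow_add]
    congr 1
    omega
  have h3 := ell_pos (mul_pos hr h0) y
  have h4 := q_nonneg x
  have h5 := q_nonneg y
  calc om l i m x * (r ^ i) ^ 2
      = ((y : ℝ) + r * l) ^ min (2 * i) m * (r * ((x : ℝ) * (1 - x))) ^ (2 * i - m) := by
        rw [om, h2, hy, ← mul_add, mul_pow r, mul_pow r]
        ring
    _ ≤ ((y : ℝ) + r * l) ^ min (2 * i) m * (2 * ((y : ℝ) * (1 - y))) ^ (2 * i - m) := by gcongr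
    _ = 2 ^ (2 * i - m) * om (r * l) i m y := by
        rw [om, mul_pow 2]
        ring
    _ ≤ _ := mul_le_mul_of_nonneg_right (pow_le_pow_right₀ one_le_two (by omega))
        (om_nonneg (mul_pos hr h0) i m y)

lemma trc_Sc {l r : ℝ} (h0 : 0 < l) (hr : 0 < r) (m : ℕ) (f : SF) {x y : I01}
    (hy : (y : ℝ) = r * x) (hy' : (y : ℝ) ≤ 1 / 2) :
    Tv l m (Sc r f) x ≤ 2 ^ m * Tv (r * l) m (chi * f) y := by
  rw [Tv, Tv, Finset.mul_sum]
  refine Finset.sum_le_sum fun i hi => ?_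
  rw [ev_Dn_Sc hr.le, ← hy, ext_coe, ← ev_def, mul_pow, ← mul_assoc, ← mul_assoc]
  exact mul_le_mul_of_nonneg_right (trc_om h0 hr (Nat.lt_succ_iff.1 (Finset.mem_range.1 hi)) hy hy')
    (sq_nonneg _)

/-- Pointwise scaling.  For `x ≤ 1/4`, `y = r x ≤ 1/2`: `ℓ_{rl}(y) = r ℓ_l(x)`, `r q(x) ≤ 2 q(y)`, so
`r^{2i} ω_l(i,m)(x) ≤ 2^m ω_{rl}(i,m)(y)`; `Tv_mul`, `Tv_fixed` for `kapd` and `χ (1-X)²`. -/
lemma Tv_Tr (m : ℕ) : ∃ C, 0 ≤ C ∧ ∀ l r, 0 < l → l ≤ 1 → 0 < r → r * l ≤ 1 → ∀ (G : SF) (x y : I01),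
    (y : ℝ) = r * x → (x : ℝ) ≤ 1 / 4 → (y : ℝ) ≤ 1 / 2 →
    Tv l m (Tr r G) x ≤ C * r ^ 2 * Tv (r * l) m G y := by
  obtain ⟨C, hC, hm⟩ := Tv_mul m
  obtain ⟨C₁, hC₁, h₁⟩ := Tv_fixed m kapd
  obtain ⟨C₂, hC₂, h₂⟩ := Tv_fixed m (chi * (1 - X) ^ 2)
  refine ⟨C * C₁ * 2 ^ m * C * C₂, by positivity, fun l r h0 h1 hr hrl G x y hy _ hy' => ?_⟩
  have h0' := mul_pos hr h0
  have a1 := hm (r * l) h0' hrl (chi * (1 - X) ^ 2) G y
  have a2 := trc_Sc h0 hr m ((1 - X) ^ 2 * G) hy hy'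
  have a3 := h₁ l h0 h1 x
  have a4 := h₂ (r * l) h0' hrl y
  have a5 := Tv_nonneg h0' m G y
  have a6 := Tv_nonneg h0 m (Sc r ((1 - X) ^ 2 * G)) x
  rw [← mul_assoc chi] at a2
  rw [Tr_apply, Tv_smul]
  calc _ ≤ r ^ 2 * (C * (Tv l m kapd x * Tv l m (Sc r ((1 - X) ^ 2 * G)) x)) :=
        mul_le_mul_of_nonneg_left (hm l h0 h1 _ _ x) (sq_nonneg r)
    _ ≤ r ^ 2 * (C * (C₁ * (2 ^ m * (C * (C₂ * Tv (r * l) m G y))))) := by
        gcongr
        refine a2.trans ?_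
        gcongr
        refine a1.trans ?_
        gcongr
    _ = _ := by ring
lemma Tv_Tr_zero (m : ℕ) {l r : ℝ} (hr : 0 < r) (G : SF) (x : I01)
    (hx : 1 / 4 ≤ (x : ℝ) ∨ 1 / 2 ≤ r * x) : Tv l m (Tr r G) x = 0 := by
  refine Finset.sum_eq_zero fun i _ => ?_
  suffices ev x (Dn i (Tr r G)) = 0 by rw [this]; ring
  rcases hx with hx | hx
  · exact (Tr_van r G).Dn (by norm_num) i x hx
  · rw [Tr_apply, map_smul, ev_smul, tcc_ev, Finset.sum_eq_zero, mul_zero]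
    intro j _
    have hv : Van (1 / 2) (chi * ((1 - X) ^ 2 * G)) := fun z hz => by
      rw [map_mul, chi, ev_cut_zero (by norm_num) (by linarith), zero_mul]
    have : ext ((Dn (i - j) (chi * ((1 - X) ^ 2 * G)) : SF) : CC) (r * x) = 0 :=
      hv.Dn (by norm_num) (i - j) (projIcc 0 1 zero_le_one (r * x))
        (le_max_of_le_right (le_min (by norm_num) hx))
    rw [ev_Dn_Sc hr.le, this, mul_zero, mul_zero, mul_zero]

lemma d_W {l r : ℝ} (h0 : 0 < l) (hr : 0 < r) (b : ℝ) (x y : I01) (hy : (y : ℝ) = r * x)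
    (h2 : (y : ℝ) ≤ 1 / 2) : ev x (W l b) ≤ 4 * r ^ (b - 1) * ev y (W (r * l) b) := by
  have hx0 := x.2.1
  have hx1 := x.2.2
  have hy0 := y.2.1
  have e : r ^ (b - 1) * (r ^ 11 * r ^ (-10 - b)) = 1 := by
    rw [← Real.rpow_natCast, ← Real.rpow_add hr, ← Real.rpow_add hr,
      show b - 1 + (((11 : ℕ) : ℝ) + (-10 - b)) = 0 by push_cast; ring, Real.rpow_zero]
  have h1 : (1 - (x : ℝ)) ^ 2 ≤ 4 * (1 - (y : ℝ)) ^ 2 := by nlinarith
  have hp : 0 ≤ (x : ℝ) ^ 11 * ((x : ℝ) + l) ^ (-10 - b) := by positivity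
  rw [ev_W h0, ev_W (mul_pos hr h0), show (y : ℝ) + r * l = r * (x + l) by rw [hy]; ring,
    Real.mul_rpow hr.le (by positivity), show (y : ℝ) ^ 11 = r ^ 11 * (x : ℝ) ^ 11 by rw [hy]; ring]
  calc _ = (x : ℝ) ^ 11 * ((x : ℝ) + l) ^ (-10 - b) * (1 - (x : ℝ)) ^ 2 := by ring
    _ ≤ (x : ℝ) ^ 11 * ((x : ℝ) + l) ^ (-10 - b) * (4 * (1 - (y : ℝ)) ^ 2) :=
      mul_le_mul_of_nonneg_left h1 hp
    _ = r ^ (b - 1) * (r ^ 11 * r ^ (-10 - b)) *
        ((x : ℝ) ^ 11 * ((x : ℝ) + l) ^ (-10 - b) * (4 * (1 - (y : ℝ)) ^ 2)) := by rw [e, one_mul]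
    _ = _ := by ring

lemma d_subst {f g : SF} {r a K : ℝ} (hr : 0 < r) (ha0 : 0 ≤ a) (ha : a ≤ 1) (hra : r * a ≤ 1)
    (hK : 0 ≤ K) (hg : ∀ y, 0 ≤ ev y g) (h0 : ∀ x : I01, a ≤ x → ev x f = 0)
    (h1 : ∀ x y : I01, (y : ℝ) = r * x → (x : ℝ) ≤ a → ev x f ≤ K * r * ev y g) :
    ig f ≤ K * ig g := by
  have cf := continuous_ext (f : CC)
  have cg := continuous_ext (g : CC)
  have hg' : ∀ y, 0 ≤ ext (g : CC) y := fun y => hg (projIcc 0 1 zero_le_one y)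
  have e1 : ∫ x in a..1, ext (f : CC) x = 0 := by
    rw [intervalIntegral.integral_congr (g := fun _ => (0 : ℝ)) fun x hx => ?_]
    · simp
    · rw [uIcc_of_le ha] at hx
      rw [ext_eq_ev f ⟨ha0.trans hx.1, hx.2⟩]
      exact h0 _ hx.1
  have e2 : ∫ x in (0 : ℝ)..a, ext (f : CC) x ≤ ∫ x in (0 : ℝ)..a, K * r * ext (g : CC) (r * x) :=
    intervalIntegral.integral_mono_on ha0 (cf.intervalIntegrable _ _)
      ((continuous_const.mul (cg.comp (continuous_const.mul continuous_id))).intervalIntegrable _ _)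
      fun x hx => by
        have m1 : x ∈ I01 := ⟨hx.1, hx.2.trans ha⟩
        have m2 : r * x ∈ I01 :=
          ⟨mul_nonneg hr.le hx.1, (mul_le_mul_of_nonneg_left hx.2 hr.le).trans hra⟩
        rw [ext_eq_ev f m1, ext_eq_ev g m2]
        exact h1 _ _ rfl hx.2
  have e3 : ∫ y in (0 : ℝ)..r * a, ext (g : CC) y ≤ ∫ y in (0 : ℝ)..1, ext (g : CC) y :=
    intervalIntegral.integral_mono_interval le_rfl (by positivity) hra
      (Eventually.of_forall hg') (cg.intervalIntegrable _ _)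
  rw [intervalIntegral.integral_const_mul, intervalIntegral.integral_comp_mul_left _ hr.ne',
    mul_zero, smul_eq_mul, mul_assoc, mul_inv_cancel_left₀ hr.ne'] at e2
  rw [ig_def, ig_def, intg_def, intg_def, ← intervalIntegral.integral_add_adjacent_intervals
    (cf.intervalIntegrable 0 a) (cf.intervalIntegrable a 1), e1, add_zero]
  exact e2.trans (mul_le_mul_of_nonneg_left e3 hK)

/-- `Tv_Tr`, `W_{l,b}(x) ≤ 4 r^{b-1} W_{rl,b}(r x)` for `r x ≤ 1/2`, substitution `y = r x`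
(`intervalIntegral.integral_comp_mul_left`) on `[0, min (1/4) (1/(2r))]`. -/
lemma nT_Tr (m : ℕ) (b : ℝ) : ∃ C, 0 ≤ C ∧ ∀ l r, 0 < l → l ≤ 1 → 0 < r → r * l ≤ 1 → ∀ G : SF,
    nT l m b (Tr r G) ≤ C * r ^ b * nT (r * l) m b G := by
  obtain ⟨C, hC, h⟩ := Tv_Tr m
  refine ⟨4 * C, by positivity, fun l r h0 h1 hr hrl G => ?_⟩
  have hrl0 := mul_pos hr h0
  have ha : r * min (1 / 4) (1 / (2 * r)) ≤ 1 / 2 :=
    (mul_le_mul_of_nonneg_left (min_le_right _ _) hr.le).trans (le_of_eq (by field_simp))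
  refine d_subst (a := min (1 / 4) (1 / (2 * r))) hr (by positivity)
    ((min_le_left _ _).trans (by norm_num)) (by linarith) (by positivity)
    (fun y => ?_) (fun x hx => ?_) fun x y hy hx => ?_
  · rw [map_mul, ev_TT]
    exact mul_nonneg (Tv_nonneg hrl0 _ _ _) (ev_W_nonneg hrl0 _ _)
  · rw [map_mul, ev_TT, Tv_Tr_zero m hr G x ((min_le_iff.1 hx).imp id fun h2 => ?_), zero_mul]
    rw [div_le_iff₀ (by positivity)] at h2
    linarith
  · have h2 : (y : ℝ) ≤ 1 / 2 := by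
      rw [hy]
      exact (mul_le_mul_of_nonneg_left hx hr.le).trans ha
    rw [map_mul, map_mul, ev_TT, ev_TT]
    refine (mul_le_mul (h l r h0 h1 hr hrl G x y hy (hx.trans (min_le_left _ _)) h2)
      (d_W h0 hr b x y hy h2) (ev_W_nonneg h0 _ _)
      (mul_nonneg (by positivity) (Tv_nonneg hrl0 _ _ _))).trans (le_of_eq ?_)
    rw [Real.rpow_sub_one hr.ne']
    field_simp

/-- `nT_Tr 40`, `tp_le_nT`, `nT_equiv` -/
lemma Tr_bd : ∃ C, 1 ≤ C ∧ ∀ l r, 0 < l → l ≤ 1 → 0 < r → r * l ≤ 1 → ∀ G : SF,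
    II l (Tr r G) ≤ C * II (r * l) G ∧ OO l (Tr r G) ≤ C * OO (r * l) G := by
  have key : ∀ b : ℝ, ∃ C, 0 ≤ C ∧ ∀ l r, 0 < l → l ≤ 1 → 0 < r → r * l ≤ 1 → ∀ G : SF,
      QQ l b (Tr r G) ≤ C * r ^ b * QQ (r * l) b G := fun b => by
    obtain ⟨C1, hC1, h1⟩ := nT_Tr 40 b
    obtain ⟨C2, hC2, h2⟩ := nT_equiv 40 b
    refine ⟨2 * C1 * C2, by positivity, fun l r h0 hl hr hrl G => ?_⟩
    have a1 := tp_le_nT h0 (Nat.zero_le 40) b (Tr r G)
    have a2 := tp_le_nT h0 (le_refl 40) b (Tr r G)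
    have a3 := h1 l r h0 hl hr hrl G
    have a4 := mul_le_mul_of_nonneg_left (h2 (r * l) (by positivity) hrl G)
      (by positivity : 0 ≤ C1 * r ^ b)
    simp only [QQ]
    linarith
  obtain ⟨C1, hC1, h1⟩ := key 1
  obtain ⟨C0, hC0, h0'⟩ := key 0
  refine ⟨1 + C1 + C0, by linarith, fun l r h0 hl hr hrl G => ⟨?_, ?_⟩⟩
  · have a1 := mul_le_mul_of_nonneg_left (h1 l r h0 hl hr hrl G) h0.le
    have a2 := mul_nonneg (by linarith : 0 ≤ 1 + C0) (II_nonneg (mul_pos hr h0) G)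
    rw [Real.rpow_one] at a1
    simp only [II] at a2 ⊢
    linarith
  · have a1 := h0' l r h0 hl hr hrl G
    have a2 := mul_nonneg (by linarith : 0 ≤ 1 + C1) (OO_nonneg (r * l) G)
    rw [Real.rpow_zero] at a1
    simp only [OO] at a2 ⊢
    linarith

/-- point functionals at `x = l (i+1)/M`, `i < M²` -/
def lf (l : ℝ) (M : ℕ) : SF →ₗ[ℝ] (Fin (M ^ 2) → ℝ) where
  toFun G := fun i => l * ext (((1 - X) ^ 2 * G : SF) : CC) (l * (((i : ℕ) + 1) / M))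
  map_add' f g := by
    funext i
    have h : ((1 - X) ^ 2 * (f + g) : SF) = (1 - X) ^ 2 * f + (1 - X) ^ 2 * g := mul_add _ _ _
    simp only [Pi.add_apply, h, Subalgebra.coe_add, ext_add]
    ring
  map_smul' c f := by
    funext i; simp only [mul_smul_comm, Pi.smul_apply, RingHom.id_apply, smul_eq_mul]
    rw [mul_left_comm]; rfl

lemma lf_apply (l : ℝ) (M : ℕ) (G : SF) (i : Fin (M ^ 2)) :
    lf l M G i = l * ext (((1 - X) ^ 2 * G : SF) : CC) (l * (((i : ℕ) + 1) / M)) := rfl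

lemma lf_Tr {l r : ℝ} {M : ℕ} (h0 : 0 < l) (hr : 0 < r) (h1 : l * M ≤ 1 / 8) (h2 : r * l * M ≤ 1 / 4)
    (G : SF) : lf l M (Tr r G) = lf (r * l) M G := by
  funext i
  have hi : (i : ℕ) + 1 ≤ M ^ 2 := i.2
  have hM : 0 < M := Nat.pos_of_ne_zero fun h => by simp [h] at hi
  have hM' : (0 : ℝ) < M := by exact_mod_cast hM
  have hq0 : (0 : ℝ) ≤ (((i : ℕ) : ℝ) + 1) / M := by positivity
  have hq : (((i : ℕ) : ℝ) + 1) / M ≤ M := by
    rw [div_le_iff₀ hM', ← sq]; exact_mod_cast hi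
  set q : ℝ := (((i : ℕ) : ℝ) + 1) / M with hqd
  have hy : l * q ≤ 1 / 8 := (mul_le_mul_of_nonneg_left hq h0.le).trans h1
  have hz : r * l * q ≤ 1 / 4 := (mul_le_mul_of_nonneg_left hq (by positivity)).trans h2
  have hyI : l * q ∈ I01 := ⟨by positivity, by linarith⟩
  have hzI : r * l * q ∈ I01 := ⟨by positivity, by linarith⟩
  rw [lf_apply, lf_apply, ← hqd, ext_eq_ev _ hyI, trb_ev_Tr hr.le G hy, ← mul_assoc r l q,
    ext_eq_ev _ hzI, ext_eq_ev _ hzI, map_mul, chi, ev_cut_one (by norm_num) hz]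
  ring

lemma tre_mvt (ψ : SF) (x x' : I01) (hxx : (x : ℝ) ≤ x') {B : ℝ}
    (hB : ∀ y : I01, (x : ℝ) ≤ y → ev y (D ψ) ^ 2 ≤ B) :
    (ev x' ψ - ev x ψ) ^ 2 ≤ B * ((x' : ℝ) - x) ^ 2 := by
  have hB0 : 0 ≤ B := (sq_nonneg _).trans (hB x le_rfl)
  have h := intervalIntegral.norm_integral_le_of_norm_le_const (a := (x : ℝ)) (b := (x' : ℝ)) (C := √B)
    (f := ext ((D ψ : SF) : CC)) (fun y hy => by
      rw [uIoc_of_le hxx] at hy
      have hyI : y ∈ I01 := ⟨x.2.1.trans hy.1.le, hy.2.trans x'.2.2⟩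
      rw [ext_eq_ev _ hyI, Real.norm_eq_abs]
      exact Real.abs_le_sqrt (hB ⟨y, hyI⟩ hy.1.le))
  rw [integral_D, Real.norm_eq_abs] at h
  calc (ev x' ψ - ev x ψ) ^ 2 = |ev x' ψ - ev x ψ| ^ 2 := (sq_abs _).symm
    _ ≤ (√B * |(x' : ℝ) - x|) ^ 2 := pow_le_pow_left₀ (abs_nonneg _) h 2
    _ = _ := by rw [mul_pow, Real.sq_sqrt hB0, sq_abs]

lemma tre_deriv : ∃ K, 0 ≤ K ∧ ∀ l, 0 < l → l ≤ 1 → ∀ (G : SF) (y : I01),
    ((y : ℝ) + l) ^ 3 * ev y (D ((1 - X) ^ 2 * G)) ^ 2 ≤ K * QQ l 1 G := by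
  obtain ⟨C1, hC1, h1⟩ := Tv_mul 25
  obtain ⟨C2, hC2, h2⟩ := Tv_fixed 25 ((1 - X) ^ 2)
  obtain ⟨C3, hC3, h3⟩ := sobQ 1
  refine ⟨C1 * C2 * C3, by positivity, fun l h0 hl G y => ?_⟩
  have hL := ell_pos h0 y
  have a1 := s_le_Tv h0 (i := 1) (m := 25) (by norm_num) ((1 - X) ^ 2 * G) y
  rw [Dn_one] at a1
  have a2 := h1 l h0 hl ((1 - X) ^ 2) G y
  have a3 := h2 l h0 hl y
  have a4 := h3 l h0 hl G y
  rw [show (2 : ℝ) - 1 = 1 by norm_num, Real.rpow_one] at a4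
  have hT := Tv_nonneg h0 25 G y
  calc ((y : ℝ) + l) ^ 3 * ev y (D ((1 - X) ^ 2 * G)) ^ 2
      = ((y : ℝ) + l) * (((y : ℝ) + l) ^ (2 * 1) * ev y (D ((1 - X) ^ 2 * G)) ^ 2) := by ring
    _ ≤ ((y : ℝ) + l) * (C1 * (C2 * Tv l 25 G y)) :=
        mul_le_mul_of_nonneg_left (a1.trans (a2.trans (by gcongr))) hL.le
    _ = C1 * C2 * (((y : ℝ) + l) * Tv l 25 G y) := by ring
    _ ≤ C1 * C2 * (C3 * QQ l 1 G) := mul_le_mul_of_nonneg_left a4 (by positivity)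
    _ = _ := by ring

lemma tre_grid {l : ℝ} {M : ℕ} (h0 : 0 < l) (hM : 1 ≤ M) (h8 : l * M ≤ 1 / 8) {G : SF} (hG : lf l M G = 0)
    (x : I01) (hx : (x : ℝ) < l * M) :
    ∃ x' : I01, (x : ℝ) ≤ x' ∧ (x' : ℝ) - x ≤ l / M ∧ ev x' ((1 - X) ^ 2 * G) = 0 := by
  have hM' : (0 : ℝ) < M := by exact_mod_cast hM
  have hx0 := x.2.1
  have hu0 : 0 ≤ (x : ℝ) * M / l := by positivity
  have hi : ⌊(x : ℝ) * M / l⌋₊ < M ^ 2 := by
    rw [Nat.floor_lt hu0, div_lt_iff₀ h0]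
    push_cast
    nlinarith
  have hlo := Nat.floor_le hu0
  have hhi := Nat.lt_floor_add_one ((x : ℝ) * M / l)
  have hi' : ((⌊(x : ℝ) * M / l⌋₊ : ℕ) : ℝ) + 1 ≤ (M : ℝ) ^ 2 := by exact_mod_cast hi
  have hz := congrFun hG ⟨_, hi⟩
  rw [lf_apply, Pi.zero_apply, mul_eq_zero] at hz
  set i : ℝ := ((⌊(x : ℝ) * M / l⌋₊ : ℕ) : ℝ)
  have hi0 : 0 ≤ i := Nat.cast_nonneg _
  rw [le_div_iff₀ h0] at hlo
  rw [div_lt_iff₀ h0] at hhi
  have hmem : l * ((i + 1) / M) ∈ I01 := by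
    refine ⟨by positivity, ?_⟩
    rw [← mul_div_assoc, div_le_iff₀ hM']
    nlinarith
  refine ⟨⟨_, hmem⟩, ?_, ?_, ?_⟩
  · change (x : ℝ) ≤ l * ((i + 1) / M)
    rw [← mul_div_assoc, le_div_iff₀ hM']
    linarith
  · change l * ((i + 1) / M) - x ≤ l / M
    rw [← mul_div_assoc, sub_le_iff_le_add, div_add' _ _ _ hM'.ne', div_le_div_iff_of_pos_right hM']
    linarith
  · rw [← ext_eq_ev _ hmem]
    exact hz.resolve_left h0.ne'

lemma tre_ig_lp {l : ℝ} (h0 : 0 < l) : l ^ 5 * ig (lp l (-5)) ≤ l := by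
  have h := ig_D (lp l (-4))
  rw [D_lp h0, map_smul, smul_eq_mul, show (-4 : ℝ) - 1 = -5 by norm_num] at h
  have h1 := ev_lp_pos h0 (-4) 1
  have h2 : ev 0 (lp l (-4)) = (l ^ 4)⁻¹ := by
    rw [ev_lp h0, show ((0 : I01) : ℝ) + l = l from zero_add l, Real.rpow_neg h0.le]
    norm_cast
  have h3 : ig (lp l (-5)) ≤ (l ^ 4)⁻¹ := by
    have : 0 < (l ^ 4)⁻¹ := by positivity
    linarith
  calc l ^ 5 * ig (lp l (-5)) ≤ l ^ 5 * (l ^ 4)⁻¹ := by gcongr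
    _ = l := by field_simp

/-- On `x ≥ l M`: `l²/ℓ² ≤ 1/M²`.  On `x ≤ l M`: `ψ = (1-X)² G` vanishes at a grid point
`x' ∈ [x, x + l/M]`, `ℓ³ ψ'² ≤ C T_25(G) ℓ ≤ C QQ l 1 G` (`s_le_Tv`, `Tv_mul`, `sobQ 1`), so
`ψ(x)² ≤ (l/M)² C QQ/ℓ(x)³`, `G² W_3 ≤ 2 ψ² ℓ^{-2}`, `∫ ℓ^{-5} ≤ l^{-4}/4` (`ig_D (lp l (-4))`).
Pointwise: `l³ G² W_3 ≤ M⁻² l G² W_1 + C l⁵ M⁻² QQ ℓ^{-5}` everywhere, then `ig_mono`. -/
lemma lf_ker : ∃ C, 0 ≤ C ∧ ∀ (l : ℝ) (M : ℕ), 0 < l → l ≤ 1 → 1 ≤ M → l * M ≤ 1 / 8 → ∀ G : SF,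
    lf l M G = 0 → LL l G ≤ C / (M : ℝ) ^ 2 * II l G := by
  obtain ⟨K, hK, hd⟩ := tre_deriv
  refine ⟨1 + 2 * K, by positivity, fun l M h0 h1 hM h8 G hG => ?_⟩
  have hM' : (0 : ℝ) < M := by exact_mod_cast hM
  have hQ := QQ_nonneg l 1 G
  have key : ig (l ^ 3 • (G ^ 2 * W l 3)) ≤
      ig ((l / (M : ℝ) ^ 2) • (G ^ 2 * W l 1) + (2 * K * QQ l 1 G / (M : ℝ) ^ 2 * l ^ 5) • lp l (-5)) := by
    refine ig_mono fun x => ?_
    have hL := ell_pos h0 x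
    have hx0 := x.2.1
    have hW3 := ev_W_nonneg h0 3 x
    have hW1 : ev x (W l 1) = ((x : ℝ) + l) ^ 2 * ev x (W l 3) := by
      rw [ev_W_shift h0 1 2 x]
      norm_num
    have hlp := ev_lp_pos h0 (-5) x
    rw [map_add, ev_smul, ev_smul, ev_smul, map_mul, map_mul, map_pow, hW1]
    rcases le_or_gt (l * M) x with hx | hx
    · refine le_add_of_le_of_nonneg ?_ (by positivity)
      have h2 : (l * M) ^ 2 ≤ ((x : ℝ) + l) ^ 2 := pow_le_pow_left₀ (by positivity) (by linarith) 2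
      calc l ^ 3 * (ev x G ^ 2 * ev x (W l 3))
          = l / (M : ℝ) ^ 2 * (ev x G ^ 2 * ((l * M) ^ 2 * ev x (W l 3))) := by field_simp
        _ ≤ _ := by gcongr
    · refine le_add_of_nonneg_of_le (by positivity) ?_
      obtain ⟨x', hxx, hd', hz⟩ := tre_grid h0 hM h8 hG x hx
      have hψ := tre_mvt ((1 - X) ^ 2 * G) x x' hxx (B := K * QQ l 1 G / ((x : ℝ) + l) ^ 3) fun y hy => by
        rw [le_div_iff₀ (by positivity), mul_comm]
        refine le_trans ?_ (hd l h0 h1 G y)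
        gcongr
      rw [hz, zero_sub, neg_sq, map_mul, map_pow, map_sub, map_one, ev_X] at hψ
      have hψ2 : ((1 - (x : ℝ)) ^ 2 * ev x G) ^ 2 ≤ K * QQ l 1 G / ((x : ℝ) + l) ^ 3 * (l / M) ^ 2 :=
        hψ.trans (mul_le_mul_of_nonneg_left (pow_le_pow_left₀ (sub_nonneg.2 hxx) hd' 2) (by positivity))
      have hx8 : (x : ℝ) ≤ 1 / 8 := by linarith
      have h78 : 1 ≤ 2 * (1 - (x : ℝ)) ^ 2 := by nlinarith
      have e3 : ((x : ℝ) + l) ^ (-10 - 3 : ℝ) = (((x : ℝ) + l) ^ 13)⁻¹ := by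
        rw [show (-10 - 3 : ℝ) = -((13 : ℕ) : ℝ) by norm_num, Real.rpow_neg hL.le, Real.rpow_natCast]
      have e5 : ((x : ℝ) + l) ^ (-5 : ℝ) = (((x : ℝ) + l) ^ 5)⁻¹ := by
        rw [show (-5 : ℝ) = -((5 : ℕ) : ℝ) by norm_num, Real.rpow_neg hL.le, Real.rpow_natCast]
      have h11 : (x : ℝ) ^ 11 ≤ ((x : ℝ) + l) ^ 11 := pow_le_pow_left₀ hx0 (by linarith) 11
      rw [ev_W h0, ev_lp h0, e3, e5]
      calc l ^ 3 * (ev x G ^ 2 * ((x : ℝ) ^ 11 * (1 - x) ^ 2 * (((x : ℝ) + l) ^ 13)⁻¹))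
          = l ^ 3 * (ev x G ^ 2 * (1 - (x : ℝ)) ^ 2 * 1) * (x : ℝ) ^ 11 * (((x : ℝ) + l) ^ 13)⁻¹ := by ring
        _ ≤ l ^ 3 * (ev x G ^ 2 * (1 - (x : ℝ)) ^ 2 * (2 * (1 - (x : ℝ)) ^ 2)) * ((x : ℝ) + l) ^ 11 *
            (((x : ℝ) + l) ^ 13)⁻¹ := by gcongr
        _ = 2 * l ^ 3 * ((1 - (x : ℝ)) ^ 2 * ev x G) ^ 2 * (((x : ℝ) + l) ^ 11 * (((x : ℝ) + l) ^ 13)⁻¹) := by
            ring
        _ ≤ 2 * l ^ 3 * (K * QQ l 1 G / ((x : ℝ) + l) ^ 3 * (l / M) ^ 2) *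
            (((x : ℝ) + l) ^ 11 * (((x : ℝ) + l) ^ 13)⁻¹) := by gcongr
        _ = _ := by field_simp
  have e : ∀ b, ig (G ^ 2 * W l b) = tp l 0 b G := fun b => by
    rw [tp_eq h0, pow_zero, one_mul, Dn_zero]
  rw [map_add, map_smul, map_smul, map_smul, smul_eq_mul, smul_eq_mul, smul_eq_mul, e, e] at key
  have h5 := tre_ig_lp h0
  have h6 : tp l 0 1 G ≤ QQ l 1 G := le_add_of_nonneg_right (tp_nonneg ..)
  calc LL l G ≤ _ := key
    _ = l / (M : ℝ) ^ 2 * tp l 0 1 G + 2 * K * QQ l 1 G / (M : ℝ) ^ 2 * (l ^ 5 * ig (lp l (-5))) := by ring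
    _ ≤ l / (M : ℝ) ^ 2 * QQ l 1 G + 2 * K * QQ l 1 G / (M : ℝ) ^ 2 * l := by gcongr
    _ = _ := by rw [II]; ring

/-- `sob 0 3`: `l² G(x)² ≤ C l² ℓ ⟪G⟫_{15,3}`, `ℓ ≤ (M+1) l`; `nT_mono`, `nT_interp 39 3`,
`l³ tp 40 3 ≤ l tp 40 1` -/
lemma lf_bd (M : ℕ) (δ : ℝ) (hδ : 0 < δ) : ∃ C, 0 ≤ C ∧ ∀ l : ℝ, 0 < l → l ≤ 1 → l * M ≤ 1 → ∀ G : SF,
    ‖lf l M G‖ ^ 2 ≤ δ * II l G + C * LL l G := by
  obtain ⟨Cs, hCs, hs⟩ := sob 0 3
  have hK : 0 < Cs * (M + 1) + 1 := by positivity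
  obtain ⟨C', hC', hi⟩ := nT_interp 39 3 (δ / (Cs * (M + 1) + 1)) (by positivity)
  refine ⟨(Cs * (M + 1) + 1) * C', by positivity, fun l h0 h1 hM G => ?_⟩
  have hn := nT_nonneg h0 39 3 G
  have h40 : l ^ 3 * tp l 40 3 G ≤ II l G := by
    have a1 := tp_succ_le h0 40 2 G
    have a2 := tp_succ_le h0 40 1 G
    have a3 := tp_nonneg l 0 1 G
    rw [show (2 : ℝ) + 1 = 3 by norm_num] at a1
    rw [show (1 : ℝ) + 1 = 2 by norm_num] at a2
    have a4 := mul_le_mul_of_nonneg_left a1 h0.le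
    have a5 : l * (l * tp l 40 3 G) ≤ QQ l 1 G := by unfold QQ; linarith
    calc _ = l * (l * (l * tp l 40 3 G)) := by ring
      _ ≤ _ := mul_le_mul_of_nonneg_left a5 h0.le
  have hB : (Cs * (M + 1) + 1) * (l ^ 3 * nT l 39 3 G) ≤
      δ * II l G + (Cs * (M + 1) + 1) * C' * LL l G := by
    have a1 := mul_le_mul_of_nonneg_left (hi l h0 h1 G) (mul_pos hK (pow_pos h0 3)).le
    have a2 := mul_le_mul_of_nonneg_left h40 hδ.le
    have e : (Cs * (M + 1) + 1) * l ^ 3 *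
        (δ / (Cs * (M + 1) + 1) * tp l (39 + 1) 3 G + C' * tp l 0 3 G) =
        δ * (l ^ 3 * tp l 40 3 G) + (Cs * (M + 1) + 1) * C' * LL l G := by
      unfold LL
      field_simp
    rw [e] at a1
    linarith
  refine le_trans ?_ hB
  have hB0 : 0 ≤ (Cs * (M + 1) + 1) * (l ^ 3 * nT l 39 3 G) := by positivity
  rw [← Real.sq_sqrt hB0]
  refine pow_le_pow_left₀ (norm_nonneg _) ?_ 2
  refine (pi_norm_le_iff_of_nonneg (Real.sqrt_nonneg _)).2 fun i => Real.abs_le_sqrt ?_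
  have hi1 : (((i : ℕ) : ℝ) + 1) / M ≤ M := by
    have h2 : ((i : ℕ) : ℝ) + 1 ≤ (M : ℝ) ^ 2 := by exact_mod_cast i.2
    exact div_le_of_le_mul₀ (Nat.cast_nonneg _) (Nat.cast_nonneg _) (by rw [← sq]; exact h2)
  have hi2 : l * ((((i : ℕ) : ℝ) + 1) / M) ≤ l * M := mul_le_mul_of_nonneg_left hi1 h0.le
  have hx : l * ((((i : ℕ) : ℝ) + 1) / M) ∈ I01 := ⟨by positivity, hi2.trans hM⟩
  rw [lf_apply, ext_eq_ev _ hx]
  set x : I01 := ⟨_, hx⟩ with hxdef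
  have hxl : (x : ℝ) + l ≤ (M + 1) * l := by
    have : (x : ℝ) ≤ l * M := hi2
    linarith
  have hp := ell_pos h0 x
  have a1 := hs l h0 h1 G x
  rw [Tv_zero, show (2 : ℝ) - 3 = -1 by norm_num, Real.rpow_neg_one, inv_mul_le_iff₀ hp] at a1
  have a2 : nT l (0 + 15) 3 G ≤ nT l 39 3 G := nT_mono h0 (by norm_num) 3 G
  have a3 : ev x G ^ 2 ≤ (M + 1) * l * (Cs * nT l 39 3 G) :=
    a1.trans (mul_le_mul hxl (mul_le_mul_of_nonneg_left a2 hCs)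
      (mul_nonneg hCs (nT_nonneg h0 _ _ _)) (by positivity))
  have a4 : ((1 - (x : ℝ)) ^ 2) ^ 2 ≤ 1 :=
    pow_le_one₀ (sq_nonneg _) (pow_le_one₀ (sub_nonneg.2 x.2.2) (by linarith [x.2.1]))
  have a5 := mul_le_mul a4 a3 (sq_nonneg _) zero_le_one
  rw [map_mul, map_pow, map_sub, map_one, ev_X]
  calc _ = l ^ 2 * (((1 - (x : ℝ)) ^ 2) ^ 2 * ev x G ^ 2) := by ring
    _ ≤ l ^ 2 * (1 * ((M + 1) * l * (Cs * nT l 39 3 G))) := by gcongr
    _ = Cs * (M + 1) * (l ^ 3 * nT l 39 3 G) := by ring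
    _ ≤ _ := by gcongr; linarith

lemma trg_disc {e β γ : ℝ} (h : ∀ s : ℝ, 0 ≤ γ * (s * s) + 2 * β * s + e) : β ^ 2 ≤ γ * e := by
  have := discrim_le_zero h
  rw [discrim] at this
  nlinarith

/-- an almost minimal element of a coset is almost orthogonal to the subspace -/
lemma trg_min {E : Type} [AddCommGroup E] [Module ℝ E] (B : E →ₗ[ℝ] E →ₗ[ℝ] ℝ)
    (hs : ∀ u v, B u v = B v u) (hp : ∀ u, 0 ≤ B u u) (K : Submodule ℝ E) {ε : ℝ} (hε : 0 < ε) (v : E) :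
    ∃ k ∈ K, ∀ w ∈ K, B w (v - k) ^ 2 ≤ B w w * ε := by
  obtain ⟨k, hk⟩ := exists_lt_of_ciInf_lt (f := fun k : K => B (v - k) (v - k)) (lt_add_of_pos_right _ hε)
  refine ⟨k, k.2, fun w hw => trg_disc fun s => ?_⟩
  have := ciInf_le (f := fun k : K => B (v - k) (v - k)) ⟨0, by rintro _ ⟨k, rfl⟩; exact hp _⟩
    ⟨k - s • w, K.sub_mem k.2 (K.smul_mem s hw)⟩
  have e : v - (k - s • w) = (v - k) + s • w := by abel
  simp only [e] at this
  generalize v - (k : E) = x at *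
  simp only [map_add, map_smul, LinearMap.add_apply, LinearMap.smul_apply, smul_eq_mul, hs x w] at this
  linarith

/-- Almost orthogonal section.  Induction on the number `j ≤ d` of functionals: keep a linear
`P_j = A_j ∘ l` with `u - P_j u ∈ K_j = ⋂_{i<j} ker l_i` and `‖u - P_j u‖ ≤ (1+2η)^j ‖u‖`.  If `l_j ≠ 0`
on `K_j`, let `ρ = inf {‖v‖² | v ∈ K_j, l_j v = 1} > 0`, pick `e` with `‖e‖² ≤ (1+η²) ρ`; for
`w ∈ K_{j+1}`, `‖e + s w‖² ≥ ρ` for all `s` gives `B(e,w)² ≤ η² ρ ‖w‖²`; `ρ (l_j v)² ≤ ‖v‖²` on `K_j`; so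
`w = v - (l_j v) e` has `‖w‖ ≤ (1+2η) ‖v‖`. -/
lemma exists_section {E : Type} [AddCommGroup E] [Module ℝ E] (B : E →ₗ[ℝ] E →ₗ[ℝ] ℝ)
    (hs : ∀ u v, B u v = B v u) (hp : ∀ u, 0 ≤ B u u) {d : ℕ} (l : E →ₗ[ℝ] (Fin d → ℝ)) (C : ℝ)
    (hl : ∀ u, ‖l u‖ ^ 2 ≤ C * B u u) :
    ∃ A : (Fin d → ℝ) →ₗ[ℝ] E, ∀ u, l (u - A (l u)) = 0 ∧
      B (u - A (l u)) (u - A (l u)) ≤ 4 * B u u := by
  obtain ⟨g, hg⟩ := l.rangeRestrict.exists_rightInverse_of_surjective l.range_rangeRestrict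
  obtain ⟨A₀, hA₀⟩ := LinearMap.exists_extend g
  have h0 : ∀ u, l (A₀ (l u)) = l u := fun u => by
    have h1 : A₀ (l u) = g (l.rangeRestrict u) := LinearMap.congr_fun hA₀ (l.rangeRestrict u)
    rw [h1]
    exact congrArg Subtype.val (LinearMap.congr_fun hg (l.rangeRestrict u))
  obtain ⟨ε, hε, hd⟩ : ∃ ε : ℝ, 0 < ε ∧ d * (√|C| * ε) ≤ 1 :=
    ⟨1 / (d * √|C| + 1), by positivity, by
      rw [← mul_assoc, mul_one_div, div_le_one (by positivity)]; linarith⟩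
  choose k hk hv using fun i : Fin d =>
    trg_min B hs hp (LinearMap.ker l) (pow_pos hε 2) (A₀ (Pi.single i 1))
  refine ⟨A₀ - Fintype.linearCombination ℝ k, fun u => ?_⟩
  have h1 : l (u - (A₀ - Fintype.linearCombination ℝ k) (l u)) = 0 := by
    have : ∀ i, l (k i) = 0 := hk
    simp [Fintype.linearCombination_apply, h0, this]
  refine ⟨h1, ?_⟩
  have h2 : (A₀ - Fintype.linearCombination ℝ k) (l u) = ∑ i, l u i • (A₀ (Pi.single i 1) - k i) := by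
    rw [LinearMap.sub_apply, Fintype.linearCombination_apply, LinearMap.pi_apply_eq_sum_univ A₀,
      ← Finset.sum_sub_distrib]
    refine Finset.sum_congr rfl fun i _ => ?_
    rw [smul_sub]
    congr 3
    funext j
    simp [Pi.single_apply, eq_comm]
  generalize hw : u - (A₀ - Fintype.linearCombination ℝ k) (l u) = w at h1
  have h3 : B w w = B w u - ∑ i, l u i * B w (A₀ (Pi.single i 1) - k i) := by
    conv_lhs => rw [← congrArg (B w) hw, h2]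
    simp only [map_sub (B w) u, map_sum, map_smul, smul_eq_mul]
  have ha := Real.sq_sqrt (hp w)
  have hb := Real.sq_sqrt (hp u)
  have ha0 := Real.sqrt_nonneg (B w w)
  have hb0 := Real.sqrt_nonneg (B u u)
  have h4 : B w u ≤ √(B w w) * √(B u u) := by
    refine (le_abs_self _).trans (abs_le_of_sq_le_sq' ?_ (by positivity) |> abs_le.2)
    rw [mul_pow, ha, hb]
    refine trg_disc fun s => ?_
    have := hp (s • w + u)
    simp only [map_add, map_smul, LinearMap.add_apply, LinearMap.smul_apply, smul_eq_mul, hs u w] at this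
    linarith
  have h5 : ∀ i, |l u i * B w (A₀ (Pi.single i 1) - k i)| ≤ √|C| * √(B u u) * (√(B w w) * ε) := fun i => by
    rw [abs_mul]
    refine mul_le_mul ?_ ?_ (abs_nonneg _) (by positivity)
    · refine (norm_le_pi_norm (l u) i).trans (le_of_sq_le_sq ?_ (by positivity))
      rw [mul_pow, hb, Real.sq_sqrt (abs_nonneg C)]
      exact (hl u).trans (mul_le_mul_of_nonneg_right (le_abs_self C) (hp u))
    · refine abs_le.2 (abs_le_of_sq_le_sq' ?_ (by positivity))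
      rw [mul_pow, ha]
      exact hv i w h1
  have h6 := (Finset.abs_sum_le_sum_abs _ _).trans (Finset.sum_le_sum fun i (_ : i ∈ Finset.univ) => h5 i)
  rw [Finset.sum_const, Finset.card_univ, Fintype.card_fin, nsmul_eq_mul] at h6
  have h7 := mul_le_mul_of_nonneg_right hd (mul_nonneg ha0 hb0)
  have h8 := neg_abs_le (∑ i, l u i * B w (A₀ (Pi.single i 1) - k i))
  nlinarith [sq_nonneg (√(B w w) - 2 * √(B u u))]

/-- `exists_section` on the submodule `{ψ | Van (1/4) ψ}` with the form of `II l`; `lf_bd`, `LL_le_II` -/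
lemma exists_A0 (l : ℝ) (h0 : 0 < l) (h1 : l ≤ 1) (M : ℕ) (hM : l * M ≤ 1) :
    ∃ A : (Fin (M ^ 2) → ℝ) →ₗ[ℝ] SF, (∀ α, Van (1 / 4) (A α)) ∧ ∀ ψ, Van (1 / 4) ψ →
      lf l M (ψ - A (lf l M ψ)) = 0 ∧ II l (ψ - A (lf l M ψ)) ≤ 4 * II l ψ := by
  obtain ⟨B, hs, hB⟩ := tra_form h0
  obtain ⟨C, hC, hb⟩ := lf_bd M 1 one_pos
  obtain ⟨V, hV⟩ : ∃ V : Submodule ℝ SF, ∀ ψ, ψ ∈ V ↔ Van (1 / 4) ψ :=
    ⟨{ carrier := {ψ | Van (1 / 4) ψ}
       add_mem' := fun {f g} hf hg x hx => by rw [map_add, hf x hx, hg x hx, add_zero]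
       zero_mem' := fun x _ => map_zero _
       smul_mem' := fun c f hf x hx => by rw [ev_smul, hf x hx, mul_zero] }, fun _ => Iff.rfl⟩
  obtain ⟨B', hB'⟩ : ∃ B' : V →ₗ[ℝ] V →ₗ[ℝ] ℝ, ∀ u v, B' u v = B u v :=
    ⟨B.compl₁₂ V.subtype V.subtype, fun _ _ => rfl⟩
  obtain ⟨A, hA⟩ := exists_section (E := V) B' (fun u v => by rw [hB', hB', hs])
    (fun u => by rw [hB', hB]; exact II_nonneg h0 _) (lf l M ∘ₗ V.subtype) (1 + C) fun u => by
      have a1 := hb l h0 h1 hM u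
      have a2 := mul_le_mul_of_nonneg_left (LL_le_II h0 (u : SF)) hC
      show ‖lf l M u‖ ^ 2 ≤ _
      rw [hB', hB]
      linarith
  simp only [hB', hB] at hA
  refine ⟨V.subtype ∘ₗ A, fun α => (hV _).1 (A α).2, fun ψ hψ => ?_⟩
  exact hA ⟨ψ, (hV _).2 hψ⟩

lemma trf_bd {d : ℕ} (N : Seminorm ℝ SF) (A : (Fin d → ℝ) →ₗ[ℝ] SF) :
    ∃ B, 0 ≤ B ∧ ∀ α, N (A α) ≤ B * ‖α‖ := by
  refine ⟨∑ i, N (A (Pi.single i 1)), Finset.sum_nonneg fun _ _ => apply_nonneg _ _, fun α => ?_⟩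
  conv_lhs => rw [pi_eq_sum_univ' α, map_sum]
  refine (Finset.le_sum_of_subadditive N (map_zero N).le (map_add_le_add N) _ _).trans ?_
  rw [Finset.sum_mul]
  refine Finset.sum_le_sum fun i _ => ?_
  rw [map_smul, map_smul_eq_mul, mul_comm]
  exact mul_le_mul_of_nonneg_left (norm_le_pi_norm α i) (apply_nonneg _ _)

/-- `A l = Tr (l0/l) ∘ A0`; `lf l M u = lf l0 M (Tr (l/l0) u)` (`lf_Tr`), `Tr_van`, `Tr_bd`, `Tr_Tr`;
a quadratic form is bounded on the finite-dimensional range of `A0` (`exists_N`, `exists_O`). -/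
lemma exists_A : ∃ C, 1 ≤ C ∧ ∀ (l0 : ℝ) (M : ℕ), 0 < l0 → l0 ≤ 1 → l0 * M ≤ 1 / 8 →
    ∃ (A : ℝ → (Fin (M ^ 2) → ℝ) →ₗ[ℝ] SF) (B : ℝ), 0 ≤ B ∧ ∀ l, 0 < l → 2 * l ≤ l0 →
      (∀ u, lf l M (u - A l (lf l M u)) = 0 ∧ II l (u - A l (lf l M u)) ≤ C * II l u) ∧
      (∀ α, OO l (A l α) ≤ B * ‖α‖ ^ 2) ∧
      ∀ r, 0 < r → r ≤ 1 → ∀ α, Tr r (A (r * l) α) = A l α := by
  obtain ⟨C, hC, hT⟩ := Tr_bd
  refine ⟨2 + 20 * C ^ 2, by nlinarith [sq_nonneg C], fun l0 M h0 h1 hM => ?_⟩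
  obtain ⟨A0, hV, hA⟩ := exists_A0 l0 h0 h1 M (by linarith)
  obtain ⟨N, hN⟩ := exists_O l0
  obtain ⟨B, hB, hNB⟩ := trf_bd N A0
  refine ⟨fun l => Tr (l0 / l) ∘ₗ A0, C * B ^ 2, by positivity, fun l hl hl0 => ?_⟩
  have hr : 0 < l0 / l := div_pos h0 hl
  have hr' : 0 < l / l0 := div_pos hl h0
  have e1 : l0 / l * l = l0 := div_mul_cancel₀ _ hl.ne'
  have e2 : l / l0 * l0 = l := div_mul_cancel₀ _ h0.ne'
  have hlM : l * M ≤ l0 * M := mul_le_mul_of_nonneg_right (by linarith) (Nat.cast_nonneg _)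
  have hT1 := fun G => hT l (l0 / l) hl (by linarith) hr (by rw [e1]; exact h1) G
  have hT2 := fun G => hT l0 (l / l0) h0 h1 hr' (by rw [e2]; linarith) G
  rw [e1] at hT1
  rw [e2] at hT2
  refine ⟨fun u => ?_, fun α => ?_, fun r hr0 hr1 α => ?_⟩
  · have a1 := lf_Tr (M := M) h0 hr' hM (by rw [e2]; linarith) u
    have a2 := fun G => lf_Tr (M := M) hl hr (by linarith) (by rw [e1]; linarith) G
    rw [e2] at a1
    rw [e1] at a2
    obtain ⟨b1, b2⟩ := hA _ (Tr_van (l / l0) u)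
    rw [a1] at b1 b2
    rw [LinearMap.comp_apply]
    constructor
    · rw [map_sub, a1] at b1
      rw [map_sub, a2, b1]
    · have c1 := II_sub hl u (Tr (l0 / l) (A0 (lf l M u)))
      have c2 := II_sub h0 (Tr (l / l0) u) (Tr (l / l0) u - A0 (lf l M u))
      rw [sub_sub_cancel] at c2
      have c3 := (hT2 u).1
      have c4 : II l0 (A0 (lf l M u)) ≤ 10 * (C * II l u) := by linarith
      have c5 := ((hT1 _).1).trans (mul_le_mul_of_nonneg_left c4 (by linarith : 0 ≤ C))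
      linarith
  · have a1 : OO l0 (A0 α) ≤ (B * ‖α‖) ^ 2 := by
      rw [← Real.sq_sqrt (OO_nonneg l0 (A0 α)), ← hN]
      exact pow_le_pow_left₀ (apply_nonneg _ _) (hNB α) 2
    rw [LinearMap.comp_apply]
    calc _ ≤ C * OO l0 (A0 α) := (hT1 _).2
      _ ≤ C * (B * ‖α‖) ^ 2 := mul_le_mul_of_nonneg_left a1 (by linarith)
      _ = _ := by ring
  · rw [LinearMap.comp_apply, LinearMap.comp_apply, Tr_Tr hr0 ?_ (hV α)]
    · congr 2
      field_simp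
    · rw [le_div_iff₀ (mul_pos hr0 hl)]
      nlinarith

lemma h_rhs_pt (K : ℝ) : ∃ C, 0 ≤ C ∧ ∀ l ρ : ℝ, 0 < l → l ≤ 1 → 0 < ρ → ∀ (cf : Cf) (G : SF) (x : I01),
    cf.Bd l 4 K → ρ / 8 ≤ x + l → ρ ^ 5 * ev x (rhs 0 cf G) ^ 2 ≤ C * QQ l 1 G := by
  obtain ⟨C₁, hC₁, H₁⟩ := lin_pt K
  obtain ⟨C₂, hC₂, H₂⟩ := sobQ 1
  refine ⟨8 ^ 5 * (C₁ * C₂), by positivity, fun l ρ h0 h1 hρ cf G x hc hx => ?_⟩
  have hL : 0 < (x : ℝ) + l := lt_of_lt_of_le (by positivity) hx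
  have a1 := (H₁ l h0 h1 cf G x hc).trans
    (mul_le_mul_of_nonneg_left (Tv_mono h0 (show 4 ≤ 25 by norm_num) G x) hC₁)
  have a2 := H₂ l h0 h1 G x
  rw [show (2 - 1 : ℝ) = 1 by norm_num, Real.rpow_one] at a2
  calc ρ ^ 5 * ev x (rhs 0 cf G) ^ 2 ≤ (8 * (x + l)) ^ 5 * ev x (rhs 0 cf G) ^ 2 := by
        gcongr
        linarith
    _ = 8 ^ 5 * ((x + l) * ((x + l) ^ 4 * ev x (rhs 0 cf G) ^ 2)) := by ring
    _ ≤ 8 ^ 5 * ((x + l) * (C₁ * Tv l 25 G x)) := by gcongr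
    _ = 8 ^ 5 * (C₁ * ((x + l) * Tv l 25 G x)) := by ring
    _ ≤ 8 ^ 5 * (C₁ * (C₂ * QQ l 1 G)) := by gcongr
    _ = _ := by ring

/-- The source vanishes on `[0,1/8]`; for `x ≥ 1/8` both terms have square `≤ C r QQ (r l) 1 G`:
`lin_pt` + `sobQ 1` at the point `r x` (where `ℓ_{rl} = r ℓ ≥ r/8`), resp. `lin_pt`, `sobQ 1`, `Tr_bd` at
`x`.  Then `ev_W_le` with `b = 1`. -/
lemma cmp_src (K : ℝ) : ∃ C, 0 ≤ C ∧ ∀ l r, 0 < l → l ≤ 1 → 0 < r → r ≤ 1 → ∀ (cf cf' : Cf) (G : SF),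
    cf.Bd l 4 K → cf'.Bd (r * l) 4 K →
    Agree (1 / 8) (r ^ 2 • Tr r (rhs 0 cf' G)) (rhs 0 cf (Tr r G)) →
    tp l 0 1 (r ^ 2 • Tr r (rhs 0 cf' G) - rhs 0 cf (Tr r G)) ≤ C * II (r * l) G / l := by
  obtain ⟨C₁, hC₁, H₁⟩ := h_rhs_pt K
  obtain ⟨C₂, hC₂, H₂⟩ := Tr_bd
  obtain ⟨C₃, hC₃, H₃⟩ := Tv_Tr 0
  refine ⟨2 * (C₃ * C₁) + 2 * (C₁ * C₂), by positivity, fun l r h0 h1 hr hr1 cf cf' G hc hc' hA => ?_⟩
  have hrl : r * l ≤ 1 := mul_le_one₀ hr1 h0.le h1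
  have hrl0 : 0 < r * l := mul_pos hr h0
  have hQ := QQ_nonneg (r * l) 1 G
  have e : II (r * l) G / l = r * QQ (r * l) 1 G := by
    rw [II]
    field_simp
  rw [← nT_zero h0, mul_div_assoc, e]
  refine (nT_le_of_bd h0 h1 le_rfl fun x => ?_).trans_eq (by rw [sub_self, Real.rpow_zero, mul_one])
  rw [Tv_zero, map_sub]
  rcases le_total (x : ℝ) (1 / 8) with hx | hx
  · rw [hA x hx, sub_self, zero_pow two_ne_zero]
    positivity
  have a1 : ev x (rhs 0 cf (Tr r G)) ^ 2 ≤ C₁ * C₂ * (r * QQ (r * l) 1 G) := by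
    have b1 := H₁ l 1 h0 h1 one_pos cf (Tr r G) x hc (by linarith)
    have b2 : QQ l 1 (Tr r G) ≤ C₂ * (r * QQ (r * l) 1 G) := by
      rw [← e, ← mul_div_assoc, le_div_iff₀' h0]
      exact (H₂ l r h0 h1 hr hrl G).1
    rw [one_pow, one_mul] at b1
    rw [mul_assoc]
    exact b1.trans (mul_le_mul_of_nonneg_left b2 hC₁)
  have a2 : ev x (r ^ 2 • Tr r (rhs 0 cf' G)) ^ 2 ≤ C₃ * C₁ * (r * QQ (r * l) 1 G) := by
    rw [ev_smul, mul_pow, ← Tv_zero l]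
    rcases le_total (1 / 4 : ℝ) x with hx' | hx'
    · rw [Tv_Tr_zero 0 hr _ x (Or.inl hx'), mul_zero]
      positivity
    have b0 : r * x ≤ 1 / 2 := by nlinarith [x.2.1]
    have b1 := H₃ l r h0 h1 hr hrl (rhs 0 cf' G) x ⟨r * x, mul_nonneg hr.le x.2.1, by linarith⟩ rfl hx' b0
    have b2 := H₁ (r * l) r hrl0 hrl hr cf' G ⟨r * x, mul_nonneg hr.le x.2.1, by linarith⟩ hc'
      (by simp only; nlinarith)
    rw [Tv_zero (r * l)] at b1
    calc _ ≤ (r ^ 2) ^ 2 * (C₃ * r ^ 2 * _) := mul_le_mul_of_nonneg_left b1 (by positivity)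
      _ = C₃ * r * (r ^ 5 * _) := by ring
      _ ≤ C₃ * r * (C₁ * QQ (r * l) 1 G) := mul_le_mul_of_nonneg_left b2 (by positivity)
      _ = _ := by ring
  nlinarith [sq_nonneg (ev x (r ^ 2 • Tr r (rhs 0 cf' G)) + ev x (rhs 0 cf (Tr r G)))]

end Crest.Agent.R213
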