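import Crest.Agent.R213.App
import Crest.Agent.R213.LE.Main

/-! Row 213: estimates on a time window `[t1,t2]`, `-1 ≤ t1 ≤ t2 ≤ ϱ² t1 < 0`.  On it
`ϱ λ(t1) ≤ λ(t) ≤ λ(t1) ≤ 1` and `λ(t)² = -t`. -/

set_option autoImplicit false
open Set Filter Topology

noncomputable section
namespace Crest.Agent.R213

structure Win (ϱ t1 t2 : ℝ) : Prop where
  lo : -1 ≤ t1
  neg : t1 < 0
  le : t1 ≤ t2
  hi : t2 ≤ ϱ ^ 2 * t1

lemma Win.mem {ϱ t1 t2 t : ℝ} (h : Win ϱ t1 t2) (hϱ : 0 < ϱ) (ht : t ∈ Icc t1 t2) :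
    t ∈ Ico (-1 : ℝ) 0 ∧ 0 < lam t ∧ lam t ≤ 1 ∧ lam t ≤ lam t1 ∧ ϱ * lam t1 ≤ lam t := by
  have h1 : t ≤ ϱ ^ 2 * t1 := ht.2.trans h.hi
  have h2 : t < 0 := h1.trans_lt (mul_neg_of_pos_of_neg (by positivity) h.neg)
  refine ⟨⟨h.lo.trans ht.1, h2⟩, lam_pos h2, lam_le_one (h.lo.trans ht.1), lam_anti ht.1, ?_⟩
  rw [← lam_mul hϱ.le]
  exact lam_anti h1
lemma Win.sub {ϱ t1 t2 t : ℝ} (h : Win ϱ t1 t2) (ht : t ∈ Icc t1 t2) : Win ϱ t1 t :=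
  ⟨h.lo, h.neg, ht.1, ht.2.trans h.hi⟩

/-- `(-t)^p Y(t) - (-t1)^p g0 t` is nonincreasing (`antitoneOn_of_hasDerivWithinAt_nonpos` or
`image_le_of_deriv_right_le_deriv_boundary`) -/
lemma gron {Y Y' : ℝ → ℝ} {t1 t2 p g0 : ℝ} (h2 : t2 < 0) (hp : 0 ≤ p) (hg : 0 ≤ g0)
    (hY : ∀ t ∈ Icc t1 t2, HasDerivWithinAt Y (Y' t) (Icc t1 t2) t)
    (hY' : ∀ t ∈ Icc t1 t2, Y' t ≤ p / (-t) * Y t + g0) :
    ∀ t ∈ Icc t1 t2, Y t ≤ (t1 / t) ^ p * (Y t1 + g0 * (t - t1)) := by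
  intro t ht
  have hn : ∀ s ∈ Icc t1 t2, 0 < -s := fun s hs => neg_pos.2 (hs.2.trans_lt h2)
  have h1 : t1 ∈ Icc t1 t2 := ⟨le_rfl, ht.1.trans ht.2⟩
  have hd : ∀ s ∈ Icc t1 t2, HasDerivWithinAt (fun s => (-s) ^ p * Y s - (-t1) ^ p * g0 * s)
      ((-1 * p * (-s) ^ (p - 1)) * Y s + (-s) ^ p * Y' s - (-t1) ^ p * g0 * 1) (Icc t1 t2) s :=
    fun s hs => (((hasDerivWithinAt_id s _).neg.rpow_const (Or.inl (hn s hs).ne')).mul (hY s hs)).sub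
      ((hasDerivWithinAt_id s _).const_mul _)
  have ha := antitoneOn_of_hasDerivWithinAt_nonpos (convex_Icc t1 t2)
    (fun s hs => (hd s hs).continuousWithinAt)
    (fun s hs => (hd s (interior_subset hs)).mono interior_subset) (fun s hs => by
      have hs' := interior_subset hs
      have e1 := hn s hs'
      have e2 : (-s) ^ p ≤ (-t1) ^ p := Real.rpow_le_rpow e1.le (neg_le_neg hs'.1) hp
      have e3 : 0 < (-s) ^ p := Real.rpow_pos_of_pos e1 p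
      have e4 := mul_le_mul_of_nonneg_left (hY' s hs') e3.le
      have e5 := mul_le_mul_of_nonneg_right e2 hg
      rw [Real.rpow_sub_one e1.ne']
      have e6 : (-s) ^ p * (p / (-s) * Y s + g0) = p * ((-s) ^ p / (-s)) * Y s + (-s) ^ p * g0 := by ring
      linarith) h1 ht ht.1
  have e1 := Real.rpow_pos_of_pos (hn t ht) p
  rw [← neg_div_neg_eq, Real.div_rpow (hn t1 h1).le (hn t ht).le, div_mul_eq_mul_div, le_div_iff₀ e1]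
  dsimp only at ha
  linarith

/-- continuity argument -/
lemma bootstrap {f : ℝ → ℝ} {a b α β : ℝ} (hf : ContinuousOn f (Icc a b)) (hαβ : α < β)
    (ha : f a ≤ β) (h : ∀ s ∈ Icc a b, (∀ t ∈ Icc a s, f t ≤ β) → f s ≤ α) :
    ∀ t ∈ Icc a b, f t ≤ β := by
  have hc : IsClosed ({t | f t ≤ β} ∩ Icc a b) := by
    rw [inter_comm]
    exact hf.preimage_isClosed_of_isClosed isClosed_Icc isClosed_Iic
  refine hc.Icc_subset_of_forall_mem_nhdsGT_of_Icc_subset ha fun t ht hs => ?_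
  have h1 : f t < β := (h t (Ico_subset_Icc_self ht) hs).trans_lt hαβ
  have h2 : ∀ᶠ s in 𝓝[Icc a b] t, f s < β := (hf t (Ico_subset_Icc_self ht)).eventually (gt_mem_nhds h1)
  exact (h2.filter_mono (nhdsWithin_le_iff.2 (Icc_mem_nhdsGT_of_mem ht))).mono fun s hs => hs.le

/-- `hasDeriv_tp` (`j = 0`, `b = 3`), `tp_succ_le`, `gron`, `(t1/t)^p ≤ (ϱ⁻²)^p` -/
lemma win_L (C0 ϱ : ℝ) (hϱ : ϱ ∈ Ioo (0 : ℝ) 1) : ∃ B, 0 ≤ B ∧ ∀ t1 t2, Win ϱ t1 t2 →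
    ∀ (Z U : ℝ → SF) (g0 : ℝ), 0 ≤ g0 →
    (∀ t ∈ Icc t1 t2, JD Z (U t) (Icc t1 t2) t ∧
      2 * pair (lam t) 0 3 (U t) (Z t) ≤ C0 * tp (lam t) 0 5 (Z t) + g0) →
    ∀ t ∈ Icc t1 t2, LL (lam t) (Z t) ≤ B * (LL (lam t1) (Z t1) + lam t1 ^ 5 * g0) := by
  have hp : 0 ≤ |C0| + 13 / 2 := by positivity
  have hϱ2 : 0 < ϱ ^ 2 := pow_pos hϱ.1 2
  refine ⟨(1 / ϱ ^ 2) ^ (|C0| + 13 / 2), by positivity, fun t1 t2 hw Z U g0 hg h t ht => ?_⟩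
  have h2 : t2 < 0 := hw.hi.trans_lt (mul_neg_of_pos_of_neg hϱ2 hw.neg)
  have key := gron (Y := fun τ => tp (lam τ) 0 3 (Z τ)) h2 hp hg
    (fun τ hτ => hasDeriv_tp (h τ hτ).1 (hasDerivAt_lam (hτ.2.trans_lt h2)).hasDerivWithinAt
      (lam_pos (hτ.2.trans_lt h2)) 0 3)
    (fun τ hτ => by
      have hl := lam_pos (hτ.2.trans_lt h2)
      have a1 := tp_succ_le hl 0 3 (Z τ)
      have a2 := tp_succ_le hl 0 (3 + 1) (Z τ)
      have a3 := (h τ hτ).2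
      rw [show (3 : ℝ) + 1 + 1 = 5 by norm_num] at a2
      have a4 := mul_le_mul_of_nonneg_right (le_abs_self C0) (tp_nonneg (lam τ) 0 5 (Z τ))
      have a5 : tp (lam τ) 0 (3 + 1) (Z τ) / lam τ ≤ tp (lam τ) 0 3 (Z τ) / lam τ ^ 2 := by
        rw [sq, ← div_div]
        exact div_le_div_of_nonneg_right ((le_div_iff₀' hl).2 a1) hl.le
      have a6 := mul_le_mul_of_nonneg_left (((le_div_iff₀' hl).2 a2).trans a5) (abs_nonneg C0)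
      rw [← lam_sq (hτ.2.trans h2.le)]
      calc _ = 2 * pair (lam τ) 0 3 (U τ) (Z τ) + 13 / 2 * (tp (lam τ) 0 (3 + 1) (Z τ) / lam τ) := by
            push_cast
            ring
        _ ≤ |C0| * (tp (lam τ) 0 3 (Z τ) / lam τ ^ 2) + 13 / 2 * (tp (lam τ) 0 3 (Z τ) / lam τ ^ 2) +
            g0 := by linarith
        _ = _ := by ring) t ht
  have ht0 : t < 0 := ht.2.trans_lt h2
  have b1 : t1 / t ≤ 1 / ϱ ^ 2 := by
    rw [← neg_div_neg_eq, div_le_div_iff₀ (neg_pos.2 ht0) hϱ2]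
    linarith [ht.2.trans hw.hi]
  have b2 : (t1 / t) ^ (|C0| + 13 / 2) ≤ (1 / ϱ ^ 2) ^ (|C0| + 13 / 2) :=
    Real.rpow_le_rpow (div_nonneg_of_nonpos hw.neg.le ht0.le) b1 hp
  have b3 : t - t1 ≤ lam t1 ^ 2 := by
    rw [lam_sq hw.neg.le]
    linarith
  have b4 := tp_nonneg (lam t1) 0 3 (Z t1)
  have b5 := lam_pos ht0
  have b6 := lam_anti ht.1
  have b7 : 0 ≤ t - t1 := sub_nonneg.2 ht.1
  calc LL (lam t) (Z t) ≤ lam t1 ^ 3 * ((1 / ϱ ^ 2) ^ (|C0| + 13 / 2) *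
        (tp (lam t1) 0 3 (Z t1) + g0 * lam t1 ^ 2)) := by
        refine mul_le_mul (pow_le_pow_left₀ b5.le b6 3) (key.trans ?_) (tp_nonneg ..)
          (pow_nonneg (b5.le.trans b6) 3)
        gcongr
    _ = _ := by
        unfold LL
        ring

/-- admissible state: ellipticity and smallness -/
def Adm (σ : ℝ) (cf : ℝ → Cf) (c0 t : ℝ) (G : SF) : Prop :=
  (∀ x, c0 / 2 ≤ ev x ((cf t).a - σ • (q * G))) ∧
    ∀ x : I01, σ * (((x : ℝ) + lam t) ^ 2 * Tv (lam t) 25 G x) ≤ 1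

def Eps (cf : ℝ → Cf) (c0 ε1 : ℝ) : Prop :=
  0 < ε1 ∧ ε1 ≤ 1 ∧ ∀ t ∈ Ico (-1 : ℝ) 0, ∀ G, OO (lam t) G ≤ ε1 → Adm 1 cf c0 t G

section
variable {cf : ℝ → Cf} {c0 K : ℝ}

lemma adm_zero (h : CfOK cf c0 K) {t : ℝ} (ht : t ∈ Ico (-1 : ℝ) 0) (G : SF) : Adm 0 cf c0 t G := by
  refine ⟨fun x => ?_, fun x => by simp⟩
  rw [zero_smul, sub_zero]
  linarith [h.lower t ht x, h.c0_pos]

/-- `sobQ 0`, `(q G)² ≤ ℓ² G² ≤ ℓ² T_25(G)` -/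
lemma exists_eps (h : CfOK cf c0 K) : ∃ ε1, Eps cf c0 ε1 := by
  obtain ⟨C, hC, hs⟩ := sobQ 0
  have hc := h.c0_pos
  set m : ℝ := min 1 ((c0 / 2) ^ 2) with hm
  have hm0 : 0 < m := lt_min one_pos (by positivity)
  have hm1 : m ≤ 1 := min_le_left _ _
  refine ⟨m / (C + 1), by positivity, (div_le_one (by positivity)).2 (by linarith), fun t ht G hG => ?_⟩
  have h0 := lam_pos ht.2
  have key : ∀ x : I01, ((x : ℝ) + lam t) ^ 2 * Tv (lam t) 25 G x ≤ m := fun x => by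
    have h1 := hs _ h0 (lam_le_one ht.1) G x
    rw [sub_zero, Real.rpow_two] at h1
    refine h1.trans ((mul_le_mul_of_nonneg_left hG hC).trans ?_)
    rw [← mul_div_assoc, div_le_iff₀ (by positivity)]
    nlinarith
  refine ⟨fun x => ?_, fun x => by linarith [key x]⟩
  have h1 : ((x : ℝ) * (1 - x) * ev x G) ^ 2 ≤ (c0 / 2) ^ 2 := by
    refine le_trans ?_ ((key x).trans (min_le_right _ _))
    rw [mul_pow]
    exact mul_le_mul (pow_le_pow_left₀ (q_nonneg x) (q_le_ell h0 x) 2) (sq_le_Tv h0 25 G x) (sq_nonneg _)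
      (sq_nonneg _)
  have h2 := (abs_le_of_sq_le_sq' h1 (by positivity)).2
  rw [one_smul, map_sub, map_mul, ev_q]
  linarith [h.lower t ht x]

lemma winc_w {l a T : ℝ} (h0 : 0 < l) (hT : 0 ≤ T) : -(1 / (2 * l)) * a * T ≤ |a| * (T / l) := by
  have h1 : -(1 / (2 * l)) * a * T = -a / 2 * (T / l) := by
    field_simp
  rw [h1]
  refine mul_le_mul_of_nonneg_right ?_ (div_nonneg hT h0.le)
  linarith [neg_le_abs a, abs_nonneg a]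

/-- The differential inequality for `Q_b` along a solution with source (`hasDeriv_tp` twice, `en_Q`):
the weight terms are `≤ (C/λ) Q_{b+1}`, and `tp 0 (b+2) ≤ tp 0 (b+1)/λ`. -/
lemma deriv_Q (h : CfOK cf c0 K) (b : ℝ) (hb : b ≤ 3) : ∃ c C, 0 < c ∧ 0 ≤ C ∧
    ∀ σ : ℝ, (σ = 0 ∨ σ = 1) → ∀ (G : ℝ → SF) (s : SF) (S : Set ℝ) (t : ℝ), t ∈ Ico (-1 : ℝ) 0 →
    JD G (rhs σ (cf t) (G t) + s) S t → Adm σ cf c0 t (G t) →
    ∃ Y', HasDerivWithinAt (fun τ => QQ (lam τ) b (G τ)) Y' S t ∧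
      Y' ≤ -c * nT (lam t) 42 (b + 2) (G t) +
        C * (QQ (lam t) (b + 1) (G t) / lam t + σ + nT (lam t) 38 (b - 2) s) := by
  obtain ⟨c, C, hc, hC, hQ⟩ := en_Q b (c0 / 2) K hb (half_pos h.c0_pos)
  refine ⟨c, C + |((0 : ℕ) : ℝ) - 10 - b| + |((40 : ℕ) : ℝ) - 10 - b|, hc, by positivity,
    fun σ hσ G s S t ht hG hA => ?_⟩
  have hσ0 : 0 ≤ σ := by rcases hσ with rfl | rfl <;> norm_num
  have h0 := lam_pos ht.2
  have hl := (hasDerivAt_lam ht.2).hasDerivWithinAt (s := S)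
  refine ⟨_, (hasDeriv_tp hG hl h0 0 b).add (hasDeriv_tp hG hl h0 40 b), ?_⟩
  have e1 := hQ (lam t) h0 (lam_le_one ht.1) σ hσ (cf t) (G t) s (h.bd t ht) hA.1
    fun x => (hA.2 x).trans h.one_le
  have p0 := tp_nonneg (lam t) 0 (b + 1) (G t)
  have p1 := tp_nonneg (lam t) 40 (b + 1) (G t)
  have e2 := winc_w (a := ((0 : ℕ) : ℝ) - 10 - b) h0 p0
  have e3 := winc_w (a := ((40 : ℕ) : ℝ) - 10 - b) h0 p1
  have e4 : tp (lam t) 0 (b + 2) (G t) ≤ tp (lam t) 0 (b + 1) (G t) / lam t := by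
    have := tp_succ_le h0 0 (b + 1) (G t)
    rw [show b + 1 + 1 = b + 2 by ring] at this
    rw [le_div_iff₀ h0]
    linarith
  have p2 := nT_nonneg h0 38 (b - 2) s
  have q0 := div_nonneg p0 h0.le
  have q1 := div_nonneg p1 h0.le
  rw [QQ, add_div]
  have a0 := abs_nonneg (((0 : ℕ) : ℝ) - 10 - b)
  have a1 := abs_nonneg (((40 : ℕ) : ℝ) - 10 - b)
  generalize |((0 : ℕ) : ℝ) - 10 - b| = A0 at *
  generalize |((40 : ℕ) : ℝ) - 10 - b| = A1 at *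
  have m1 := mul_le_mul_of_nonneg_left e4 hC
  have m2 := mul_nonneg hC q1
  have m3 := mul_nonneg a0 (add_nonneg (add_nonneg q1 hσ0) p2)
  have m4 := mul_nonneg a1 (add_nonneg (add_nonneg q0 hσ0) p2)
  linarith

lemma winc_sol (h : CfOK cf c0 K) (b : ℝ) (hb : b ≤ 3) {ϱ : ℝ} (hϱ : 0 < ϱ) : ∃ C, 0 ≤ C ∧
    ∀ σ : ℝ, (σ = 0 ∨ σ = 1) → ∀ t1 t2, Win ϱ t1 t2 → ∀ G : ℝ → SF,
    Sol (fun t => rhs σ (cf t)) G (Icc t1 t2) → (∀ t ∈ Icc t1 t2, Adm σ cf c0 t (G t)) →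
    ∃ Y' : ℝ → ℝ, ∀ t ∈ Icc t1 t2,
      HasDerivWithinAt (fun τ => QQ (lam τ) b (G τ)) (Y' t) (Icc t1 t2) t ∧
      Y' t ≤ C * (QQ (lam t) (b + 1) (G t) / lam t + σ) := by
  obtain ⟨c, C, hc, hC, hQ⟩ := deriv_Q h b hb
  refine ⟨C, hC, fun σ hσ t1 t2 hw G hG hA => ?_⟩
  have key : ∀ t ∈ Icc t1 t2, ∃ Y', HasDerivWithinAt (fun τ => QQ (lam τ) b (G τ)) Y' (Icc t1 t2) t ∧
      Y' ≤ C * (QQ (lam t) (b + 1) (G t) / lam t + σ) := fun t ht => by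
    obtain ⟨m1, m2, -⟩ := hw.mem hϱ ht
    obtain ⟨Y', h1, h2⟩ := hQ σ hσ G 0 (Icc t1 t2) t m1 (by rw [add_zero]; exact hG t ht) (hA t ht)
    refine ⟨Y', h1, ?_⟩
    rw [nT_zero_fun, add_zero] at h2
    have := mul_nonneg hc.le (nT_nonneg m2 42 (b + 2) (G t))
    linarith
  choose! Y' hY' using key
  exact ⟨Y', hY'⟩

/-- `deriv_Q` with `b = 1` (`Q_2/λ ≤ Q_1/λ²`, `gron`), then `b = 0` (`gron` with `p = 0`,
`Q_1/λ = II/λ²`) -/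
lemma win_gen (h : CfOK cf c0 K) (ϱ : ℝ) (hϱ : ϱ ∈ Ioo (0 : ℝ) 1) : ∃ B, 1 ≤ B ∧
    ∀ σ : ℝ, (σ = 0 ∨ σ = 1) → ∀ t1 t2, Win ϱ t1 t2 → ∀ G : ℝ → SF,
    Sol (fun t => rhs σ (cf t)) G (Icc t1 t2) → (∀ t ∈ Icc t1 t2, Adm σ cf c0 t (G t)) →
    ∀ t ∈ Icc t1 t2, II (lam t) (G t) ≤ B * (II (lam t1) (G t1) + σ * lam t1 ^ 3) ∧
      OO (lam t) (G t) ≤ OO (lam t1) (G t1) + B * (II (lam t1) (G t1) + σ * lam t1 ^ 2) := by
  obtain ⟨C1, hC1, h1⟩ := winc_sol h 1 (by norm_num) hϱ.1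
  obtain ⟨C0, hC0, h0⟩ := winc_sol h 0 (by norm_num) hϱ.1
  have hr : 0 < ϱ ^ 2 := pow_pos hϱ.1 2
  have hr1 : 1 ≤ (ϱ ^ 2)⁻¹ := (one_le_inv₀ hr).2 (pow_le_one₀ hϱ.1.le hϱ.2.le)
  obtain ⟨A, hA⟩ : ∃ A : ℝ, A = (ϱ ^ 2)⁻¹ ^ C1 := ⟨_, rfl⟩
  have hA1 : 1 ≤ A := hA ▸ Real.one_le_rpow hr1 hC1
  obtain ⟨B1, hB1⟩ : ∃ B1 : ℝ, B1 = A * (1 + C1) := ⟨_, rfl⟩
  have hB : 1 ≤ B1 := by
    rw [hB1]
    nlinarith
  have hD : 0 ≤ C0 * (B1 * (ϱ ^ 2)⁻¹ + 1) := by positivity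
  refine ⟨B1 + C0 * (B1 * (ϱ ^ 2)⁻¹ + 1), by linarith, fun σ hσ t1 t2 hw G hG hAd => ?_⟩
  have hσ0 : 0 ≤ σ := by rcases hσ with rfl | rfl <;> norm_num
  have h2 : t2 < 0 := hw.hi.trans_lt (mul_neg_of_pos_of_neg hr hw.neg)
  have l0 := lam_pos hw.neg
  have l1 := lam_le_one hw.lo
  have l2 := lam_sq hw.neg.le
  have hI := II_nonneg l0 (G t1)
  obtain ⟨Y1, hY1⟩ := h1 σ hσ t1 t2 hw G hG hAd
  obtain ⟨Y0, hY0⟩ := h0 σ hσ t1 t2 hw G hG hAd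
  have g1 := gron (p := C1) (g0 := C1 * σ) h2 hC1 (mul_nonneg hC1 hσ0) (fun t ht => (hY1 t ht).1)
    fun t ht => by
      obtain ⟨m1, m2, -⟩ := hw.mem hϱ.1 ht
      refine (hY1 t ht).2.trans ?_
      have e : QQ (lam t) (1 + 1) (G t) / lam t ≤ QQ (lam t) 1 (G t) / -t := by
        rw [← lam_sq m1.2.le, sq, ← div_div]
        refine div_le_div_of_nonneg_right ?_ m2.le
        rw [le_div_iff₀ m2, QQ, QQ]
        linarith [tp_succ_le m2 0 1 (G t), tp_succ_le m2 40 1 (G t)]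
      have := mul_le_mul_of_nonneg_left e hC1
      rw [div_mul_eq_mul_div, mul_div_assoc]
      linarith
  have k1 : ∀ t ∈ Icc t1 t2, II (lam t) (G t) ≤ B1 * (II (lam t1) (G t1) + σ * lam t1 ^ 3) := by
    intro t ht
    obtain ⟨m1, m2, -, m4, -⟩ := hw.mem hϱ.1 ht
    have a1 : (t1 / t) ^ C1 ≤ A := by
      rw [hA]
      refine Real.rpow_le_rpow (div_nonneg_of_nonpos hw.neg.le m1.2.le) ?_ hC1
      rw [div_le_iff_of_neg m1.2, inv_mul_le_iff₀ hr]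
      exact ht.2.trans hw.hi
    have a2 : C1 * σ * (t - t1) ≤ C1 * σ * lam t1 ^ 2 :=
      mul_le_mul_of_nonneg_left (by linarith [m1.2]) (mul_nonneg hC1 hσ0)
    have a3 : QQ (lam t) 1 (G t) ≤ A * (QQ (lam t1) 1 (G t1) + C1 * σ * lam t1 ^ 2) :=
      (g1 t ht).trans (mul_le_mul a1 (by linarith) (add_nonneg (QQ_nonneg ..)
        (mul_nonneg (mul_nonneg hC1 hσ0) (sub_nonneg.2 ht.1))) (by linarith))
    have a4 := mul_le_mul m4 a3 (QQ_nonneg ..) l0.le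
    have a5 := mul_nonneg (mul_nonneg (zero_le_one.trans hA1) hC1) hI
    have a6 : 0 ≤ A * (σ * lam t1 ^ 3) := by positivity
    rw [hB1]
    unfold II at a5 ⊢
    linarith
  have hX : 0 ≤ II (lam t1) (G t1) + σ * lam t1 ^ 3 := by positivity
  have g0 := gron (p := 0) (g0 := C0 * (B1 * (II (lam t1) (G t1) + σ * lam t1 ^ 3) *
      ((ϱ ^ 2)⁻¹ / lam t1 ^ 2) + σ)) h2 le_rfl (by positivity) (fun t ht => (hY0 t ht).1)
    fun t ht => by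
      obtain ⟨m1, m2, -, -, m5⟩ := hw.mem hϱ.1 ht
      refine (hY0 t ht).2.trans ?_
      rw [zero_div, zero_mul, zero_add, zero_add]
      refine mul_le_mul_of_nonneg_left (add_le_add_left ?_ σ) hC0
      have e : QQ (lam t) 1 (G t) / lam t = II (lam t) (G t) * (lam t ^ 2)⁻¹ := by
        unfold II
        field_simp
      rw [e]
      refine mul_le_mul (k1 t ht) ?_ (by positivity) (by positivity)
      rw [div_eq_mul_inv, ← mul_inv, ← mul_pow]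
      exact inv_anti₀ (pow_pos (mul_pos hϱ.1 l0) 2) (pow_le_pow_left₀ (mul_pos hϱ.1 l0).le m5 2)
  intro t ht
  obtain ⟨m1, -⟩ := hw.mem hϱ.1 ht
  refine ⟨(k1 t ht).trans (mul_le_mul_of_nonneg_right (by linarith) hX), ?_⟩
  have a1 := g0 t ht
  rw [Real.rpow_zero, one_mul] at a1
  have a2 := mul_le_mul_of_nonneg_left (show t - t1 ≤ lam t1 ^ 2 by linarith [m1.2])
    (show 0 ≤ C0 * (B1 * (II (lam t1) (G t1) + σ * lam t1 ^ 3) * ((ϱ ^ 2)⁻¹ / lam t1 ^ 2) + σ) by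
      positivity)
  have a3 : C0 * (B1 * (II (lam t1) (G t1) + σ * lam t1 ^ 3) * ((ϱ ^ 2)⁻¹ / lam t1 ^ 2) + σ) *
      lam t1 ^ 2 =
      C0 * (B1 * (ϱ ^ 2)⁻¹) * (II (lam t1) (G t1) + σ * lam t1 ^ 3) + C0 * (σ * lam t1 ^ 2) := by
    field_simp
  have a4 : σ * lam t1 ^ 3 ≤ σ * lam t1 ^ 2 :=
    mul_le_mul_of_nonneg_left (pow_le_pow_of_le_one l0.le l1 (by norm_num)) hσ0
  have a5 := mul_le_mul_of_nonneg_left a4 (show 0 ≤ C0 * (B1 * (ϱ ^ 2)⁻¹) by positivity)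
  have a6 := mul_nonneg hC0 hI
  have a7 : 0 ≤ B1 * (II (lam t1) (G t1) + σ * lam t1 ^ 2) := by positivity
  unfold OO
  linarith

/-- difference of two admissible solutions: `win_L` with `en_diff 3` -/
lemma win_Lip (h : CfOK cf c0 K) (ϱ : ℝ) (hϱ : ϱ ∈ Ioo (0 : ℝ) 1) : ∃ B, 0 ≤ B ∧
    ∀ σ : ℝ, (σ = 0 ∨ σ = 1) → ∀ t1 t2, Win ϱ t1 t2 → ∀ G H : ℝ → SF,
    Sol (fun t => rhs σ (cf t)) G (Icc t1 t2) → (∀ t ∈ Icc t1 t2, Adm σ cf c0 t (G t)) →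
    Sol (fun t => rhs σ (cf t)) H (Icc t1 t2) → (∀ t ∈ Icc t1 t2, Adm σ cf c0 t (H t)) →
    ∀ t ∈ Icc t1 t2, LL (lam t) (G t - H t) ≤ B * LL (lam t1) (G t1 - H t1) := by
  obtain ⟨C, -, hC⟩ := en_diff 3 (c0 / 2) K (half_pos h.c0_pos)
  obtain ⟨B, hB, hL⟩ := win_L C ϱ hϱ
  refine ⟨B, hB, fun σ hσ t1 t2 hw G H hG aG hH aH t ht => ?_⟩
  have hσ0 : 0 ≤ σ := by rcases hσ with rfl | rfl <;> norm_num
  have key := hL t1 t2 hw (fun τ => G τ - H τ) (fun τ => rhs σ (cf τ) (G τ) - rhs σ (cf τ) (H τ)) 0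
    le_rfl (fun τ hτ => ⟨(hG τ hτ).sub (hH τ hτ), by
      obtain ⟨m1, m2, m3, -⟩ := hw.mem hϱ.1 hτ
      have e : ∀ F : SF, Adm σ cf c0 τ F →
          ∀ x : I01, σ * (((x : ℝ) + lam τ) ^ 2 * Tv (lam τ) 4 F x) ≤ K := fun F hF x =>
        (mul_le_mul_of_nonneg_left (mul_le_mul_of_nonneg_left (Tv_mono m2 (by norm_num) F x)
          (sq_nonneg _)) hσ0).trans ((hF.2 x).trans h.one_le)
      have := hC (lam τ) m2 m3 σ hσ (cf τ) (G τ) (H τ) ((h.bd τ m1).mono m2 (by norm_num))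
        (aG τ hτ).1 (e _ (aG τ hτ)) (e _ (aH τ hτ))
      rwa [show (3 : ℝ) + 2 = 5 by norm_num, ← add_zero (C * _)] at this⟩) t ht
  simpa only [mul_zero, add_zero] using key

lemma wind_pow {t1 t : ℝ} (h1 : t1 < 0) (ht : t < 0) :
    lam t * (t1 / t) ^ (1 / 4 : ℝ) = √(lam t / lam t1) * lam t1 := by
  have ha := Real.sqrt_pos.2 (lam_pos ht)
  have hb := Real.sqrt_pos.2 (lam_pos h1)
  have ea := Real.sq_sqrt (lam_pos ht).le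
  have eb := Real.sq_sqrt (lam_pos h1).le
  rw [Real.sqrt_div (lam_pos ht).le]
  have e1 := lam_sq h1.le
  have e2 := lam_sq ht.le
  generalize √(lam t) = a at *
  generalize √(lam t1) = b at *
  have e3 : t1 / t = (b / a) ^ 4 := by
    have e4 : t1 = -b ^ 4 := by rw [← eb] at e1; linarith
    have e5 : t = -a ^ 4 := by rw [← ea] at e2; linarith
    rw [e4, e5, div_pow, neg_div_neg_eq]
  rw [e3, show (1 / 4 : ℝ) = ((4 : ℕ) : ℝ)⁻¹ by norm_num,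
    Real.pow_rpow_inv_natCast (by positivity) (by norm_num), ← ea, ← eb]
  field_simp

lemma wind_deriv (h : CfOK cf c0 K) : ∃ C, 0 ≤ C ∧ ∀ (G : ℝ → SF) (S : Set ℝ) (t : ℝ),
    t ∈ Ico (-1 : ℝ) 0 → JD G (rhs 0 (cf t) (G t)) S t →
    ∃ Y', HasDerivWithinAt (fun τ => QQ (lam τ) 1 (G τ)) Y' S t ∧
      Y' ≤ 1 / 4 / (-t) * QQ (lam t) 1 (G t) + C * tp (lam t) 0 3 (G t) := by
  obtain ⟨c, C, hc, hC, hd⟩ := deriv_Q h 1 (by norm_num)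
  have hC' : 0 ≤ C * (4 * (C + 1)) := by positivity
  obtain ⟨C₂, hC₂, hi⟩ := nT_interp 41 3 (c / (C * (4 * (C + 1)) + 1)) (by positivity)
  refine ⟨C * (4 * (C + 1)) * (1 + C₂), by positivity, fun G S t ht hG => ?_⟩
  obtain ⟨Y', hY, hle⟩ := hd 0 (Or.inl rfl) G 0 S t ht (by rwa [add_zero]) (adm_zero h ht _)
  refine ⟨Y', hY, hle.trans ?_⟩
  have h0 := lam_pos ht.2
  have h1 := lam_le_one ht.1
  have hν : (0 : ℝ) < 1 / (4 * (C + 1)) := by positivity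
  have y0 := tp_young h0 0 1 hν (G t)
  have y1 := tp_young h0 40 1 hν (G t)
  rw [one_div_one_div, lam_sq ht.2.le, show (1 : ℝ) + 2 = 3 by norm_num] at y0 y1
  rw [nT_zero_fun, show (1 : ℝ) + 2 = 3 by norm_num, add_zero, add_zero]
  have i1 := hi _ h0 h1 (G t)
  have i2 := tp_le_nT h0 (j := 40) (m := 41) (by norm_num) 3 (G t)
  have i3 := tp_le_nT h0 (j := 41 + 1) (m := 42) le_rfl 3 (G t)
  have n1 := QQ_nonneg (lam t) 1 (G t)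
  have n2 := nT_nonneg h0 42 3 (G t)
  have ht0 : 0 < -t := neg_pos.2 ht.2
  have q1 : QQ (lam t) (1 + 1) (G t) / lam t ≤ 1 / (4 * (C + 1)) / (-t) * QQ (lam t) 1 (G t) +
      4 * (C + 1) * (tp (lam t) 0 3 (G t) + tp (lam t) 40 3 (G t)) := by
    unfold QQ
    rw [add_div]
    linarith
  have q2 : C * (1 / (4 * (C + 1)) / (-t) * QQ (lam t) 1 (G t)) ≤
      1 / 4 / (-t) * QQ (lam t) 1 (G t) := by
    rw [← mul_assoc, ← mul_div_assoc]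
    refine mul_le_mul_of_nonneg_right (div_le_div_of_nonneg_right ?_ ht0.le) n1
    rw [mul_one_div, div_le_div_iff₀ (by positivity) (by norm_num)]
    linarith
  have q3 : C * (4 * (C + 1)) * (c / (C * (4 * (C + 1)) + 1)) ≤ c := by
    rw [← mul_div_assoc, div_le_iff₀ (by positivity)]
    linarith
  have q4 : tp (lam t) 40 3 (G t) ≤ c / (C * (4 * (C + 1)) + 1) * nT (lam t) 42 3 (G t) +
      C₂ * tp (lam t) 0 3 (G t) := by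
    have := mul_le_mul_of_nonneg_left i3 (show 0 ≤ c / (C * (4 * (C + 1)) + 1) by positivity)
    linarith
  have q5 := mul_le_mul_of_nonneg_left q4 hC'
  have q6 := mul_le_mul_of_nonneg_right q3 n2
  have q7 := mul_le_mul_of_nonneg_left q1 hC
  nlinarith

/-- The gain of the linear flow.  `deriv_Q` (`b = 1`, `σ = 0`, `s = 0`); `tp_young` with `C ν = 1/4`:
`C Q_2/λ ≤ Q_1/(4λ²) + C' Q_3`; `C' tp 40 3 ≤ C' nT 41 3 ≤ c tp 42 3 + C'' tp 0 3` (`nT_interp 41`);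
`tp 0 3 = LL/λ³ ≤ B LL(t1)/(ϱ λ1)³` (`win_Lip` with `H = 0`); `gron` with `p = 1/4`,
`(t1/t)^{1/4} λ(t) = √(λ(t)/λ1) λ1`. -/
lemma win_lin (h : CfOK cf c0 K) (ϱ : ℝ) (hϱ : ϱ ∈ Ioo (0 : ℝ) 1) : ∃ B, 0 ≤ B ∧
    ∀ t1 t2, Win ϱ t1 t2 → ∀ G : ℝ → SF, Sol (fun t => rhs 0 (cf t)) G (Icc t1 t2) →
    ∀ t ∈ Icc t1 t2, II (lam t) (G t) ≤ √(lam t / lam t1) * II (lam t1) (G t1) +
      B * LL (lam t1) (G t1) := by
  obtain ⟨C, hC, hd⟩ := wind_deriv h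
  obtain ⟨B, hB, hL⟩ := win_Lip h ϱ hϱ
  have hϱ0 := hϱ.1
  refine ⟨C * B / ϱ ^ 3, by positivity, fun t1 t2 hw G hG => ?_⟩
  have h2 : t2 < 0 := (hw.mem hϱ0 ⟨hw.le, le_rfl⟩).1.2
  have hl1 := lam_pos hw.neg
  have hZ : Sol (fun t => rhs 0 (cf t)) (fun _ => (0 : SF)) (Icc t1 t2) := by
    intro t _
    have e : rhs 0 (cf t) 0 = 0 := by rw [← lin_apply, map_zero]
    simp only [e]
    exact JD.const 0
  have hLL := hL 0 (Or.inl rfl) t1 t2 hw G (fun _ => 0) hG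
    (fun t ht => adm_zero h (hw.mem hϱ0 ht).1 _) hZ (fun t ht => adm_zero h (hw.mem hϱ0 ht).1 _)
  simp only [sub_zero] at hLL
  have nL := LL_nonneg hl1 (G t1)
  have key : ∀ t, ∃ Y', t ∈ Icc t1 t2 →
      HasDerivWithinAt (fun τ => QQ (lam τ) 1 (G τ)) Y' (Icc t1 t2) t ∧
      Y' ≤ 1 / 4 / (-t) * QQ (lam t) 1 (G t) + C * (B * LL (lam t1) (G t1) / (ϱ * lam t1) ^ 3) := by
    intro t
    by_cases ht : t ∈ Icc t1 t2
    · obtain ⟨m1, m2, -, -, m5⟩ := hw.mem hϱ0 ht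
      obtain ⟨Y', hY, hle⟩ := hd G _ t m1 (hG t ht)
      refine ⟨Y', fun _ => ⟨hY, hle.trans (add_le_add le_rfl (mul_le_mul_of_nonneg_left ?_ hC))⟩⟩
      rw [le_div_iff₀ (by positivity)]
      refine le_trans ?_ (hLL t ht)
      unfold LL
      rw [mul_comm]
      exact mul_le_mul_of_nonneg_right (pow_le_pow_left₀ (by positivity) m5 3) (tp_nonneg ..)
    · exact ⟨0, fun h => absurd h ht⟩
  choose Y' hY' using key
  intro t ht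
  obtain ⟨m1, m2, -, m4, -⟩ := hw.mem hϱ0 ht
  have hg0 : 0 ≤ C * (B * LL (lam t1) (G t1) / (ϱ * lam t1) ^ 3) := by positivity
  have hg := gron (Y := fun τ => QQ (lam τ) 1 (G τ)) h2 (by norm_num : (0 : ℝ) ≤ 1 / 4) hg0
    (fun t ht => (hY' t ht).1) (fun t ht => (hY' t ht).2) t ht
  have hr0 : 0 ≤ √(lam t / lam t1) := Real.sqrt_nonneg _
  have hr1 : √(lam t / lam t1) ≤ 1 := Real.sqrt_le_one.2 ((div_le_one hl1).2 m4)
  have ht1 : t - t1 ≤ lam t1 ^ 2 := by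
    rw [lam_sq hw.neg.le]
    linarith [m1.2]
  have e1 : C * B / ϱ ^ 3 * LL (lam t1) (G t1) =
      1 * lam t1 * (C * (B * LL (lam t1) (G t1) / (ϱ * lam t1) ^ 3) * lam t1 ^ 2) := by
    field_simp
  have e2 : √(lam t / lam t1) * lam t1 * (C * (B * LL (lam t1) (G t1) / (ϱ * lam t1) ^ 3) * (t - t1)) ≤
      C * B / ϱ ^ 3 * LL (lam t1) (G t1) := by
    rw [e1]
    exact mul_le_mul (mul_le_mul_of_nonneg_right hr1 hl1.le) (mul_le_mul_of_nonneg_left ht1 hg0)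
      (mul_nonneg hg0 (sub_nonneg.2 ht.1)) (by positivity)
  unfold II
  refine (mul_le_mul_of_nonneg_left hg m2.le).trans ?_
  rw [← mul_assoc, wind_pow hw.neg m1.2, mul_add, ← mul_assoc]
  linarith

lemma e_cont {ϱ t1 t2 : ℝ} (hw : Win ϱ t1 t2) (hϱ : 0 < ϱ) {F : ℝ → SF → SF} {G : ℝ → SF}
    (hG : Sol F G (Icc t1 t2)) : ContinuousOn (fun t => OO (lam t) (G t)) (Icc t1 t2) := by
  intro t ht
  obtain ⟨h1, h2, -⟩ := hw.mem hϱ ht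
  have hl := (hasDerivAt_lam h1.2).hasDerivWithinAt (s := Icc t1 t2)
  exact (hasDeriv_tp (hG t ht) hl h2 0 0).continuousWithinAt.add
    (hasDeriv_tp (hG t ht) hl h2 40 0).continuousWithinAt

lemma e_jc (h : CfOK cf c0 K) {ϱ t1 t2 : ℝ} (hw : Win ϱ t1 t2) (hϱ : 0 < ϱ) :
    CfJC cf (Icc t1 t2) :=
  have hs : Icc t1 t2 ⊆ Ico (-1 : ℝ) 0 := fun _ ht => (hw.mem hϱ ht).1
  ⟨h.jc.1.mono hs, h.jc.2.1.mono hs, h.jc.2.2.1.mono hs, h.jc.2.2.2.mono hs⟩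

lemma e_QQ {ϱ t1 t2 : ℝ} (hw : Win ϱ t1 t2) (hϱ : 0 < ϱ) : ∃ C, 0 ≤ C ∧ ∀ t ∈ Icc t1 t2,
    ∀ G : SF, QQ 1 0 G ≤ C * OO (lam t) G := by
  have h0 : 0 < ϱ * lam t1 := mul_pos hϱ (lam_pos hw.neg)
  obtain ⟨C, hC, h1⟩ := tp_comp 0 0 0 _ h0
  obtain ⟨C', hC', h2⟩ := tp_comp 40 0 0 _ h0
  refine ⟨C + C', by positivity, fun t ht G => ?_⟩
  obtain ⟨-, -, h3, -, h4⟩ := hw.mem hϱ ht
  have e1 := h1 1 (lam t) (h4.trans h3) le_rfl h4 h3 G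
  have e2 := h2 1 (lam t) (h4.trans h3) le_rfl h4 h3 G
  have e3 := mul_nonneg hC (tp_nonneg (lam t) 40 0 G)
  have e4 := mul_nonneg hC' (tp_nonneg (lam t) 0 0 G)
  simp only [OO, QQ]
  nlinarith

/-- `bootstrap` for `t ↦ OO (lam t) (G t)` (continuous by `hasDeriv_tp`), `win_gen` on `[t1,s]`
(`Win.sub`, `Sol.mono`), `II_le_OO` -/
lemma win_boot (h : CfOK cf c0 K) {ε1 : ℝ} (hε : Eps cf c0 ε1) (ϱ : ℝ) (hϱ : ϱ ∈ Ioo (0 : ℝ) 1) :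
    ∃ ε l0, 0 < ε ∧ ε ≤ 1 ∧ 0 < l0 ∧ ∀ t1 t2, Win ϱ t1 t2 → lam t1 ≤ l0 → ∀ G : ℝ → SF,
    Sol (fun t => rhs 1 (cf t)) G (Icc t1 t2) → OO (lam t1) (G t1) ≤ ε →
    ∀ t ∈ Icc t1 t2, OO (lam t) (G t) ≤ ε1 := by
  obtain ⟨B, hB, hg⟩ := win_gen h ϱ hϱ
  obtain ⟨hp, h1, hadm⟩ := hε
  have hB0 : 0 < B := by linarith
  have he : 0 < ε1 / (8 * B) := by positivity
  have heB : B * (ε1 / (8 * B)) = ε1 / 8 := by field_simp
  have he1 : ε1 / (8 * B) ≤ ε1 / 8 := by nlinarith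
  refine ⟨ε1 / (8 * B), ε1 / (8 * B), he, by linarith, he, fun t1 t2 hw hl G hG hO => ?_⟩
  refine bootstrap (α := ε1 / 2) (e_cont hw hϱ.1 hG) (by linarith) (by linarith) fun s hs hb => ?_
  have hws := hw.sub hs
  have h0 := lam_pos hw.neg
  have h2 := (hg 1 (Or.inr rfl) t1 s hws G (hG.mono (Icc_subset_Icc_right hs.2))
    (fun t ht => hadm t (hws.mem hϱ.1 ht).1 _ (hb t ht)) s ⟨hs.1, le_rfl⟩).2
  have h3 := II_le_OO h0 (G t1)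
  have h4 : lam t1 ^ 2 ≤ ε1 / (8 * B) := by nlinarith [lam_le_one hw.lo]
  have h5 : B * (II (lam t1) (G t1) + 1 * lam t1 ^ 2) ≤ B * (ε1 / (8 * B) + ε1 / (8 * B)) :=
    mul_le_mul_of_nonneg_left (by linarith) hB0.le
  rw [mul_add B (ε1 / (8 * B)), heB] at h5
  linarith

lemma e_uniq (h : CfOK cf c0 K) {ϱ : ℝ} (hϱ : ϱ ∈ Ioo (0 : ℝ) 1) {t1 t2 : ℝ} (hw : Win ϱ t1 t2)
    {G H : ℝ → SF} (hG : Sol (fun t => rhs 0 (cf t)) G (Icc t1 t2))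
    (hH : Sol (fun t => rhs 0 (cf t)) H (Icc t1 t2)) (e : G t1 = H t1) : G t2 = H t2 := by
  obtain ⟨B, -, hL⟩ := win_Lip h ϱ hϱ
  have ht : t2 ∈ Icc t1 t2 := ⟨hw.le, le_rfl⟩
  have h0 := (hw.mem hϱ.1 ht).2.1
  have h1 := hL 0 (Or.inl rfl) t1 t2 hw G H hG (fun t ht => adm_zero h (hw.mem hϱ.1 ht).1 _) hH
    (fun t ht => adm_zero h (hw.mem hϱ.1 ht).1 _) t2 ht
  have h2 : LL (lam t1) (G t1 - H t1) = 0 := by simp [e, LL, tp]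
  rw [h2, mul_zero] at h1
  have h3 := le_antisymm h1 (LL_nonneg h0 _)
  exact sub_eq_zero.1 (eq_zero_of_tp h0 ((mul_eq_zero.1 h3).resolve_left (pow_pos h0 3).ne'))

/-- `global_ex` with `σ = 0` (`win_gen`, `tp_comp`); uniqueness by `win_Lip`, `eq_zero_of_tp`;
linearity from `lin` -/
lemma win_exS (h : CfOK cf c0 K) (ϱ : ℝ) (hϱ : ϱ ∈ Ioo (0 : ℝ) 1) {t1 t2 : ℝ} (hw : Win ϱ t1 t2) :
    ∃ S : SF →ₗ[ℝ] SF, ∀ u, ∃ G, Sol (fun t => rhs 0 (cf t)) G (Icc t1 t2) ∧ G t1 = u ∧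
      G t2 = S u := by
  obtain ⟨B, hB, hg⟩ := win_gen h ϱ hϱ
  obtain ⟨C, hC, hQ⟩ := e_QQ hw hϱ.1
  have ex : ∀ u, ∃ G, Sol (fun t => rhs 0 (cf t)) G (Icc t1 t2) ∧ G t1 = u := fun u => by
    refine global_ex cf t1 t2 hw.le (e_jc h hw hϱ.1) 0 (Or.inl rfl) (c0 / 2)
      (C * (OO (lam t1) u + B * (II (lam t1) u + 0 * lam t1 ^ 2))) (half_pos h.c0_pos) u
      fun t' ht' G hG e => ⟨(adm_zero h (hw.mem hϱ.1 ht').1 _).1, (hQ t' ht' _).trans ?_⟩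
    have hws := hw.sub ht'
    have h2 := (hg 0 (Or.inl rfl) t1 t' hws G hG
      (fun t ht => adm_zero h (hws.mem hϱ.1 ht).1 _) t' ⟨ht'.1, le_rfl⟩).2
    rw [e] at h2
    exact mul_le_mul_of_nonneg_left h2 hC
  choose G hG e using ex
  refine ⟨{ toFun := fun u => G u t2, map_add' := fun u v => ?_, map_smul' := fun c u => ?_ },
    fun u => ⟨G u, hG u, e u, rfl⟩⟩
  · refine e_uniq h hϱ hw (H := fun t => G u t + G v t) (hG _) (fun t ht => ?_) (by simp only [e])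
    have := (hG u t ht).add (hG v t ht)
    simp only [← lin_apply, map_add] at this ⊢
    exact this
  · refine e_uniq h hϱ hw (H := fun t => c • G u t) (hG _) (fun t ht => ?_) (by simp only [e])
    have := (hG u t ht).smul c
    simp only [← lin_apply, map_smul] at this ⊢
    exact this

/-- `global_ex` with `σ = 1`, `win_boot`, `tp_comp` -/
lemma win_exf (h : CfOK cf c0 K) {ε1 : ℝ} (hε : Eps cf c0 ε1) (ϱ : ℝ) (hϱ : ϱ ∈ Ioo (0 : ℝ) 1) :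
    ∃ ε l0, 0 < ε ∧ ε ≤ 1 ∧ 0 < l0 ∧ ∀ t1 t2, Win ϱ t1 t2 → lam t1 ≤ l0 → ∀ u : SF,
    OO (lam t1) u ≤ ε → ∃ G, Sol (fun t => rhs 1 (cf t)) G (Icc t1 t2) ∧ G t1 = u ∧
      ∀ t ∈ Icc t1 t2, OO (lam t) (G t) ≤ ε1 := by
  obtain ⟨ε, l0, h1, h2, h3, hb⟩ := win_boot h hε ϱ hϱ
  refine ⟨ε, l0, h1, h2, h3, fun t1 t2 hw hl u hu => ?_⟩
  obtain ⟨C, hC, hQ⟩ := e_QQ hw hϱ.1
  obtain ⟨G, hG, e⟩ := global_ex cf t1 t2 hw.le (e_jc h hw hϱ.1) 1 (Or.inr rfl) (c0 / 2) (C * ε1)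
    (half_pos h.c0_pos) u fun t' ht' G hG e => by
      have h4 := hb t1 t' (hw.sub ht') hl G hG (e ▸ hu) t' ⟨ht'.1, le_rfl⟩
      exact ⟨(hε.2.2 t' (hw.mem hϱ.1 ht').1 _ h4).1,
        (hQ t' ht' _).trans (mul_le_mul_of_nonneg_left h4 hC)⟩
  exact ⟨G, hG, e, hb t1 t2 hw hl G hG (e ▸ hu)⟩

lemma wf_QQ {t : ℝ} (ht : t < 0) (b : ℝ) (f : SF) :
    QQ (lam t) (b + 1) f / lam t ≤ QQ (lam t) b f / (-t) := by
  have h0 := lam_pos ht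
  rw [← lam_sq ht.le, div_le_div_iff₀ h0 (by positivity)]
  have h1 := tp_succ_le h0 0 b f
  have h2 := tp_succ_le h0 40 b f
  unfold QQ
  nlinarith [mul_le_mul_of_nonneg_left (add_le_add h1 h2) h0.le]

lemma wf_pow {ϱ t1 t2 t p : ℝ} (hw : Win ϱ t1 t2) (hϱ : 0 < ϱ) (ht : t ∈ Icc t1 t2) (hp : 0 ≤ p) :
    (t1 / t) ^ p ≤ (1 / ϱ ^ 2) ^ p := by
  have h1 : t < 0 := (hw.mem hϱ ht).1.2
  have h2 := ht.2.trans hw.hi
  refine Real.rpow_le_rpow (div_nonneg_of_nonpos hw.neg.le h1.le) ?_ hp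
  rw [← neg_div_neg_eq, div_le_div_iff₀ (neg_pos.2 h1) (by positivity)]
  linarith

/-- Nonlinear minus linear flow.  `ζ = G - H` solves `ζ' = rhs 0 ζ + s`, `s = rhs 1 G - rhs 0 G`,
`nT 38 (-1) s ≤ 2 C M nT 42 3 G + 2 K 2²` with `M = min 1 (C' m)` (`src_cmp 1`, `sobQ 0`, `nT_add`,
`nT_le_of_bd`).  `Y = Q_1(ζ) + κ Q_1(G)` with `κ c = 2 C C M`: `deriv_Q` twice gives
`Y' ≤ (C/λ²) Y + C`; `gron`, `ζ(t1) = 0`. -/
lemma win_cmp (h : CfOK cf c0 K) {ε1 : ℝ} (hε : Eps cf c0 ε1) (ϱ : ℝ) (hϱ : ϱ ∈ Ioo (0 : ℝ) 1) :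
    ∃ B, 0 ≤ B ∧ ∀ t1 t2, Win ϱ t1 t2 → ∀ (G H : ℝ → SF) (m : ℝ),
    Sol (fun t => rhs 1 (cf t)) G (Icc t1 t2) → Sol (fun t => rhs 0 (cf t)) H (Icc t1 t2) →
    G t1 = H t1 → (∀ t ∈ Icc t1 t2, OO (lam t) (G t) ≤ ε1 ∧ OO (lam t) (G t) ≤ m) →
    ∀ t ∈ Icc t1 t2, II (lam t) (G t - H t) ≤ B * (m * II (lam t1) (G t1) + lam t1 ^ 3) := by
  obtain ⟨c, C, hc, hC, hQ⟩ := deriv_Q h 1 (by norm_num)
  obtain ⟨C1, hC1, h1⟩ := src_cmp 1 K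
  obtain ⟨C2, hC2, h2⟩ := sobQ 0
  have hK : 0 ≤ K := zero_le_one.trans h.one_le
  obtain ⟨E, hE⟩ : ∃ E : ℝ, E = K * 2 ^ (1 - (1 - 2 : ℝ)) := ⟨_, rfl⟩
  have hE0 : 0 ≤ E := by rw [hE]; positivity
  obtain ⟨k0, hk0⟩ : ∃ k0 : ℝ, k0 = 2 * C * C1 / c := ⟨_, rfl⟩
  have hk00 : 0 ≤ k0 := by rw [hk0]; positivity
  have hk0c : k0 * c = 2 * C * C1 := by rw [hk0, div_mul_cancel₀ _ hc.ne']
  obtain ⟨P, hP⟩ : ∃ P : ℝ, P = (1 / ϱ ^ 2) ^ C := ⟨_, rfl⟩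
  have hP0 : 0 ≤ P := by rw [hP]; positivity
  refine ⟨P * (k0 * C2 + (2 * C * E + k0 * C)), by positivity, ?_⟩
  intro t1 t2 hw G H m hG hH h0 hm t ht
  have ht1 : t1 ∈ Icc t1 t2 := ⟨le_rfl, hw.le⟩
  have hm0 : 0 ≤ m := (OO_nonneg _ _).trans (hm t1 ht1).2
  obtain ⟨M, hM⟩ : ∃ M : ℝ, M = min 1 (C2 * m) := ⟨_, rfl⟩
  have hM0 : 0 ≤ M := by rw [hM]; positivity
  have hM1 : M ≤ 1 := by rw [hM]; exact min_le_left _ _
  have hM2 : M ≤ C2 * m := by rw [hM]; exact min_le_right _ _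
  have hκ : 0 ≤ k0 * M := mul_nonneg hk00 hM0
  have key : ∀ t ∈ Icc t1 t2, ∃ Y', HasDerivWithinAt
      (fun τ => QQ (lam τ) 1 (G τ - H τ) + k0 * M * QQ (lam τ) 1 (G τ)) Y' (Icc t1 t2) t ∧
      Y' ≤ C / (-t) * (QQ (lam t) 1 (G t - H t) + k0 * M * QQ (lam t) 1 (G t)) +
        (2 * C * E + k0 * C) := by
    intro t ht
    obtain ⟨htI, hl0, hl1, -, -⟩ := hw.mem hϱ.1 ht
    have hA := hε.2.2 t htI (G t) (hm t ht).1
    have hd : JD (fun τ => G τ - H τ) (rhs 0 (cf t) (G t - H t) +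
        (rhs 1 (cf t) (G t) - rhs 0 (cf t) (G t))) (Icc t1 t2) t := by
      have e : rhs 0 (cf t) (G t - H t) + (rhs 1 (cf t) (G t) - rhs 0 (cf t) (G t)) =
          rhs 1 (cf t) (G t) - rhs 0 (cf t) (H t) := by
        rw [← lin_apply, map_sub, lin_apply, lin_apply]
        abel
      rw [e]
      exact (hG t ht).sub (hH t ht)
    obtain ⟨Y1, d1, b1⟩ := hQ 0 (Or.inl rfl) (fun τ => G τ - H τ) _ _ t htI hd (adm_zero h htI _)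
    obtain ⟨Y2, d2, b2⟩ := hQ 1 (Or.inr rfl) G 0 _ t htI (by rw [add_zero]; exact hG t ht) hA
    refine ⟨_, d1.add (d2.const_mul (k0 * M)), ?_⟩
    have s1 := h1 (lam t) hl0 hl1 (cf t) (G t) M (h.bd t htI) hM1 fun x => by
      rw [hM]
      refine le_min (by simpa using hA.2 x) ?_
      have := h2 (lam t) hl0 hl1 (G t) x
      rw [sub_zero, Real.rpow_two] at this
      exact this.trans (mul_le_mul_of_nonneg_left (hm t ht).2 hC2)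
    have s2 : nT (lam t) 38 (1 - 2) (cf t).e0 ≤ E := by
      rw [hE]
      exact nT_le_of_bd hl0 hl1 (by norm_num) fun x =>
        (((h.bd t htI).mono hl0 (by norm_num : 38 ≤ 40)) x).2.2.2
    have s3 := nT_add hl0 38 (1 - 2) (rhs 1 (cf t) (G t) - rhs 0 (cf t) (G t) - (cf t).e0) (cf t).e0
    rw [sub_add_cancel] at s3
    rw [nT_zero_fun] at b2
    have q1 := mul_le_mul_of_nonneg_left (wf_QQ htI.2 1 (G t - H t)) hC
    have q2 := mul_le_mul_of_nonneg_left (mul_le_mul_of_nonneg_left (wf_QQ htI.2 1 (G t)) hC) hκ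
    have n1 := mul_nonneg hc.le (nT_nonneg hl0 42 (1 + 2) (G t - H t))
    have s4 := mul_le_mul_of_nonneg_left
      (s3.trans (add_le_add (mul_le_mul_of_nonneg_left s1 zero_le_two)
        (mul_le_mul_of_nonneg_left s2 zero_le_two))) hC
    have b3 := mul_le_mul_of_nonneg_left b2 hκ
    have m1 := mul_le_mul_of_nonneg_left hM1 (mul_nonneg hk00 hC)
    have e1 : k0 * c * (M * nT (lam t) 42 (1 + 2) (G t)) =
        2 * C * C1 * (M * nT (lam t) 42 (1 + 2) (G t)) := by rw [hk0c]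
    have e2 : C / (-t) * (QQ (lam t) 1 (G t - H t) + k0 * M * QQ (lam t) 1 (G t)) =
        C * (QQ (lam t) 1 (G t - H t) / (-t)) + k0 * M * (C * (QQ (lam t) 1 (G t) / (-t))) := by ring
    rw [e2]
    linear_combination b1 + b3 + q1 + q2 + n1 + s4 + m1 - e1
  choose! Y' hY hY' using key
  have ht2 : t2 < 0 := (hw.mem hϱ.1 ⟨hw.le, le_rfl⟩).1.2
  have hg0 : 0 ≤ 2 * C * E + k0 * C := by positivity
  have hgr := gron ht2 hC hg0 hY hY' t ht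
  obtain ⟨htI, hl0, -, hl2, -⟩ := hw.mem hϱ.1 ht
  have hl1 := lam_pos hw.neg
  have z : QQ (lam t1) 1 (G t1 - H t1) = 0 := by
    rw [h0, sub_self]
    simp [QQ, tp]
  rw [z, zero_add] at hgr
  have hQ1 := QQ_nonneg (lam t1) 1 (G t1)
  have hQ2 := QQ_nonneg (lam t) 1 (G t - H t)
  have a1 : k0 * M * QQ (lam t1) 1 (G t1) + (2 * C * E + k0 * C) * (t - t1) ≤
      k0 * C2 * (m * QQ (lam t1) 1 (G t1)) + (2 * C * E + k0 * C) * lam t1 ^ 2 := by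
    have := mul_le_mul_of_nonneg_right (mul_le_mul_of_nonneg_left hM2 hk00) hQ1
    have h3 : t - t1 ≤ lam t1 ^ 2 := by rw [lam_sq hw.neg.le]; linarith [htI.2]
    linarith [mul_le_mul_of_nonneg_left h3 hg0]
  have a2 : QQ (lam t) 1 (G t - H t) ≤
      P * (k0 * C2 * (m * QQ (lam t1) 1 (G t1)) + (2 * C * E + k0 * C) * lam t1 ^ 2) := by
    refine le_trans (le_add_of_nonneg_right (mul_nonneg hκ (QQ_nonneg _ _ _))) (hgr.trans ?_)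
    refine mul_le_mul (hP ▸ wf_pow hw hϱ.1 ht hC) a1 ?_ hP0
    exact add_nonneg (mul_nonneg hκ hQ1) (mul_nonneg hg0 (sub_nonneg.2 ht.1))
  have a3 := mul_le_mul hl2 a2 hQ2 hl1.le
  refine le_trans a3 ?_
  unfold II
  have a4 : 0 ≤ P * (k0 * C2) * lam t1 ^ 3 := by positivity
  have a5 : 0 ≤ P * (2 * C * E + k0 * C) * (m * (lam t1 * QQ (lam t1) 1 (G t1))) := by positivity
  nlinarith

lemma g_win {ϱ t1 t2 r : ℝ} (hw : Win ϱ t1 t2) (hr : 0 < r) (hr1 : r ≤ 1) : Win ϱ (r ^ 2 * t1) (r ^ 2 * t2) := by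
  have h1 : 0 < r ^ 2 := by positivity
  have h2 : r ^ 2 ≤ 1 := pow_le_one₀ hr.le hr1
  refine ⟨by nlinarith [hw.lo, hw.neg], mul_neg_of_pos_of_neg h1 hw.neg, mul_le_mul_of_nonneg_left hw.le h1.le, ?_⟩
  rw [mul_left_comm]
  exact mul_le_mul_of_nonneg_left hw.hi h1.le

/-- Comparison of two scales.  `Z t = G t - Tr r (H (r² t))` (`JD.comp`, `JD.Tr`) has derivative
`rhs 0 (Z t) - s`, `s = r² Tr r (rhs 0 (cf (r² t)) H) - rhs 0 (cf t) (Tr r H)`; `en_low 3`, `cmp_src`,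
`h.agree`, `lam_mul`, `win_gen` on the window `[r² t1, r² t2]`, `win_L`. -/
lemma win_Tr (h : CfOK cf c0 K) (ϱ : ℝ) (hϱ : ϱ ∈ Ioo (0 : ℝ) 1) : ∃ B, 0 ≤ B ∧
    ∀ t1 t2, Win ϱ t1 t2 → ∀ r, 0 < r → r ≤ 1 → ∀ G H : ℝ → SF,
    Sol (fun t => rhs 0 (cf t)) G (Icc t1 t2) →
    Sol (fun t => rhs 0 (cf t)) H (Icc (r ^ 2 * t1) (r ^ 2 * t2)) →
    LL (lam t2) (G t2 - Tr r (H (r ^ 2 * t2))) ≤
      B * (LL (lam t1) (G t1 - Tr r (H (r ^ 2 * t1))) +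
        lam t1 ^ 4 * II (r * lam t1) (H (r ^ 2 * t1))) := by
  obtain ⟨C1, hC1, H1⟩ := en_low 3 c0 K h.c0_pos
  obtain ⟨C2, hC2, H2⟩ := cmp_src K
  obtain ⟨B1, hB1, H3⟩ := win_gen h ϱ hϱ
  obtain ⟨B2, hB2, H4⟩ := win_L C1 ϱ hϱ
  have hϱ0 := hϱ.1
  have hB1' : 0 ≤ B1 := zero_le_one.trans hB1
  refine ⟨B2 * (1 + C1 * (C2 * B1) / ϱ), by positivity, fun t1 t2 hw r hr hr1 G H hG hH => ?_⟩
  have hw' := g_win hw hr hr1
  have hr2 : 0 ≤ r ^ 2 := sq_nonneg r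
  have hm : MapsTo (fun τ => r ^ 2 * τ) (Icc t1 t2) (Icc (r ^ 2 * t1) (r ^ 2 * t2)) := fun τ hτ =>
    ⟨mul_le_mul_of_nonneg_left hτ.1 hr2, mul_le_mul_of_nonneg_left hτ.2 hr2⟩
  have hl1 : 0 < lam t1 := lam_pos hw.neg
  have hI : 0 ≤ II (r * lam t1) (H (r ^ 2 * t1)) := II_nonneg (mul_pos hr hl1) _
  have hgen := H3 0 (Or.inl rfl) _ _ hw' H hH fun t ht => adm_zero h (hw'.mem hϱ0 ht).1 _
  have key := H4 t1 t2 hw (fun t => G t - Tr r (H (r ^ 2 * t)))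
    (fun t => rhs 0 (cf t) (G t) - Tr r (r ^ 2 • rhs 0 (cf (r ^ 2 * t)) (H (r ^ 2 * t))))
    (C1 * (C2 * (B1 * II (r * lam t1) (H (r ^ 2 * t1))) / (ϱ * lam t1))) (by positivity) (fun t ht => by
      obtain ⟨m1, m2, m3, -, m5⟩ := hw.mem hϱ0 ht
      obtain ⟨n1, -⟩ := hw'.mem hϱ0 (hm ht)
      refine ⟨(hG t ht).sub (((hH _ (hm ht)).comp (φ := fun τ => r ^ 2 * τ)
        (by simpa using ((hasDerivAt_id t).const_mul (r ^ 2)).hasDerivWithinAt) hm).Tr hr.le), ?_⟩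
      have b1 := (h.bd t m1).mono m2 (show 4 ≤ 40 by norm_num)
      have b2 := (h.bd _ n1).mono (lam_pos n1.2) (show 4 ≤ 40 by norm_num)
      rw [lam_mul hr.le] at b2
      have e1 := H2 _ r m2 m3 hr hr1 _ _ _ b1 b2 (h.agree t m1 r ⟨hr, hr1⟩ (H (r ^ 2 * t)))
      have e2 := (hgen _ (hm ht)).1
      rw [lam_mul hr.le, lam_mul hr.le, zero_mul, add_zero] at e2
      have e3 := H1 _ m2 m3 0 (Or.inl rfl) (cf t) (G t - Tr r (H (r ^ 2 * t)))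
        ((-1 : ℝ) • (r ^ 2 • Tr r (rhs 0 (cf (r ^ 2 * t)) (H (r ^ 2 * t))) - rhs 0 (cf t) (Tr r (H (r ^ 2 * t))))) b1
        (fun x => by simpa using h.lower t m1 x) (fun x => by simpa using zero_le_one.trans h.one_le)
      rw [tp_smul, zero_mul, add_zero, show (3 : ℝ) + 2 = 5 by norm_num, show (3 : ℝ) - 2 = 1 by norm_num,
        neg_one_sq, one_mul] at e3
      have e4 : rhs 0 (cf t) (G t) - Tr r (r ^ 2 • rhs 0 (cf (r ^ 2 * t)) (H (r ^ 2 * t))) =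
          rhs 0 (cf t) (G t - Tr r (H (r ^ 2 * t))) + (-1 : ℝ) • (r ^ 2 • Tr r (rhs 0 (cf (r ^ 2 * t))
            (H (r ^ 2 * t))) - rhs 0 (cf t) (Tr r (H (r ^ 2 * t)))) := by
        rw [← lin_apply (cf t) (_ - _), map_sub, lin_apply, lin_apply, map_smul, neg_one_smul]
        abel
      rw [e4]
      refine e3.trans ?_
      rw [mul_add]
      refine add_le_add le_rfl (mul_le_mul_of_nonneg_left (e1.trans ?_) hC1)
      gcongr) t2 ⟨hw.le, le_rfl⟩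
  refine key.trans ?_
  have hL := LL_nonneg hl1 (G t1 - Tr r (H (r ^ 2 * t1)))
  generalize LL (lam t1) (G t1 - Tr r (H (r ^ 2 * t1))) = L at hL ⊢
  generalize II (r * lam t1) (H (r ^ 2 * t1)) = I at hI ⊢
  rw [mul_assoc B2]
  refine mul_le_mul_of_nonneg_left ?_ hB2
  have e : lam t1 ^ 5 * (C1 * (C2 * (B1 * I) / (ϱ * lam t1))) = C1 * (C2 * B1) / ϱ * (lam t1 ^ 4 * I) := by
    field_simp
  have p1 : 0 ≤ C1 * (C2 * B1) / ϱ * L := by positivity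
  have p2 : 0 ≤ lam t1 ^ 4 * I := by positivity
  rw [e]
  nlinarith

end

end Crest.Agent.R213
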